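import Vale.Agent.P002.H627.T6

/-!
# P002, Theorem T++: tensor induction
-/

namespace Vale.Agent.P002.H627

open Module Matrix Kronecker Vale.Agent.P002.H2 Vale.Agent.P002.H377

variable {F : Type} [Group F] {I : Type} [MulAction F I] {V : Type} [AddCommGroup V] [Module ℂ V]

theorem swap_inv {R : Type*} [Monoid R] {T T' P Q : R} (h1 : T * T' = 1) (h2 : T' * T = 1)
    (h : T * P = Q * T) : T' * Q = P * T' :=
  calc T' * Q = T' * (Q * (T * T')) := by rw [h1, mul_one]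
    _ = T' * (Q * T) * T' := by simp only [mul_assoc]
    _ = (T' * T) * P * T' := by rw [← h]; simp only [mul_assoc]
    _ = P * T' := by rw [h2, one_mul]

/-- **the tensor induced case** -/
theorem good_tensor [IsFreeGroup F] [Finite I] [FiniteDimensional ℂ V] {C : Ctx F I}
    {L : IntermediateField ℚ ℂ} {N₀ B : ℕ} (hcu : BaseCurve C L N₀ B)
    (hμ : ∀ k ≤ 2 * B, 0 < k → ∀ z : ℂ, z ^ k = 1 → z ∈ L)
    {H : Subgroup F} {ρ : F → Module.End ℂ V} (h : Adm C N₀ H ρ)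
    (hB : H.index * Module.finrank ℂ V ≤ B) (hV2 : 2 ≤ Module.finrank ℂ V)
    {i₀ : I} {Ω : Type} [Fintype Ω] [DecidableEq Ω] {t : Ω → F}
    (ht : Trans H (H ⊓ MulAction.stabilizer F i₀) t)
    (hcard : Fintype.card Ω = (H ⊓ MulAction.stabilizer F i₀).relIndex H)
    (h1 : Irr (⨆ c, DO C H i₀ t c) ρ)
    (h2 : ∀ c c', c ≠ c' → ∀ x ∈ DO C H i₀ t c, ∀ y ∈ DO C H i₀ t c', ρ x * ρ y = ρ y * ρ x)
    (h3 : ∀ c, ∀ x ∈ C.N (t c • i₀) ⊓ H, ∀ y ∈ DO C H i₀ t c, ρ x * ρ y = ρ y * ρ x) :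
    Good C L H ρ := by
  classical
  have hρ := h.mul
  have hVn : Nontrivial V := h.irr.1
  have hle : H ⊓ MulAction.stabilizer F i₀ ≤ H := inf_le_left
  have hfi := ht.relIndex_ne_zero
  have hρ' : MulOn (H ⊓ MulAction.stabilizer F i₀) ρ := MulOn.mono hρ hle
  obtain ⟨c₀, hc₀⟩ : ∃ c₀, t c₀ ∈ H ⊓ MulAction.stabilizer F i₀ := by
    obtain ⟨c, hc, -⟩ := ht.uniq 1 H.one_mem
    refine ⟨c, ?_⟩
    have := Subgroup.inv_mem _ hc
    simpa using this
  have hΩ : Nonempty Ω := ⟨c₀⟩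
  have hpt : t c₀ • i₀ = i₀ := MulAction.mem_stabilizer_iff.1 (Subgroup.mem_inf.1 hc₀).2
  have hperm : ∀ c, permT ht (t c) (ht.mem c) c₀ = c := fun c =>
    ((mem_iff_permT ht (t c) (ht.mem c) c₀ c).1 (by
      rw [inv_mul_cancel, one_mul]
      exact hc₀)).symm
  have hperm' : ∀ c, permT ht (t c)⁻¹ (H.inv_mem (ht.mem c)) c = c₀ := fun c =>
    ((mem_iff_permT ht (t c)⁻¹ (H.inv_mem (ht.mem c)) c c₀).1 (by
      rw [mul_assoc, inv_mul_cancel, mul_one]
      exact Subgroup.inv_mem _ hc₀)).symm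
  have hpermH : ∀ x (hx : x ∈ H ⊓ MulAction.stabilizer F i₀), permT ht x (hle hx) c₀ = c₀ :=
    fun x hx => ((mem_iff_permT ht x (hle hx) c₀ c₀).1
      (Subgroup.mul_mem _ (Subgroup.mul_mem _ (Subgroup.inv_mem _ hc₀) hx) hc₀)).symm
  have hDc₀ : DO C H i₀ t c₀ ≤ H ⊓ MulAction.stabilizer F i₀ := fun x hx => by
    have hx' := mem_PO.1 (QO_le_PO (DO_le_QO c₀ hx))
    have h4 := hx'.1 c₀
    rw [hpt] at h4
    exact Subgroup.mem_inf.2 ⟨hx'.2, MulAction.mem_stabilizer_iff.2 h4⟩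
  have hNn : ((DO C H i₀ t c₀).subgroupOf (H ⊓ MulAction.stabilizer F i₀)).Normal :=
    ⟨fun n hn g => by
      rw [Subgroup.mem_subgroupOf] at hn ⊢
      have h4 := DO_conj (C := C) ht (hle g.2) c₀ n.1 hn
      rw [hpermH g.1 g.2] at h4
      exact h4⟩
  have hFI : ∀ U, FI (hom hρ') ((DO C H i₀ t c₀).subgroupOf (H ⊓ MulAction.stabilizer F i₀)) U →
      U = ⊥ ∨ U = ⊤ := fun U hU => h1.2 U (inv_of_iSup hρ (fun c => DO_le c) fun c x hx v hv => by
    by_cases hc : c = c₀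
    · subst hc
      exact hU.1 ⟨x, hDc₀ hx⟩ (Subgroup.mem_subgroupOf.2 hx) v hv
    · exact hU.2 (ρ x) (fun n hn => h2 c c₀ hc x hx n (Subgroup.mem_subgroupOf.1 hn)) v hv)
  obtain ⟨a, b, e, ha, hb, k1, k2, k3, k4⟩ := tens2 (ρ := hom hρ') _ hFI
  obtain ⟨α, β, hαβ⟩ := exists_homs e k1
  have hna : Nonempty (Fin a) := ⟨⟨0, ha⟩⟩
  have hnb : Nonempty (Fin b) := ⟨⟨0, hb⟩⟩
  obtain ⟨χ₁, σ, hχ₁, hσ, hασ⟩ := exists_sl (ext1_mulOn α)
  have hT : Tns (H ⊓ MulAction.stabilizer F i₀) ρ e (ext1 α) (ext1 β) :=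
    ⟨ext1_mulOn α, ext1_mulOn β, fun x hx v => by
      rw [ext1_apply α hx, ext1_apply β hx]
      exact hαβ ⟨x, hx⟩ v⟩
  have hZ' : C.Z ≤ H ⊓ MulAction.stabilizer F i₀ :=
    le_inf h.zle ((C.hZN i₀).trans (C.hst i₀))
  have hirrα : Irr (H ⊓ MulAction.stabilizer F i₀) (lu (ext1 α)) :=
    ⟨inferInstance, fun U hU => k4 U fun x hx A hA u hu => by
      have h4 : (ext1 α x.1).1 ⊗ₖ (ext1 β x.1).1 = A ⊗ₖ (1 : Matrix (Fin b) (Fin b) ℂ) := by
        apply Matrix.toLin'.injective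
        refine LinearMap.ext fun v => e.injective ?_
        rw [Matrix.toLin'_apply, Matrix.toLin'_apply, ← hT.eq x.1 x.2]
        exact hA v
      have h5 : A = (ext1 β x.1).1 ⟨0, hb⟩ ⟨0, hb⟩ • (ext1 α x.1).1 := by
        ext i j
        have h6 := congrFun (congrFun h4 (i, ⟨0, hb⟩)) (j, ⟨0, hb⟩)
        rw [kroneckerMap_apply, kroneckerMap_apply, Matrix.one_apply_eq, mul_one] at h6
        rw [← h6, Matrix.smul_apply, smul_eq_mul, mul_comm]
      rw [h5, Matrix.smul_mulVec]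
      exact U.smul_mem _ (hU x.1 x.2 u hu)⟩
  have hAα : Adm C N₀ (H ⊓ MulAction.stabilizer F i₀) (lu (ext1 α)) :=
    adm_of_dom h hle hfi hZ' (lu_mulOn hT.mα) hirrα (fun x hx hc => hT.scalL hx hc)
      fun x hx a a' ha ha' => by
        obtain ⟨b, hb, hb1⟩ := lu_eigen (ext1 β) x
        exact ⟨b, hb, mul_comm a b ▸ hT.eigen hx ha hb1, mul_comm a' b ▸ hT.eigen hx ha' hb1⟩
  have hSim : Sim (H ⊓ MulAction.stabilizer F i₀) (lu (ext1 α)) (LinearEquiv.refl ℂ _) χ₁ σ :=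
    ⟨hχ₁, hσ, fun x hx v => by
      change (ext1 α x).1 *ᵥ v = (χ₁ x : ℂ) • ((σ x).1 *ᵥ v)
      rw [hασ x hx, Matrix.smul_mulVec]⟩
  have hAσ := hSim.adm hAα
  have hsc : Scal (C.N i₀ ⊓ (H ⊓ MulAction.stabilizer F i₀)) (lin σ) := by
    intro x hx
    rw [Subgroup.mem_inf] at hx
    obtain ⟨Bm, hBm⟩ := k3 (ρ x) fun n hn => h3 c₀ x
      (Subgroup.mem_inf.2 ⟨by rw [hpt]; exact hx.1, hle hx.2⟩) n (Subgroup.mem_subgroupOf.1 hn)
    have h4 : (ext1 α x).1 ⊗ₖ (ext1 β x).1 = (1 : Matrix (Fin a) (Fin a) ℂ) ⊗ₖ Bm := by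
      apply Matrix.toLin'.injective
      refine LinearMap.ext fun v => e.injective ?_
      rw [Matrix.toLin'_apply, Matrix.toLin'_apply, ← hT.eq x hx.2]
      exact hBm v
    obtain ⟨c, hc⟩ := scal_of_kron_one (ext1 β x).isUnit h4
    refine ⟨((χ₁ x)⁻¹ : ℂˣ).1 * c, LinearMap.ext fun v => ?_⟩
    have h5 := hSim.lin_apply hx.2 v
    change lin σ x v = ((χ₁ x)⁻¹ : ℂˣ).1 • ((ext1 α x).1 *ᵥ v) at h5
    rw [h5, hc, Matrix.smul_mulVec, Matrix.one_mulVec, smul_smul]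
    rfl
  -- the commuting matrix algebras
  let φ : Ω → (Matrix (Fin a) (Fin a) ℂ →ₐ[ℂ] Module.End ℂ V) := fun c =>
    conjA (mulOn_mul_inv hρ (ht.mem c)) (mulOn_inv_mul hρ (ht.mem c)) (phi0 e)
  have hφ : ∀ c A, φ c A = ρ (t c) * phi0 e A * ρ (t c)⁻¹ := fun _ _ => rfl
  have key0 : ∀ T : Module.End ℂ V, (∀ n ∈ DO C H i₀ t c₀, T * ρ n = ρ n * T) →
      ∀ A, phi0 e A * T = T * phi0 e A := by
    intro T hT' A
    obtain ⟨Bm, hBm⟩ := k3 T fun n hn => hT' n (Subgroup.mem_subgroupOf.1 hn)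
    refine eq_of_apply_e (e := e) fun v => ?_
    rw [Module.End.mul_apply, Module.End.mul_apply, hBm, phi0_apply, phi0_apply, hBm,
      Matrix.mulVec_mulVec, Matrix.mulVec_mulVec, ← Matrix.mul_kronecker_mul,
      ← Matrix.mul_kronecker_mul, mul_one, one_mul, one_mul, mul_one]
  have key : ∀ c (T : Module.End ℂ V), (∀ n ∈ DO C H i₀ t c, T * ρ n = ρ n * T) →
      ∀ A, φ c A * T = T * φ c A := by
    intro c T hT' A
    have hu1 := mulOn_mul_inv hρ (ht.mem c)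
    have hu2 := mulOn_inv_mul hρ (ht.mem c)
    have h4 := key0 (ρ (t c)⁻¹ * T * ρ (t c)) (fun n hn => by
      have hnH := DO_le c₀ hn
      have h5 := DO_conj (C := C) ht (ht.mem c) c₀ n hn
      rw [hperm c] at h5
      have h6 : ρ (t c) * ρ n = ρ (t c * n * (t c)⁻¹) * ρ (t c) := by
        rw [← hρ.mul _ (ht.mem c) _ hnH, ← hρ.mul _ (DO_le c h5) _ (ht.mem c)]
        congr 1
        group
      have h7 : ρ (t c)⁻¹ * ρ (t c * n * (t c)⁻¹) = ρ n * ρ (t c)⁻¹ := by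
        rw [← hρ.mul _ (H.inv_mem (ht.mem c)) _ (DO_le c h5),
          ← hρ.mul _ hnH _ (H.inv_mem (ht.mem c))]
        congr 1
        group
      calc ρ (t c)⁻¹ * T * ρ (t c) * ρ n = ρ (t c)⁻¹ * T * (ρ (t c) * ρ n) := by
            simp only [mul_assoc]
        _ = ρ (t c)⁻¹ * (T * ρ (t c * n * (t c)⁻¹)) * ρ (t c) := by
            rw [h6]
            simp only [mul_assoc]
        _ = (ρ (t c)⁻¹ * ρ (t c * n * (t c)⁻¹)) * T * ρ (t c) := by
            rw [hT' _ h5]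
            simp only [mul_assoc]
        _ = ρ n * (ρ (t c)⁻¹ * T * ρ (t c)) := by
            rw [h7]
            simp only [mul_assoc]) A
    rw [hφ]
    calc ρ (t c) * phi0 e A * ρ (t c)⁻¹ * T
        = ρ (t c) * phi0 e A * ρ (t c)⁻¹ * T * (ρ (t c) * ρ (t c)⁻¹) := by rw [hu1, mul_one]
      _ = ρ (t c) * (phi0 e A * (ρ (t c)⁻¹ * T * ρ (t c))) * ρ (t c)⁻¹ := by
          simp only [mul_assoc]
      _ = (ρ (t c) * ρ (t c)⁻¹) * (T * (ρ (t c) * phi0 e A * ρ (t c)⁻¹)) := by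
          rw [h4]
          simp only [mul_assoc]
      _ = T * (ρ (t c) * phi0 e A * ρ (t c)⁻¹) := by rw [hu1, one_mul]
  have hcomm : ∀ c c', c ≠ c' → ∀ A A', Commute (φ c A) (φ c' A') := by
    intro c c' hcc A A'
    refine ((key c' (φ c A) (fun n hn => ?_) A')).symm
    exact key c (ρ n) (fun m hm => h2 c' c (Ne.symm hcc) n hn m hm) A
  have hmem : ∀ c, ∀ x ∈ DO C H i₀ t c, ∃ A, ρ x = φ c A := by
    intro c x hx
    have h5 := DO_conj (C := C) ht (H.inv_mem (ht.mem c)) c x hx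
    rw [hperm' c] at h5
    obtain ⟨A, hA⟩ := k2 ⟨_, hDc₀ h5⟩ (Subgroup.mem_subgroupOf.2 h5)
    refine ⟨A, ?_⟩
    have h6 : ρ ((t c)⁻¹ * x * (t c)⁻¹⁻¹) = phi0 e A :=
      eq_of_apply_e (e := e) fun v => (hA v).trans (phi0_apply e A v).symm
    have hxH := DO_le c hx
    rw [hφ, ← h6, ← hρ.mul _ (ht.mem c) _ (DO_le c₀ h5),
      ← hρ.mul _ (H.mul_mem (ht.mem c) (DO_le c₀ h5)) _ (H.inv_mem (ht.mem c))]
    congr 1
    group
  have hirr' : ∀ U : Submodule ℂ V, (∀ c A, ∀ v ∈ U, φ c A v ∈ U) → U = ⊥ ∨ U = ⊤ := by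
    intro U hU
    refine h1.2 U (inv_of_iSup hρ (fun c => DO_le c) fun c x hx v hv => ?_)
    obtain ⟨A, hA⟩ := hmem c x hx
    rw [hA]
    exact hU c A v hv
  obtain ⟨E, hE⟩ := exists_tensor hcomm hirr'
  -- dimensions
  have hdim : finrank ℂ V = a ^ Fintype.card Ω := by
    rw [← E.finrank_eq, Module.finrank_fintype_fun_eq_card, Fintype.card_fun, Fintype.card_fin]
  have hcard1 : 1 ≤ Fintype.card Ω := Fintype.card_pos
  have ha2 : 2 ≤ a := by
    by_contra hlt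
    have ha1 : a = 1 := by omega
    rw [hdim, ha1, one_pow] at hV2
    omega
  have hle2 : Fintype.card Ω * a ≤ finrank ℂ V := by
    rw [hdim]
    exact mul_le_pow_of ha2 hcard1
  have hD : D C L (H ⊓ MulAction.stabilizer F i₀) σ := by
    refine hcu _ a σ i₀ ?_ inf_le_right hσ hAσ hsc
    calc (H ⊓ MulAction.stabilizer F i₀).index * a
        = H.index * (Fintype.card Ω * a) := by
          rw [← Subgroup.relIndex_mul_index hle, hcard]
          ring
      _ ≤ H.index * finrank ℂ V := Nat.mul_le_mul_left _ hle2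
      _ ≤ B := hB
  -- comparison with tensor induction
  have hMσ : MulOn (H ⊓ MulAction.stabilizer F i₀) fun y => (σ y).1 :=
    ⟨by simp only [hσ.one]; rfl, fun x hx y hy => by simp only [hσ.mul x hx y hy]; rfl⟩
  have hconj0 : ∀ x (hx : x ∈ H ⊓ MulAction.stabilizer F i₀) A,
      ρ x * phi0 e A = phi0 e ((σ x).1 * A * ((σ x)⁻¹).1) * ρ x := by
    intro x hx A
    refine eq_of_apply_e (e := e) fun v => ?_
    have h5 : ((σ x)⁻¹).1 * (ext1 α x).1 = (χ₁ x : ℂ) • (1 : Matrix (Fin a) (Fin a) ℂ) := by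
      rw [hασ x hx, mul_smul_comm]
      congr 1
      exact congrArg Subtype.val (inv_mul_cancel (σ x))
    rw [Module.End.mul_apply, Module.End.mul_apply, phi0_apply, hT.eq x hx, hT.eq x hx,
      phi0_apply, Matrix.mulVec_mulVec, Matrix.mulVec_mulVec, ← Matrix.mul_kronecker_mul,
      ← Matrix.mul_kronecker_mul, mul_one, one_mul, mul_assoc ((σ x).1 * A), h5, mul_smul_comm,
      mul_one, hασ x hx, smul_mul_assoc]
  have hconj : ∀ x (hx : x ∈ H) c A, ρ x * φ c A =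
      φ (permT ht x hx c) ((σ ((t (permT ht x hx c))⁻¹ * x * t c)).1 * A *
        ((σ ((t (permT ht x hx c))⁻¹ * x * t c))⁻¹).1) * ρ x := by
    intro x hx c A
    have hy := permT_spec ht x hx c
    set c' := permT ht x hx c
    set y := (t c')⁻¹ * x * t c with hydef
    have h5 : ρ x * ρ (t c) = ρ (t c') * ρ y := by
      rw [← hρ.mul _ hx _ (ht.mem c), ← hρ.mul _ (ht.mem c') _ (hle hy)]
      congr 1
      rw [hydef]
      group
    have h6 : ρ y * ρ (t c)⁻¹ = ρ (t c')⁻¹ * ρ x := by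
      rw [← hρ.mul _ (hle hy) _ (H.inv_mem (ht.mem c)),
        ← hρ.mul _ (H.inv_mem (ht.mem c')) _ hx]
      congr 1
      rw [hydef]
      group
    rw [hφ, hφ]
    calc ρ x * (ρ (t c) * phi0 e A * ρ (t c)⁻¹)
        = (ρ x * ρ (t c)) * phi0 e A * ρ (t c)⁻¹ := by simp only [mul_assoc]
      _ = ρ (t c') * (ρ y * phi0 e A) * ρ (t c)⁻¹ := by
          rw [h5]
          simp only [mul_assoc]
      _ = ρ (t c') * phi0 e ((σ y).1 * A * ((σ y)⁻¹).1) * (ρ y * ρ (t c)⁻¹) := by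
          rw [hconj0 y hy]
          simp only [mul_assoc]
      _ = _ := by
          rw [h6]
          simp only [mul_assoc]
  let R : F → Module.End ℂ V := fun x => E.toLinearMap ∘ₗ
    Matrix.toLin' (tiM (H ⊓ MulAction.stabilizer F i₀) t (fun y => (σ y).1) x) ∘ₗ
      E.symm.toLinearMap
  have hR : ∀ x v, R x (E v) =
      E (tiM (H ⊓ MulAction.stabilizer F i₀) t (fun y => (σ y).1) x *ᵥ v) := by
    intro x v
    change E (Matrix.toLin' _ (E.symm (E v))) = _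
    rw [LinearEquiv.symm_apply_apply, Matrix.toLin'_apply]
  have hRconj : ∀ x (hx : x ∈ H) c A, R x * φ c A =
      φ (permT ht x hx c) ((σ ((t (permT ht x hx c))⁻¹ * x * t c)).1 * A *
        ((σ ((t (permT ht x hx c))⁻¹ * x * t c))⁻¹).1) * R x := by
    intro x hx c A
    refine eq_of_apply_e (e := E) fun v => ?_
    rw [Module.End.mul_apply, Module.End.mul_apply, hE, hR, hR, hE, Matrix.mulVec_mulVec,
      Matrix.mulVec_mulVec, tiM_eq ht hx, tw_mul, tw_mul, one_mul, mul_one]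
    congr 3
    funext d
    rw [Equiv.Perm.one_apply]
    by_cases hdc : d = c
    · subst hdc
      rw [Pi.mulSingle_eq_same, Pi.mulSingle_eq_same, mul_assoc _ _ (σ _).1]
      have h5 : ((σ ((t (permT ht x hx d))⁻¹ * x * t d))⁻¹).1 *
          (σ ((t (permT ht x hx d))⁻¹ * x * t d)).1 = 1 :=
        congrArg Subtype.val (inv_mul_cancel (σ ((t (permT ht x hx d))⁻¹ * x * t d)))
      rw [h5, mul_one]
    · rw [Pi.mulSingle_eq_of_ne hdc, Pi.mulSingle_eq_of_ne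
        (fun h5 => hdc ((permT ht x hx).injective h5)), mul_one, one_mul]
  have hcomp : ∀ x ∈ H, ∃ u : ℂˣ, ∀ v, ρ x (E v) = (u : ℂ) •
      E (tiM (H ⊓ MulAction.stabilizer F i₀) t (fun y => (σ y).1) x *ᵥ v) := by
    intro x hx
    obtain ⟨l, hl⟩ := schur_set (S := {X | ∃ c A, X = φ c A})
      (fun U hU => hirr' U fun c A v hv => hU _ ⟨c, A, rfl⟩ v hv) (ρ x⁻¹ * R x) (by
        rintro _ ⟨c, A, rfl⟩
        have h5 := hconj x hx c A
        have h6 := swap_inv (mulOn_mul_inv hρ hx) (mulOn_inv_mul hρ hx) h5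
        rw [mul_assoc, hRconj x hx, ← mul_assoc, h6, mul_assoc])
    have h7 : R x = l • ρ x := by
      calc R x = (ρ x * ρ x⁻¹) * R x := by rw [mulOn_mul_inv hρ hx, one_mul]
        _ = ρ x * (ρ x⁻¹ * R x) := mul_assoc _ _ _
        _ = l • ρ x := by rw [hl, mul_smul_comm, mul_one]
    have hl0 : l ≠ 0 := by
      rintro rfl
      rw [zero_smul] at h7
      have h8 : tiM (H ⊓ MulAction.stabilizer F i₀) t (fun y => (σ y).1) x = 0 := by
        apply Matrix.toLin'.injective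
        refine LinearMap.ext fun v => E.injective ?_
        rw [Matrix.toLin'_apply, ← hR, h7]
        simp
      have h9 := tiM_mul ht (fun y => (σ y).1) hMσ hx (H.inv_mem hx)
      rw [h8, zero_mul, mul_inv_cancel, tiM_one ht _ hMσ] at h9
      exact one_ne_zero h9
    refine ⟨(Units.mk0 l hl0)⁻¹, fun v => ?_⟩
    rw [← hR, h7, LinearMap.smul_apply, smul_smul, Units.val_inv_eq_inv_val, Units.val_mk0,
      inv_mul_cancel₀ hl0, one_smul]
  -- normalisation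
  obtain ⟨α₂, hα₂, hα₂E⟩ := exists_mat' hρ E
  obtain ⟨χ, τ, hχ, hτ, hχτ⟩ := exists_sl hα₂
  have hS : Sim H ρ E χ τ := ⟨hχ, hτ, fun x hx v => by
    rw [hα₂E x hx, hχτ x hx, Matrix.smul_mulVec, map_smul]⟩
  refine good_of_sim' hS hρ h.zle (PC5f hle hZ' ht σ hσ hAσ.zscal hD ?_ τ ?_ hτ)
  · intro z hz
    refine hμ (2 * a ^ Fintype.card Ω) ?_ (by positivity) z ?_
    · rw [← hdim]
      refine Nat.mul_le_mul_left 2 (le_trans ?_ hB)
      exact Nat.le_mul_of_pos_left _ (Nat.pos_of_ne_zero h.fi)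
    · rw [Fintype.card_fin] at hz
      exact hz
  · intro x hx
    obtain ⟨u, hu⟩ := hcomp x hx
    refine ⟨(χ x)⁻¹ * u, ?_⟩
    apply Matrix.toLin'.injective
    refine LinearMap.ext fun v => E.injective ?_
    have h5 := hS.lin_apply hx v
    rw [hu v, smul_smul] at h5
    rw [map_smul, LinearMap.smul_apply, map_smul, Matrix.toLin'_apply (tiM _ _ _ _),
      Units.val_mul]
    exact h5

/-- PA5: structure theorem, general action. -/
theorem PA5 [IsFreeGroup F] [Finite I] (C : Ctx F I)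
    (L : IntermediateField ℚ ℂ) (N₀ B : ℕ) (_hN₀ : 0 < N₀) (hvs : BaseVS C L N₀ B)
    (hcu : BaseCurve C L N₀ B)
    (hμ : ∀ k ≤ 2 * B, 0 < k → ∀ z : ℂ, z ^ k = 1 → z ∈ L)
    {V : Type} [AddCommGroup V] [Module ℂ V] [FiniteDimensional ℂ V]
    (H : Subgroup F) (ρ : F → Module.End ℂ V) (h : Adm C N₀ H ρ)
    (hB : H.index * Module.finrank ℂ V ≤ B) : Good C L H ρ := by
  classical
  refine struct hvs hcu (fun V _ _ _ H ρ i₀ h hB hd hst hs => ?_) _ V H ρ rfl h hB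
  have hVn := h.irr.1
  by_cases hV2 : 2 ≤ finrank ℂ V
  · have hfi : (H ⊓ MulAction.stabilizer F i₀).relIndex H ≠ 0 := by
      rw [inf_comm, Subgroup.inf_relIndex_right]
      intro h0
      have h1 := stab_index_ne_zero (F := F) i₀
      rw [← Subgroup.relIndex_top_right] at h1
      exact h1 (Subgroup.relIndex_eq_zero_of_le_right le_top h0)
    obtain ⟨t, ht⟩ := PC5a H (H ⊓ MulAction.stabilizer F i₀) inf_le_left hfi
    rcases vs_or_tensor h hd ht hs with h1 | ⟨h1, h2, h3⟩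
    · exact case_vs hvs h hB h1
    · exact good_tensor hcu hμ h hB hV2 ht (Fintype.card_fin _) h1 h2 h3
  · have hV1 : finrank ℂ V = 1 := by
      have : 0 < finrank ℂ V := finrank_pos
      omega
    refine case_vs hvs h hB (vs_of_projFin h.mul (ProjFin.of_scal fun x _ => ?_))
    obtain ⟨v, hv0, hv⟩ := finrank_eq_one_iff'.1 hV1
    obtain ⟨c, hc⟩ := hv (ρ x v)
    refine ⟨c, LinearMap.ext fun w => ?_⟩
    obtain ⟨d, hd⟩ := hv w
    rw [← hd, map_smul, ← hc, LinearMap.smul_apply, Module.End.one_apply, smul_comm]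

end Vale.Agent.P002.H627
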