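import Vale.Agent.P002.H627.T6

/-!
# P002, Theorem T3: Clifford theory relative to a normal subgroup
-/

namespace Vale.Agent.P002.H627

open Module Matrix Kronecker Vale.Agent.P002.H2 Vale.Agent.P002.H377

section

variable {G : Type*} [Group G] {V : Type*} [AddCommGroup V] [Module ℂ V]

/-- the isotypic components are blocks of imprimitivity -/
theorem clifford_iso [FiniteDimensional ℂ V] [Nontrivial V] {ρ : G →* End ℂ V}
    (hirr : IrrOn ρ ⊤) (N : Subgroup G) [N.Normal] : ∃ W, Mini (FI ρ N) W ∧ Imprim ρ W := by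
  obtain ⟨W, hW, -⟩ := exists_mini (P := FI ρ N) (U := ⊤) top_ne_bot
    ⟨fun _ _ _ _ => trivial, fun _ _ _ _ => trivial⟩
  refine ⟨W, hW, hW.1.1, ?_⟩
  let φ : {W' : Submodule ℂ V // ∃ g : G, W.map (ρ g) = W'} →
      {W : Submodule ℂ V // Mini (FI ρ N) W} := fun W' => ⟨W'.1, by
        obtain ⟨g, hg⟩ := W'.2
        rw [← hg]
        exact hW.map (fun g U hU => hU.map g) g⟩
  have hφ : Function.Injective φ := fun a b hab => by
    have h1 : (φ a).1 = (φ b).1 := congrArg Subtype.val hab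
    exact Subtype.ext h1
  exact (miniFI_indep hirr N).comp hφ

end

variable {F : Type} [Group F] {V : Type} [AddCommGroup V] [Module ℂ V]

/-- restriction to a block -/
theorem exists_restr [FiniteDimensional ℂ V] {H : Subgroup F} {ρ : F → Module.End ℂ V}
    (hρ : MulOn H ρ) (hirr : Irr H ρ) {W : Submodule ℂ V} (hW : Imprim (hom hρ) W) :
    ∃ ρW : F → Module.End ℂ W, MulOn ((stab (hom hρ) W).map H.subtype) ρW ∧
      Irr ((stab (hom hρ) W).map H.subtype) ρW ∧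
      ∀ x ∈ (stab (hom hρ) W).map H.subtype, ∀ v : W, ((ρW x v : W) : V) = ρ x v := by
  classical
  have hV : Nontrivial V := hirr.1
  have hirr' : IrrOn (hom hρ) ⊤ := by
    have := irrOn_of_irr le_rfl hρ hirr
    rwa [Subgroup.subgroupOf_self] at this
  let ρW : F → Module.End ℂ W := fun x =>
    if h : ∀ v ∈ W, ρ x v ∈ W then (ρ x).restrict h else 1
  have hst : ∀ g ∈ stab (hom hρ) W, ∀ v ∈ W, hom hρ g v ∈ W := fun g hg v hv =>
    apply_mem_of_stab hg hv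
  have hH' : ∀ x ∈ (stab (hom hρ) W).map H.subtype, ∀ v ∈ W, ρ x v ∈ W := by
    rintro _ ⟨g, hg, rfl⟩ v hv
    exact hst g hg v hv
  have hρW : ∀ x ∈ (stab (hom hρ) W).map H.subtype, ∀ v : W,
      ((ρW x v : W) : V) = ρ x v := by
    intro x hx v
    simp only [ρW]
    rw [dif_pos (hH' x hx)]
    rfl
  refine ⟨ρW, ⟨?_, ?_⟩, ⟨?_, ?_⟩, hρW⟩
  · refine LinearMap.ext fun v => Subtype.ext ?_
    rw [hρW 1 (Subgroup.one_mem _), hρ.one]
    rfl
  · intro x hx y hy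
    refine LinearMap.ext fun v => Subtype.ext ?_
    rw [hρW _ (Subgroup.mul_mem _ hx hy), Module.End.mul_apply, hρW x hx, hρW y hy,
      hρ.mul x (Subgroup.map_subtype_le _ hx) y (Subgroup.map_subtype_le _ hy),
      Module.End.mul_apply]
  · exact Submodule.nontrivial_iff_ne_bot.2 hW.1
  · intro U hU
    refine hW.irr hirr' hst U fun g _ v hv => ?_
    have h1 := hU g.1.1 ⟨g.1, g.2, rfl⟩ v hv
    have h2 : ρW g.1.1 v = restr (hom hρ) W (stab (hom hρ) W) hst g v :=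
      Subtype.ext (hρW g.1.1 ⟨g.1, g.2, rfl⟩ v)
    rwa [h2] at h1

theorem scal_of_kron_one' {m k : Type} [Fintype m] [DecidableEq m] [Fintype k] [DecidableEq k]
    [Nonempty m] {A A' : Matrix m m ℂ} {B : Matrix k k ℂ} (hA : IsUnit A)
    (h : A ⊗ₖ B = A' ⊗ₖ (1 : Matrix k k ℂ)) : ∃ c : ℂ, B = c • (1 : Matrix k k ℂ) := by
  refine scal_of_kron_one (A := B) (B := A) (B' := A') hA ?_
  ext p q
  have h1 := congrFun (congrFun h (p.2, p.1)) (q.2, q.1)
  rw [kroneckerMap_apply, kroneckerMap_apply] at h1 ⊢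
  rw [mul_comm, h1, mul_comm]

/-- units of matrices from the special linear group -/
def slU {n : Type} [Fintype n] [DecidableEq n] (A : SpecialLinearGroup n ℂ) : (Matrix n n ℂ)ˣ :=
  ⟨A.1, (A⁻¹).1, congrArg Subtype.val (mul_inv_cancel A), congrArg Subtype.val (inv_mul_cancel A)⟩

/-- scalar matrices -/
def scU (n : Type) [Fintype n] [DecidableEq n] : ℂˣ →* (Matrix n n ℂ)ˣ :=
  Units.map (algebraMap ℂ (Matrix n n ℂ)).toMonoidHom

theorem scU_mul {n : Type} [Fintype n] [DecidableEq n] (c : ℂˣ) (A : (Matrix n n ℂ)ˣ) :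
    (scU n c * A).1 = (c : ℂ) • A.1 := by
  change algebraMap ℂ (Matrix n n ℂ) c * A.1 = _
  rw [← Algebra.smul_def]

/-- **Clifford theory relative to the normal subgroup `M`**: `V` is induced from `α ⊗ β` on `H'`,
where `M` acts irreducibly by `α` and by scalars by `β`. -/
theorem S1 [IsFreeGroup F] [FiniteDimensional ℂ V] (H M : Subgroup F) (hMH : M ≤ H)
    (hM : ∀ x ∈ H, ∀ y ∈ M, x * y * x⁻¹ ∈ M) (ρ : F → Module.End ℂ V) (hρ : MulOn H ρ)
    (hirr : Irr H ρ) :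
    ∃ (H' : Subgroup F) (a b : ℕ) (e : (Fin a × Fin b → ℂ) →ₗ[ℂ] V)
      (α : F → SpecialLinearGroup (Fin a) ℂ) (β : F → (Matrix (Fin b) (Fin b) ℂ)ˣ),
      H' ≤ H ∧ M ≤ H' ∧ H'.relIndex H ≠ 0 ∧ Function.Injective e ∧ MulOn H' α ∧ MulOn H' β ∧
      Irr M (lin α) ∧ Scal M (lu β) ∧ Irr H' (lu β) ∧
      (∀ x ∈ H', ∀ v, ρ x (e v) = e (((α x).1 ⊗ₖ (β x).1) *ᵥ v)) ∧
      (⨆ x ∈ H, (LinearMap.range e).map (ρ x)) = ⊤ ∧
      Module.finrank ℂ V = H'.relIndex H * (a * b) := by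
  classical
  have hV : Nontrivial V := hirr.1
  have hN : (M.subgroupOf H).Normal := ⟨fun n hn g => by
    rw [Subgroup.mem_subgroupOf] at hn ⊢
    exact hM g.1 g.2 n.1 hn⟩
  have hirr' : IrrOn (hom hρ) ⊤ := by
    have := irrOn_of_irr le_rfl hρ hirr
    rwa [Subgroup.subgroupOf_self] at this
  obtain ⟨W, hWm, hW⟩ := clifford_iso hirr' (M.subgroupOf H)
  obtain ⟨ρW, hm, hi, hρW⟩ := exists_restr hρ hirr hW
  have hle : (stab (hom hρ) W).map H.subtype ≤ H := Subgroup.map_subtype_le _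
  have hMH' : M ≤ (stab (hom hρ) W).map H.subtype := by
    intro x hx
    refine ⟨⟨x, hMH hx⟩, ?_, rfl⟩
    refine Submodule.eq_of_le_of_finrank_eq ?_ (finrank_map (hom hρ) W ⟨x, hMH hx⟩)
    rintro _ ⟨v, hv, rfl⟩
    exact hWm.1.2.1 ⟨x, hMH hx⟩ (Subgroup.mem_subgroupOf.2 hx) v hv
  have hrel : ((stab (hom hρ) W).map H.subtype).relIndex H ≠ 0 := by
    rw [relIndex_map_subtype]
    exact hW.finiteIndex.index_ne_zero
  have hdimW : finrank ℂ V = ((stab (hom hρ) W).map H.subtype).relIndex H * finrank ℂ W := by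
    rw [relIndex_map_subtype]
    exact hW.finrank hirr'
  generalize (stab (hom hρ) W).map H.subtype = H' at *
  have hWn : Nontrivial W := hi.1
  have hN' : (M.subgroupOf H').Normal := ⟨fun n hn g => by
    rw [Subgroup.mem_subgroupOf] at hn ⊢
    exact hM g.1 (hle g.2) n.1 hn⟩
  have hFI : ∀ U, FI (hom hm) (M.subgroupOf H') U → U = ⊥ ∨ U = ⊤ := by
    intro U hU
    by_cases hU0 : U = ⊥
    · exact Or.inl hU0
    right
    have h1 := hWm.2 (U.map W.subtype) (fun h0 => hU0 (eq_bot_of_map W.subtype_injective h0))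
      ⟨?_, ?_⟩ (Submodule.map_subtype_le W U)
    · rw [eq_top_iff]
      intro v _
      have h3 : v.1 ∈ U.map W.subtype := by rw [h1]; exact v.2
      obtain ⟨u, hu, huv⟩ := h3
      rwa [← Subtype.ext huv]
    · rintro n hn _ ⟨u, hu, rfl⟩
      have hn' := Subgroup.mem_subgroupOf.1 hn
      exact ⟨ρW n u, hU.1 ⟨n, hMH' hn'⟩ (Subgroup.mem_subgroupOf.2 hn') u hu,
        hρW n (hMH' hn') u⟩
    · rintro T hT _ ⟨u, hu, rfl⟩
      have hTW : ∀ v ∈ W, T v ∈ W := hWm.1.2.2 T hT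
      refine ⟨T.restrict hTW u, hU.2 (T.restrict hTW) (fun n hn => ?_) u hu, rfl⟩
      refine LinearMap.ext fun v => Subtype.ext ?_
      have hn' := Subgroup.mem_subgroupOf.1 hn
      have h2 := LinearMap.congr_fun (hT ⟨n, hMH hn'⟩ (Subgroup.mem_subgroupOf.2 hn')) v.1
      have h3 : T (ρ n v) = ρ n (T v) := h2
      change T (ρW n v : W) = ((ρW n (T.restrict hTW v) : W) : V)
      rw [hρW n n.2, hρW n n.2]
      exact h3
  obtain ⟨a, b, e, ha, hb, k1, k2, k3, k4⟩ := tens2 (ρ := hom hm) _ hFI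
  obtain ⟨α₀, β₀, hαβ⟩ := exists_homs e k1
  have hna : Nonempty (Fin a) := ⟨⟨0, ha⟩⟩
  have hnb : Nonempty (Fin b) := ⟨⟨0, hb⟩⟩
  obtain ⟨χ₁, σ, hχ₁, hσ, hασ⟩ := exists_sl (ext1_mulOn α₀)
  have hβm : MulOn H' fun x => scU (Fin b) (χ₁ x) * ext1 β₀ x := by
    refine ⟨by rw [hχ₁.one, map_one, (ext1_mulOn β₀).one, one_mul], fun x hx y hy => ?_⟩
    apply Units.ext
    rw [scU_mul, Units.val_mul, scU_mul, scU_mul, hχ₁.mul x hx y hy,
      (ext1_mulOn β₀).mul x hx y hy, Units.val_mul, Units.val_mul, smul_mul_smul_comm]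
  have hαm : MulOn H' fun x => slU (σ x) := by
    refine ⟨by rw [hσ.one]; exact Units.ext rfl, fun x hx y hy => ?_⟩
    rw [hσ.mul x hx y hy]
    exact Units.ext rfl
  have hT : Tns H' ρW e (fun x => slU (σ x)) (fun x => scU (Fin b) (χ₁ x) * ext1 β₀ x) := by
    refine ⟨hαm, hβm, fun x hx v => ?_⟩
    have h1 : ρW x (e v) = e (((α₀ ⟨x, hx⟩).1 ⊗ₖ (β₀ ⟨x, hx⟩).1) *ᵥ v) := hαβ ⟨x, hx⟩ v
    rw [h1, ← ext1_apply α₀ hx, ← ext1_apply β₀ hx, hασ x hx, scU_mul, Matrix.smul_kronecker,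
      Matrix.kronecker_smul]
    rfl
  have hA : ∀ x (hx : x ∈ M) (A : Matrix (Fin a) (Fin a) ℂ),
      (∀ v, ρW x (e v) = e ((A ⊗ₖ (1 : Matrix (Fin b) (Fin b) ℂ)) *ᵥ v)) →
      (σ x).1 ⊗ₖ (scU (Fin b) (χ₁ x) * ext1 β₀ x).1 = A ⊗ₖ (1 : Matrix (Fin b) (Fin b) ℂ) := by
    intro x hx A hA
    apply Matrix.toLin'.injective
    refine LinearMap.ext fun v => e.injective ?_
    rw [Matrix.toLin'_apply, Matrix.toLin'_apply, ← hA v]
    exact (hT.eq x (hMH' hx) v).symm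
  have hfin : finrank ℂ W = a * b := by
    rw [← e.finrank_eq, Module.finrank_fintype_fun_eq_card, Fintype.card_prod, Fintype.card_fin,
      Fintype.card_fin]
  have hinj : Function.Injective (W.subtype ∘ₗ e.toLinearMap) :=
    W.subtype_injective.comp e.injective
  refine ⟨H', a, b, W.subtype ∘ₗ e.toLinearMap, σ, fun x => scU (Fin b) (χ₁ x) * ext1 β₀ x, hle,
    hMH', hrel, hinj, hσ, hβm, ⟨inferInstance, fun U hU => k4 U fun x hx A hA' u hu => ?_⟩,
    fun x hx => ?_, ?_, fun x hx v => ?_, sup_eq_top hρ hirr fun h0 => ?_, ?_⟩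
  · have hxM := Subgroup.mem_subgroupOf.1 hx
    have h4 := hA x hxM A hA'
    have h5 : A = (scU (Fin b) (χ₁ x) * ext1 β₀ x).1 ⟨0, hb⟩ ⟨0, hb⟩ • (σ x).1 := by
      ext i j
      have h6 := congrFun (congrFun h4 (i, ⟨0, hb⟩)) (j, ⟨0, hb⟩)
      rw [kroneckerMap_apply, kroneckerMap_apply, Matrix.one_apply_eq, mul_one] at h6
      rw [← h6, Matrix.smul_apply, smul_eq_mul, mul_comm]
    rw [h5, Matrix.smul_mulVec]
    exact U.smul_mem _ (hU x.1 hxM u hu)
  · obtain ⟨A, hA'⟩ := k2 ⟨x, hMH' hx⟩ (Subgroup.mem_subgroupOf.2 hx)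
    obtain ⟨c, hc⟩ := scal_of_kron_one' (slU (σ x)).isUnit (hA x hx A hA')
    refine ⟨c, ?_⟩
    rw [lu, hc, map_smul, Matrix.toLin'_one]
    rfl
  · refine hT.irr_right hm hi (n₁ := a) LinearMap.id (fun _ => 1) σ le_rfl
      (by rw [Subgroup.relIndex_self]; exact one_ne_zero) Function.injective_id
      (fun x _ v => ?_) (by rw [Subgroup.relIndex_self, one_mul, Module.finrank_fin_fun])
    rw [Units.val_one, one_smul]
    rfl
  · have h1 := hT.eq x hx v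
    have h2 := hρW x hx (e v)
    rw [h1] at h2
    exact h2.symm
  · rw [LinearMap.range_eq_bot] at h0
    obtain ⟨w, hw⟩ := exists_ne (0 : Fin a × Fin b → ℂ)
    exact hw (hinj (by rw [h0]; rfl))
  · rw [hdimW, hfin]

end Vale.Agent.P002.H627
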