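import Vale.Agent.P002.H627.Tens
import Vale.Agent.P002.H2.Defs

/-!
# P002, Theorem T: Clifford theory for functions which are multiplicative on a subgroup
-/

namespace Vale.Agent.P002.H627

open Module Matrix Kronecker Vale.Agent.P002.H2

section mulOn

variable {F : Type} [Group F]

/-- the homomorphism given by a function which is multiplicative on `H` -/
def hom {H : Subgroup F} {M : Type*} [Monoid M] {ρ : F → M} (hρ : MulOn H ρ) : H →* M where
  toFun x := ρ x
  map_one' := hρ.one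
  map_mul' x y := hρ.mul x x.2 y y.2

theorem hom_apply {H : Subgroup F} {M : Type*} [Monoid M] {ρ : F → M} (hρ : MulOn H ρ) (x : H) :
    hom hρ x = ρ x := rfl

open Classical in
/-- extension by `1` outside `H` -/
noncomputable def ext1 {H : Subgroup F} {M : Type*} [Monoid M] (f : H →* M) : F → M :=
  fun x => if h : x ∈ H then f ⟨x, h⟩ else 1

theorem ext1_apply {H : Subgroup F} {M : Type*} [Monoid M] (f : H →* M) {x : F} (hx : x ∈ H) :
    ext1 f x = f ⟨x, hx⟩ := dif_pos hx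

theorem ext1_mulOn {H : Subgroup F} {M : Type*} [Monoid M] (f : H →* M) : MulOn H (ext1 f) where
  one := by
    rw [ext1_apply f H.one_mem]
    exact f.map_one
  mul x hx y hy := by
    rw [ext1_apply f hx, ext1_apply f hy, ext1_apply f (H.mul_mem hx hy), ← map_mul]
    rfl

theorem relIndex_map_subtype {H : Subgroup F} (K : Subgroup H) :
    (K.map H.subtype).relIndex H = K.index := by
  rw [Subgroup.relIndex, Subgroup.subgroupOf, Subgroup.comap_map_eq_self_of_injective
    H.subtype_injective]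

end mulOn

variable {F : Type} [Group F] {V : Type} [AddCommGroup V] [Module ℂ V]

theorem irrOn_of_irr {H A : Subgroup F} (hA : A ≤ H) {ρ : F → Module.End ℂ V} (hρ : MulOn H ρ)
    (h : Irr A ρ) : IrrOn (hom hρ) (A.subgroupOf H) := fun W hW =>
  h.2 W fun x hx v hv => hW ⟨x, hA hx⟩ (Subgroup.mem_subgroupOf.2 hx) v hv

theorem irr_of_irrOn [Nontrivial V] {H A : Subgroup F} {ρ : F → Module.End ℂ V}
    (hρ : MulOn H ρ) (h : IrrOn (hom hρ) (A.subgroupOf H)) : Irr A ρ :=
  ⟨inferInstance, fun W hW => h W fun x hx v hv =>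
    hW x.1 (Subgroup.mem_subgroupOf.1 hx) v hv⟩

/-- PA1+PA2. `M` normal in `H`, `V` an irreducible representation of `H`: `M` acts by scalars, or
irreducibly, or `V` is properly induced, or `V` is a proper tensor product (`F` free, so that the
projective factors lift to honest representations). -/
theorem PA12 [IsFreeGroup F] [FiniteDimensional ℂ V]
    (H M : Subgroup F) (hMH : M ≤ H) (hM : ∀ x ∈ H, ∀ y ∈ M, x * y * x⁻¹ ∈ M)
    (ρ : F → Module.End ℂ V) (hρ : MulOn H ρ) (hirr : Irr H ρ) :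
    Scal M ρ ∨ Irr M ρ ∨
    (∃ (H' : Subgroup F) (W : Submodule ℂ V) (ρW : F → Module.End ℂ W),
      H' ≤ H ∧ H'.relIndex H ≠ 0 ∧ W ≠ ⊤ ∧ (∀ x ∈ H, (∀ v ∈ W, ρ x v ∈ W) → x ∈ H') ∧
      MulOn H' ρW ∧ Irr H' ρW ∧ (∀ x ∈ H', ∀ v : W, ((ρW x v : W) : V) = ρ x v) ∧
      (⨆ x ∈ H, W.map (ρ x)) = ⊤ ∧
      Module.finrank ℂ V = H'.relIndex H * Module.finrank ℂ W) ∨
    (∃ (a b : ℕ) (e : (Fin a × Fin b → ℂ) ≃ₗ[ℂ] V) (α : F → (Matrix (Fin a) (Fin a) ℂ)ˣ)
      (β : F → (Matrix (Fin b) (Fin b) ℂ)ˣ), 2 ≤ a ∧ 2 ≤ b ∧ MulOn H α ∧ MulOn H β ∧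
      ∀ x ∈ H, ∀ v, ρ x (e v) = e (((α x).1 ⊗ₖ (β x).1) *ᵥ v)) := by
  classical
  have hV : Nontrivial V := hirr.1
  have hN : (M.subgroupOf H).Normal := ⟨fun n hn g => by
    rw [Subgroup.mem_subgroupOf] at hn ⊢
    exact hM g.1 g.2 n.1 hn⟩
  have hirr' : IrrOn (hom hρ) ⊤ := by
    have := irrOn_of_irr le_rfl hρ hirr
    rwa [Subgroup.subgroupOf_self] at this
  rcases clifford hirr' (M.subgroupOf H) with hFI | ⟨W, hW, hWt⟩
  · rcases tens hFI with h | h | ⟨a, b, e, α, β, ha, hb, h⟩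
    · left
      intro x hx
      exact mem_scal.1 (h (show (⟨x, hMH hx⟩ : H) ∈ M.subgroupOf H from
        Subgroup.mem_subgroupOf.2 hx))
    · right; left
      exact irr_of_irrOn hρ h
    · right; right; right
      refine ⟨a, b, e, ext1 α, ext1 β, ha, hb, ext1_mulOn α, ext1_mulOn β, fun x hx v => ?_⟩
      rw [ext1_apply α hx, ext1_apply β hx, ← h]
      rfl
  · right; right; left
    let ρW : F → Module.End ℂ W := fun x =>
      if h : ∀ v ∈ W, ρ x v ∈ W then (ρ x).restrict h else 1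
    have hst : ∀ g ∈ stab (hom hρ) W, ∀ v ∈ W, hom hρ g v ∈ W := fun g hg v hv =>
      apply_mem_of_stab hg hv
    have hH' : ∀ x ∈ (stab (hom hρ) W).map H.subtype, ∀ v ∈ W, ρ x v ∈ W := by
      rintro _ ⟨g, hg, rfl⟩ v hv
      exact hst g hg v hv
    have hρW : ∀ x ∈ (stab (hom hρ) W).map H.subtype, ∀ v : W,
        ((ρW x v : W) : V) = ρ x v := by
      intro x hx v
      simp only [ρW]
      rw [dif_pos (hH' x hx)]
      rfl
    refine ⟨(stab (hom hρ) W).map H.subtype, W, ρW, Subgroup.map_subtype_le _, ?_, hWt, ?_,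
      ⟨?_, ?_⟩, ⟨?_, ?_⟩, hρW, ?_, ?_⟩
    · rw [relIndex_map_subtype]
      exact hW.finiteIndex.index_ne_zero
    · intro x hx hxW
      refine ⟨⟨x, hx⟩, ?_, rfl⟩
      refine Submodule.eq_of_le_of_finrank_eq ?_ (finrank_map (hom hρ) W ⟨x, hx⟩)
      rintro _ ⟨v, hv, rfl⟩
      exact hxW v hv
    · refine LinearMap.ext fun v => Subtype.ext ?_
      rw [hρW 1 (Subgroup.one_mem _), hρ.one]
      rfl
    · intro x hx y hy
      refine LinearMap.ext fun v => Subtype.ext ?_
      rw [hρW _ (Subgroup.mul_mem _ hx hy), Module.End.mul_apply, hρW x hx, hρW y hy,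
        hρ.mul x (Subgroup.map_subtype_le _ hx) y (Subgroup.map_subtype_le _ hy),
        Module.End.mul_apply]
    · exact Submodule.nontrivial_iff_ne_bot.2 hW.1
    · intro U hU
      refine hW.irr hirr' hst U fun g _ v hv => ?_
      have h1 := hU g.1.1 ⟨g.1, g.2, rfl⟩ v hv
      have h2 : ρW g.1.1 v = restr (hom hρ) W (stab (hom hρ) W) hst g v :=
        Subtype.ext (hρW g.1.1 ⟨g.1, g.2, rfl⟩ v)
      rwa [h2] at h1
    · have h1 := hW.iSup_eq_top hirr'
      rw [← h1, iSup_subtype]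
      rfl
    · rw [relIndex_map_subtype]
      exact hW.finrank hirr'

end Vale.Agent.P002.H627
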