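import Vale.Agent.P002.H627.Lem3

/-!
# P002, Theorem T: Clifford theory, the imprimitive case
-/

namespace Vale.Agent.P002.H627

open Module

variable {G : Type*} [Group G] {V : Type*} [AddCommGroup V] [Module ℂ V]

/-- invariant under the subgroup `N` -/
def Inv (ρ : G →* End ℂ V) (N : Subgroup G) (U : Submodule ℂ V) : Prop :=
  ∀ n ∈ N, ∀ v ∈ U, ρ n v ∈ U

/-- invariant under `N` and under all operators commuting with `N` -/
def FI (ρ : G →* End ℂ V) (N : Subgroup G) (U : Submodule ℂ V) : Prop :=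
  Inv ρ N U ∧ ∀ T : End ℂ V, (∀ n ∈ N, T * ρ n = ρ n * T) → ∀ v ∈ U, T v ∈ U

/-- a minimal element among the nonzero subspaces with the property `P` -/
def Mini (P : Submodule ℂ V → Prop) (U : Submodule ℂ V) : Prop :=
  (U ≠ ⊥ ∧ P U) ∧ ∀ U', U' ≠ ⊥ → P U' → U' ≤ U → U' = U

theorem exists_mini [FiniteDimensional ℂ V] {P : Submodule ℂ V → Prop} {U : Submodule ℂ V}
    (hU : U ≠ ⊥) (hP : P U) : ∃ W, Mini P W ∧ W ≤ U := by
  have hwf : WellFounded ((· < ·) : Submodule ℂ V → Submodule ℂ V → Prop) :=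
    wellFounded_lt
  obtain ⟨W, ⟨hW0, hWP, hWU⟩, hmin⟩ := hwf.has_min
    {W : Submodule ℂ V | W ≠ ⊥ ∧ P W ∧ W ≤ U} ⟨U, hU, hP, le_rfl⟩
  refine ⟨W, ⟨⟨hW0, hWP⟩, fun U' h0 h1 h2 => ?_⟩, hWU⟩
  by_contra hne
  exact hmin U' ⟨h0, h1, h2.trans hWU⟩ (lt_of_le_of_ne h2 hne)

theorem Inv.inf {ρ : G →* End ℂ V} {N : Subgroup G} {U U' : Submodule ℂ V} (h : Inv ρ N U)
    (h' : Inv ρ N U') : Inv ρ N (U ⊓ U') :=
  fun n hn v hv => ⟨h n hn v hv.1, h' n hn v hv.2⟩

theorem Inv.iSup {ρ : G →* End ℂ V} {N : Subgroup G} {ι : Type*} {U : ι → Submodule ℂ V}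
    (h : ∀ i, Inv ρ N (U i)) : Inv ρ N (⨆ i, U i) := by
  intro n hn v hv
  have h1 : (⨆ i, U i).map (ρ n) ≤ ⨆ i, U i := by
    rw [Submodule.map_iSup]
    refine iSup_mono fun i => ?_
    rintro _ ⟨u, hu, rfl⟩
    exact h i n hn u hu
  exact h1 (Submodule.mem_map_of_mem hv)

theorem Inv.sup {ρ : G →* End ℂ V} {N : Subgroup G} {U U' : Submodule ℂ V} (h : Inv ρ N U)
    (h' : Inv ρ N U') : Inv ρ N (U ⊔ U') := by
  intro n hn v hv
  obtain ⟨x, hx, y, hy, rfl⟩ := Submodule.mem_sup.1 hv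
  rw [map_add]
  exact Submodule.add_mem_sup (h n hn x hx) (h' n hn y hy)

theorem FI.inf {ρ : G →* End ℂ V} {N : Subgroup G} {U U' : Submodule ℂ V} (h : FI ρ N U)
    (h' : FI ρ N U') : FI ρ N (U ⊓ U') :=
  ⟨h.1.inf h'.1, fun T hT v hv => ⟨h.2 T hT v hv.1, h'.2 T hT v hv.2⟩⟩

theorem rho_conj (ρ : G →* End ℂ V) (g n : G) (v : V) : ρ n (ρ g v) = ρ g (ρ (g⁻¹ * n * g) v) := by
  rw [← Module.End.mul_apply, ← Module.End.mul_apply, ← map_mul, ← map_mul]
  congr 2
  group

theorem Inv.map {ρ : G →* End ℂ V} {N : Subgroup G} [hN : N.Normal] {U : Submodule ℂ V}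
    (h : Inv ρ N U) (g : G) : Inv ρ N (U.map (ρ g)) := by
  rintro n hn _ ⟨u, hu, rfl⟩
  rw [rho_conj]
  refine Submodule.mem_map_of_mem (h _ ?_ u hu)
  have := hN.conj_mem n hn g⁻¹
  rwa [inv_inv] at this

theorem FI.map {ρ : G →* End ℂ V} {N : Subgroup G} [hN : N.Normal] {U : Submodule ℂ V}
    (h : FI ρ N U) (g : G) : FI ρ N (U.map (ρ g)) := by
  refine ⟨h.1.map g, ?_⟩
  rintro T hT _ ⟨u, hu, rfl⟩
  have h1 : ∀ n ∈ N, (ρ g⁻¹ * T * ρ g) * ρ n = ρ n * (ρ g⁻¹ * T * ρ g) := by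
    intro n hn
    have h2 := hT _ (hN.conj_mem n hn g)
    calc (ρ g⁻¹ * T * ρ g) * ρ n = ρ g⁻¹ * (T * ρ (g * n * g⁻¹)) * ρ g := by
          have h3 : ρ g * ρ n = ρ (g * n * g⁻¹) * ρ g := by
            rw [← map_mul, ← map_mul]
            congr 1
            group
          rw [mul_assoc, h3]
          simp only [mul_assoc]
      _ = ρ g⁻¹ * (ρ (g * n * g⁻¹) * T) * ρ g := by rw [h2]
      _ = ρ n * (ρ g⁻¹ * T * ρ g) := by
          have h3 : ρ g⁻¹ * ρ (g * n * g⁻¹) = ρ n * ρ g⁻¹ := by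
            rw [← map_mul, ← map_mul]
            congr 1
            group
          rw [← mul_assoc (ρ g⁻¹), h3]
          simp only [mul_assoc]
  refine ⟨(ρ g⁻¹ * T * ρ g) u, h.2 _ h1 u hu, ?_⟩
  rw [Module.End.mul_apply, Module.End.mul_apply, apply_inv_apply]

theorem map_le_iff' (ρ : G →* End ℂ V) (g : G) (U U' : Submodule ℂ V) :
    U.map (ρ g) ≤ U' ↔ U ≤ U'.map (ρ g⁻¹) := by
  constructor
  · intro h
    have := Submodule.map_mono (f := ρ g⁻¹) h
    rwa [map_map, inv_mul_cancel, map_one'] at this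
  · intro h
    have := Submodule.map_mono (f := ρ g) h
    rwa [map_map, mul_inv_cancel, map_one'] at this

theorem Mini.map {P : Submodule ℂ V → Prop} {ρ : G →* End ℂ V}
    (hP : ∀ (g : G) U, P U → P (U.map (ρ g))) {U : Submodule ℂ V} (h : Mini P U) (g : G) :
    Mini P (U.map (ρ g)) := by
  refine ⟨⟨fun h0 => h.1.1 (eq_bot_of_map (injective ρ g) h0), hP g U h.1.2⟩,
    fun U' h0 h1 h2 => ?_⟩
  have h3 : U'.map (ρ g⁻¹) ≤ U := by
    rw [map_le_iff', inv_inv]
    exact h2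
  have h4 := h.2 _ (fun h5 => h0 (eq_bot_of_map (injective ρ _) h5)) (hP _ _ h1) h3
  rw [← h4, map_map, mul_inv_cancel, map_one']

/-- an irreducible representation is the sum of the minimal subspaces invariant under a normal
subgroup -/
theorem iSup_mini [FiniteDimensional ℂ V] [Nontrivial V] {ρ : G →* End ℂ V}
    (hirr : IrrOn ρ ⊤) {P : Submodule ℂ V → Prop} (hPtop : P ⊤)
    (hP : ∀ (g : G) U, P U → P (U.map (ρ g))) :
    (⨆ S : {S : Submodule ℂ V // Mini P S}, S.1) = ⊤ := by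
  obtain ⟨S, hS, -⟩ := exists_mini (P := P) (U := ⊤) top_ne_bot hPtop
  have h1 := hirr (⨆ S : {S : Submodule ℂ V // Mini P S}, S.1) fun x _ v hv => by
    have h2 : (⨆ S : {S : Submodule ℂ V // Mini P S}, S.1).map (ρ x) ≤
        ⨆ S : {S : Submodule ℂ V // Mini P S}, S.1 := by
      rw [Submodule.map_iSup]
      exact iSup_le fun S' =>
        le_iSup (fun S : {S : Submodule ℂ V // Mini P S} => S.1) ⟨_, S'.2.map hP x⟩
    exact h2 (Submodule.mem_map_of_mem hv)
  rcases h1 with h1 | h1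
  · exfalso
    rw [iSup_eq_bot] at h1
    exact hS.1.1 (h1 ⟨S, hS⟩)
  · exact h1

/-- complements for the subspaces invariant under a normal subgroup -/
theorem exists_compl [FiniteDimensional ℂ V] {ρ : G →* End ℂ V}
    (hirr : IrrOn ρ ⊤) (N : Subgroup G) [N.Normal] (U : Submodule ℂ V) (hU : Inv ρ N U) :
    ∃ C, Inv ρ N C ∧ IsCompl U C := by
  rcases subsingleton_or_nontrivial V with hV | hV
  · refine ⟨⊥, fun n _ v hv => ?_, ?_⟩
    · rw [Subsingleton.elim (ρ n v) v]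
      exact hv
    · have : U = ⊤ := by
        rw [eq_top_iff]
        intro v _
        rw [Subsingleton.elim v 0]
        exact U.zero_mem
      rw [this]
      exact isCompl_top_bot
  have hwf : WellFounded ((· > ·) : Submodule ℂ V → Submodule ℂ V → Prop) :=
    wellFounded_gt
  obtain ⟨C, ⟨hCi, hCU⟩, hmax⟩ := hwf.has_min
    {C : Submodule ℂ V | Inv ρ N C ∧ Disjoint U C} ⟨⊥, fun n _ v hv => by
      rw [Submodule.mem_bot] at hv ⊢
      rw [hv, map_zero], disjoint_bot_right⟩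
  refine ⟨C, hCi, hCU, ?_⟩
  rw [codisjoint_iff]
  by_contra hne
  have htop := iSup_mini hirr (P := Inv ρ N) (fun _ _ _ _ => trivial) fun g U hU => hU.map g
  have h1 : ∃ S : {S : Submodule ℂ V // Mini (Inv ρ N) S}, ¬ S.1 ≤ U ⊔ C := by
    by_contra hcon
    push Not at hcon
    refine hne (top_le_iff.1 ?_)
    rw [← htop]
    exact iSup_le hcon
  obtain ⟨⟨S, hS⟩, hSn⟩ := h1
  have h2 : S ⊓ (U ⊔ C) = ⊥ := by
    by_contra h0
    have h3 := hS.2 _ h0 (hS.1.2.inf (hU.sup hCi)) inf_le_left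
    exact hSn (inf_eq_left.1 h3)
  have h3 : Disjoint U (C ⊔ S) := by
    have h4 : Disjoint (U ⊔ C) S := by
      rw [disjoint_iff, inf_comm]
      exact h2
    exact Disjoint.disjoint_sup_right_of_disjoint_sup_left hCU h4
  refine hmax (C ⊔ S) ⟨hCi.sup hS.1.2, h3⟩ (lt_of_le_of_ne le_sup_left fun h5 => ?_)
  refine hSn ?_
  have : S ≤ C := by
    rw [h5]
    exact le_sup_right
  exact this.trans le_sup_right

/-- the minimal fully invariant subspaces are independent -/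
theorem miniFI_indep [FiniteDimensional ℂ V] {ρ : G →* End ℂ V} (hirr : IrrOn ρ ⊤)
    (N : Subgroup G) [N.Normal] :
    iSupIndep fun W : {W : Submodule ℂ V // Mini (FI ρ N) W} => W.1 := by
  intro W
  obtain ⟨C, hC, hWC⟩ := exists_compl hirr N W.1 W.2.1.2.1
  have hle : (⨆ (W') (_ : W' ≠ W), W'.1) ≤ C := by
    refine iSup₂_le fun W' hW' => ?_
    -- the projection onto `W` along `C`
    have hcomm : ∀ n ∈ N, W.1.projection C hWC * ρ n = ρ n * W.1.projection C hWC := by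
      intro n hn
      refine LinearMap.ext fun v => ?_
      obtain ⟨x, hx, y, hy, rfl⟩ : ∃ x ∈ W.1, ∃ y ∈ C, x + y = v := by
        have : v ∈ W.1 ⊔ C := by rw [hWC.sup_eq_top]; trivial
        exact Submodule.mem_sup.1 this
      have h1 : ∀ a ∈ W.1, W.1.projection C hWC a = a := fun a ha =>
        Submodule.projection_apply_left hWC ⟨a, ha⟩
      have h2 : ∀ a ∈ C, W.1.projection C hWC a = 0 := fun a ha =>
        Submodule.projection_apply_right hWC ⟨a, ha⟩
      rw [Module.End.mul_apply, Module.End.mul_apply, map_add, map_add, map_add, map_add,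
        h1 x hx, h2 y hy, h1 _ (W.2.1.2.1 n hn x hx), h2 _ (hC n hn y hy), map_zero]
    intro v hv
    have h3 : W.1.projection C hWC v ∈ W'.1 := W'.2.1.2.2 _ hcomm v hv
    have h4 : W.1.projection C hWC v ∈ W.1 := Submodule.projection_apply_mem _ _
    have h5 : W.1 ⊓ W'.1 = ⊥ := by
      by_contra h0
      have h6 := W.2.2 _ h0 (W.2.1.2.inf W'.2.1.2) inf_le_left
      have h7 := W'.2.2 _ h0 (W.2.1.2.inf W'.2.1.2) inf_le_right
      exact hW' (Subtype.ext (h7.symm.trans h6))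
    have h8 : W.1.projection C hWC v = 0 := by
      have : W.1.projection C hWC v ∈ W.1 ⊓ W'.1 := ⟨h4, h3⟩
      rwa [h5, Submodule.mem_bot] at this
    exact (Submodule.projection_apply_eq_zero_iff hWC).1 h8
  exact hWC.disjoint.mono_right hle

/-- the translates of `W` are independent -/
def Imprim (ρ : G →* End ℂ V) (W : Submodule ℂ V) : Prop :=
  W ≠ ⊥ ∧ (iSupIndep fun W' : {W' : Submodule ℂ V // ∃ g : G, W.map (ρ g) = W'} => W'.1)

/-- **Clifford's theorem**: either the normal subgroup `N` has no fully invariant subspaces (the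
restriction to `N` is isotypic) or the representation is imprimitive -/
theorem clifford [FiniteDimensional ℂ V] [Nontrivial V] {ρ : G →* End ℂ V} (hirr : IrrOn ρ ⊤)
    (N : Subgroup G) [N.Normal] :
    (∀ U, FI ρ N U → U = ⊥ ∨ U = ⊤) ∨ ∃ W, Imprim ρ W ∧ W ≠ ⊤ := by
  by_cases h : ∀ U, FI ρ N U → U = ⊥ ∨ U = ⊤
  · exact Or.inl h
  right
  push Not at h
  obtain ⟨U, hU, hU0, hU1⟩ := h
  obtain ⟨W, hW, hWU⟩ := exists_mini (P := FI ρ N) hU0 hU
  refine ⟨W, ⟨hW.1.1, ?_⟩, fun h => hU1 (top_le_iff.1 (h ▸ hWU))⟩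
  let φ : {W' : Submodule ℂ V // ∃ g : G, W.map (ρ g) = W'} →
      {W : Submodule ℂ V // Mini (FI ρ N) W} := fun W' => ⟨W'.1, by
        obtain ⟨g, hg⟩ := W'.2
        rw [← hg]
        exact hW.map (fun g U hU => hU.map g) g⟩
  have hφ : Function.Injective φ := fun a b hab => by
    have h1 : (φ a).1 = (φ b).1 := congrArg Subtype.val hab
    exact Subtype.ext h1
  exact (miniFI_indep hirr N).comp hφ

section imprim

variable {ρ : G →* End ℂ V} {W : Submodule ℂ V}

theorem Imprim.iSup_eq_top (h : Imprim ρ W) (hirr : IrrOn ρ ⊤) :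
    (⨆ g : G, W.map (ρ g)) = ⊤ := by
  have h1 := hirr (⨆ g : G, W.map (ρ g)) fun x _ v hv => by
    have h2 : (⨆ g : G, W.map (ρ g)).map (ρ x) ≤ ⨆ g : G, W.map (ρ g) := by
      rw [Submodule.map_iSup]
      refine iSup_le fun g => ?_
      rw [map_map]
      exact le_iSup (fun g : G => W.map (ρ g)) (x * g)
    exact h2 (Submodule.mem_map_of_mem hv)
  rcases h1 with h1 | h1
  · exfalso
    rw [iSup_eq_bot] at h1
    exact h.1 (eq_bot_of_map (injective ρ 1) (h1 1))
  · exact h1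

theorem map_eq_iff_stab (g h : G) : W.map (ρ g) = W.map (ρ h) ↔ g⁻¹ * h ∈ stab ρ W := by
  rw [mem_stab, ← map_map]
  constructor
  · intro h1
    rw [← h1, map_map, inv_mul_cancel, map_one']
  · intro h1
    have h2 := congrArg (fun U : Submodule ℂ V => U.map (ρ g)) h1
    simp only [map_map] at h2
    rw [← h2]
    congr 2
    group

/-- the translates are indexed by `G ⧸ stab` -/
theorem Imprim.indep (h : Imprim ρ W) :
    iSupIndep fun x : G ⧸ stab ρ W => W.map (ρ x.out) := by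
  let φ : G ⧸ stab ρ W → {W' : Submodule ℂ V // ∃ g : G, W.map (ρ g) = W'} :=
    fun x => ⟨W.map (ρ x.out), x.out, rfl⟩
  have hφ : Function.Injective φ := fun a b hab => by
    have h1 : (φ a).1 = (φ b).1 := congrArg Subtype.val hab
    have h2 := QuotientGroup.eq.2 ((map_eq_iff_stab a.out b.out).1 h1)
    rwa [QuotientGroup.out_eq', QuotientGroup.out_eq'] at h2
  exact h.2.comp hφ

theorem Imprim.iSup_out (h : Imprim ρ W) (hirr : IrrOn ρ ⊤) :
    (⨆ x : G ⧸ stab ρ W, W.map (ρ x.out)) = ⊤ := by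
  rw [← h.iSup_eq_top hirr]
  refine le_antisymm (iSup_le fun x => le_iSup (fun g : G => W.map (ρ g)) _) (iSup_le fun g => ?_)
  have h1 : W.map (ρ g) = W.map (ρ (QuotientGroup.mk g : G ⧸ stab ρ W).out) := by
    rw [map_eq_iff_stab, ← QuotientGroup.eq, QuotientGroup.out_eq']
  rw [h1]
  exact le_iSup (fun x : G ⧸ stab ρ W => W.map (ρ x.out)) _

variable [FiniteDimensional ℂ V]

theorem Imprim.finite (h : Imprim ρ W) : Finite (G ⧸ stab ρ W) :=
  WellFoundedGT.finite_of_iSupIndep h.indep fun _ h0 =>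
    h.1 (eq_bot_of_map (injective ρ _) h0)

theorem Imprim.finiteIndex (h : Imprim ρ W) : (stab ρ W).FiniteIndex := by
  have := h.finite
  exact Subgroup.finiteIndex_of_finite_quotient

theorem Imprim.isInternal (h : Imprim ρ W) (hirr : IrrOn ρ ⊤) [DecidableEq (G ⧸ stab ρ W)] :
    DirectSum.IsInternal fun x : G ⧸ stab ρ W => W.map (ρ x.out) :=
  (DirectSum.isInternal_submodule_iff_iSupIndep_and_iSup_eq_top _).2
    ⟨h.indep, h.iSup_out hirr⟩

/-- the degree is the index times the dimension -/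
theorem Imprim.finrank (h : Imprim ρ W) (hirr : IrrOn ρ ⊤) :
    finrank ℂ V = (stab ρ W).index * finrank ℂ W := by
  classical
  have := h.finite
  have := Fintype.ofFinite (G ⧸ stab ρ W)
  have h1 := LinearEquiv.finrank_eq
    (LinearEquiv.ofBijective (DirectSum.coeLinearMap fun x : G ⧸ stab ρ W => W.map (ρ x.out))
      (h.isInternal hirr))
  rw [← h1, Module.finrank_directSum]
  simp only [finrank_map, Finset.sum_const, smul_eq_mul, Finset.card_univ]
  rw [← Nat.card_eq_fintype_card]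
  rfl

/-- the stabiliser acts irreducibly -/
theorem Imprim.irr (h : Imprim ρ W) (hirr : IrrOn ρ ⊤)
    (hst : ∀ g ∈ stab ρ W, ∀ v ∈ W, ρ g v ∈ W) : IrrOn (restr ρ W (stab ρ W) hst) ⊤ := by
  intro U hU
  by_cases hU0 : U = ⊥
  · exact Or.inl hU0
  right
  let U' : Submodule ℂ V := U.map W.subtype
  have hU' : U' ≤ W := Submodule.map_subtype_le W U
  have hU'0 : U' ≠ ⊥ := fun h => hU0 (eq_bot_of_map W.subtype_injective h)
  have hinv : ∀ g ∈ stab ρ W, U'.map (ρ g) ≤ U' := by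
    rintro g hg _ ⟨_, ⟨u, hu, rfl⟩, rfl⟩
    exact ⟨restr ρ W (stab ρ W) hst ⟨g, hg⟩ u, hU ⟨g, hg⟩ trivial u hu, rfl⟩
  have htop : (⨆ x : G ⧸ stab ρ W, U'.map (ρ x.out)) = ⊤ := by
    have h1 := hirr (⨆ x : G ⧸ stab ρ W, U'.map (ρ x.out)) fun y _ v hv => by
      have h2 : (⨆ x : G ⧸ stab ρ W, U'.map (ρ x.out)).map (ρ y) ≤
          ⨆ x : G ⧸ stab ρ W, U'.map (ρ x.out) := by
        rw [Submodule.map_iSup]
        refine iSup_le fun x => ?_
        let z : G ⧸ stab ρ W := QuotientGroup.mk (y * x.out)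
        refine le_trans ?_ (le_iSup (fun x : G ⧸ stab ρ W => U'.map (ρ x.out)) z)
        have h3 : z.out⁻¹ * (y * x.out) ∈ stab ρ W := by
          rw [← QuotientGroup.eq, QuotientGroup.out_eq']
        have h4 : y * x.out = z.out * (z.out⁻¹ * (y * x.out)) := by simp
        rw [map_map, h4, ← map_map]
        exact Submodule.map_mono (hinv _ h3)
      exact h2 (Submodule.mem_map_of_mem hv)
    rcases h1 with h1 | h1
    · exfalso
      rw [iSup_eq_bot] at h1
      exact hU'0 (eq_bot_of_map (injective ρ _) (h1 (QuotientGroup.mk 1)))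
    · exact h1
  have heq := (h.indep.le_iff_eq_of_iSup_eq_top htop).1 fun x => Submodule.map_mono hU'
  have h1 : U'.map (ρ (QuotientGroup.mk 1 : G ⧸ stab ρ W).out) =
      W.map (ρ (QuotientGroup.mk 1 : G ⧸ stab ρ W).out) := congrFun heq (QuotientGroup.mk 1)
  have h2 := congrArg (fun X : Submodule ℂ V =>
    X.map (ρ ((QuotientGroup.mk 1 : G ⧸ stab ρ W).out)⁻¹)) h1
  simp only [map_map, inv_mul_cancel, map_one'] at h2
  rw [eq_top_iff]
  intro v _
  have h3 : v.1 ∈ U' := by rw [h2]; exact v.2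
  obtain ⟨u, hu, huv⟩ := h3
  rwa [← Subtype.ext huv]

end imprim

end Vale.Agent.P002.H627
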