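import Vale.Agent.P002.H627.Proj

/-!
# P002, Theorem T: irreducible on a normal subgroup and virtually abelian there
-/

namespace Vale.Agent.P002.H627

open Module
open scoped Pointwise

variable {G : Type*} [Group G] {V : Type*} [AddCommGroup V] [Module ℂ V]

theorem map_map (ρ : G →* End ℂ V) (W : Submodule ℂ V) (g h : G) :
    (W.map (ρ h)).map (ρ g) = W.map (ρ (g * h)) := by
  rw [← Submodule.map_comp, map_mul]
  rfl

theorem map_one' (ρ : G →* End ℂ V) (W : Submodule ℂ V) : W.map (ρ 1) = W := by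
  rw [map_one]
  exact Submodule.map_id W

theorem injective (ρ : G →* End ℂ V) (g : G) : Function.Injective (ρ g) := fun v w h => by
  rw [← inv_apply_apply ρ g v, h, inv_apply_apply]

theorem eq_bot_of_map {V' : Type*} [AddCommGroup V'] [Module ℂ V'] {f : V →ₗ[ℂ] V'}
    (hf : Function.Injective f) {U : Submodule ℂ V} (h : U.map f = ⊥) : U = ⊥ := by
  rw [eq_bot_iff]
  intro u hu
  have h1 : f u ∈ U.map f := Submodule.mem_map_of_mem hu
  rw [h, Submodule.mem_bot] at h1
  rw [Submodule.mem_bot]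
  exact hf (h1.trans (map_zero f).symm)

/-- the stabiliser of a subspace -/
def stab (ρ : G →* End ℂ V) (W : Submodule ℂ V) : Subgroup G where
  carrier := {g | W.map (ρ g) = W}
  one_mem' := map_one' ρ W
  mul_mem' := by
    intro a b (ha : W.map (ρ a) = W) (hb : W.map (ρ b) = W)
    show W.map (ρ (a * b)) = W
    rw [← map_map, hb, ha]
  inv_mem' := by
    intro a (ha : W.map (ρ a) = W)
    show W.map (ρ a⁻¹) = W
    conv_lhs => rw [← ha]
    rw [map_map, inv_mul_cancel, map_one']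

theorem mem_stab {ρ : G →* End ℂ V} {W : Submodule ℂ V} {g : G} :
    g ∈ stab ρ W ↔ W.map (ρ g) = W := Iff.rfl

theorem apply_mem_of_stab {ρ : G →* End ℂ V} {W : Submodule ℂ V} {g : G} (hg : g ∈ stab ρ W)
    {v : V} (hv : v ∈ W) : ρ g v ∈ W := by
  rw [← mem_stab.1 hg]
  exact Submodule.mem_map_of_mem hv

/-- restriction to an invariant subspace of a subgroup -/
noncomputable def restr (ρ : G →* End ℂ V) (W : Submodule ℂ V) (H : Subgroup G)
    (hW : ∀ h ∈ H, ∀ v ∈ W, ρ h v ∈ W) : H →* End ℂ W where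
  toFun g := (ρ g.1).restrict (hW g.1 g.2)
  map_one' := by
    ext v
    simp
  map_mul' g h := by
    ext v
    simp

theorem restr_apply (ρ : G →* End ℂ V) (W : Submodule ℂ V) (H : Subgroup G)
    (hW : ∀ h ∈ H, ∀ v ∈ W, ρ h v ∈ W) (g : H) (v : W) :
    (restr ρ W H hW g v : V) = ρ g.1 v.1 := rfl

/-- subspaces on which a subgroup of finite index of `K` acts by scalars -/
def PP (ρ : G →* End ℂ V) (K : Subgroup G) (W : Submodule ℂ V) : Prop :=
  W ≠ ⊥ ∧ (scalOn ρ W).relIndex K ≠ 0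

/-- those of maximal dimension -/
def MM (ρ : G →* End ℂ V) (K : Subgroup G) (W : Submodule ℂ V) : Prop :=
  PP ρ K W ∧ ∀ W', PP ρ K W' → finrank ℂ W' ≤ finrank ℂ W

variable [FiniteDimensional ℂ V]

/-- a minimal nonzero subspace invariant under a commuting group -/
theorem exists_scalOn_of_comm [Nontrivial V] (ρ : G →* End ℂ V) (D : Subgroup G)
    (hcomm : ∀ a ∈ D, ∀ b ∈ D, ρ a * ρ b = ρ b * ρ a) :
    ∃ W : Submodule ℂ V, W ≠ ⊥ ∧ D ≤ scalOn ρ W := by
  have hwf : WellFounded ((· < ·) : Submodule ℂ V → Submodule ℂ V → Prop) :=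
    wellFounded_lt
  obtain ⟨W, ⟨hW0, hWD⟩, hmin⟩ := hwf.has_min
    {W : Submodule ℂ V | W ≠ ⊥ ∧ ∀ d ∈ D, ∀ v ∈ W, ρ d v ∈ W} ⟨⊤, top_ne_bot, fun _ _ _ _ => trivial⟩
  refine ⟨W, hW0, fun a ha => ?_⟩
  have hWn : Nontrivial W := Submodule.nontrivial_iff_ne_bot.2 hW0
  obtain ⟨c, hc⟩ := Module.End.exists_eigenvalue ((ρ a).restrict (hWD a ha))
  obtain ⟨w, hw⟩ := hc.exists_hasEigenvector
  have hw1 : ρ a w.1 = c • w.1 := congrArg Subtype.val hw.apply_eq_smul
  have hw0 : w.1 ≠ 0 := fun h => hw.2 (Subtype.ext h)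
  have hU : W ⊓ (ρ a).eigenspace c = W := by
    by_contra hne
    have hlt : W ⊓ (ρ a).eigenspace c < W := lt_of_le_of_ne inf_le_left hne
    refine hmin _ ⟨?_, ?_⟩ hlt
    · intro h
      have h1 : w.1 ∈ W ⊓ (ρ a).eigenspace c := ⟨w.2, Module.End.mem_eigenspace_iff.2 hw1⟩
      rw [h] at h1
      exact hw0 ((Submodule.mem_bot ℂ).1 h1)
    · rintro d hd v ⟨hv1, hv2⟩
      refine ⟨hWD d hd v hv1, ?_⟩
      have hv2' := Module.End.mem_eigenspace_iff.1 hv2
      refine Module.End.mem_eigenspace_iff.2 ?_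
      rw [← Module.End.mul_apply, hcomm a ha d hd, Module.End.mul_apply, hv2', map_smul]
  refine ⟨c, fun v hv => ?_⟩
  rw [← hU] at hv
  exact Module.End.mem_eigenspace_iff.1 hv.2

theorem exists_MM {ρ : G →* End ℂ V} {K : Subgroup G} (h : ∃ W, PP ρ K W) : ∃ W, MM ρ K W := by
  classical
  let S : Set ℕ := {n | ∃ W, PP ρ K W ∧ finrank ℂ W = n}
  have hS : S.Nonempty := by
    obtain ⟨W, hW⟩ := h
    exact ⟨_, W, hW, rfl⟩
  have hb : BddAbove S := ⟨finrank ℂ V, by
    rintro _ ⟨W, -, rfl⟩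
    exact Submodule.finrank_le W⟩
  obtain ⟨W, hW, h1⟩ := Nat.sSup_mem hS hb
  refine ⟨W, hW, fun W' hW' => ?_⟩
  rw [h1]
  exact le_csSup hb ⟨W', hW', rfl⟩

theorem PP_map {ρ : G →* End ℂ V} {K : Subgroup G} [K.Normal] {W : Submodule ℂ V}
    (hW : PP ρ K W) (g : G) : PP ρ K (W.map (ρ g)) := by
  refine ⟨?_, ?_⟩
  · exact fun h => hW.1 (eq_bot_of_map (injective ρ g) h)
  · have h1 : MulAut.conj g • scalOn ρ W ≤ scalOn ρ (W.map (ρ g)) := by
      intro x hx
      rw [Subgroup.mem_smul_pointwise_iff_exists] at hx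
      obtain ⟨h, ⟨c, hc⟩, rfl⟩ := hx
      refine ⟨c, ?_⟩
      rintro _ ⟨w, hw, rfl⟩
      have h2 : (MulAut.conj g • h) = g * h * g⁻¹ := rfl
      rw [h2, map_mul, map_mul, Module.End.mul_apply, Module.End.mul_apply, inv_apply_apply,
        hc w hw, map_smul]
    have h2 : MulAut.conj g • K = K := Subgroup.Normal.conj_smul_eq_self g K
    have h3 : (MulAut.conj g • scalOn ρ W).relIndex K ≠ 0 := by
      have := Subgroup.relIndex_pointwise_smul (MulAut.conj g) (scalOn ρ W) K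
      rw [h2] at this
      rw [this]
      exact hW.2
    exact fun h4 => h3 (Subgroup.relIndex_eq_zero_of_le_left h1 h4)

theorem finrank_map (ρ : G →* End ℂ V) (W : Submodule ℂ V) (g : G) :
    finrank ℂ (W.map (ρ g)) = finrank ℂ W :=
  (LinearEquiv.finrank_eq (Submodule.equivMapOfInjective (ρ g) (injective ρ g) W)).symm

theorem MM_map {ρ : G →* End ℂ V} {K : Subgroup G} [K.Normal] {W : Submodule ℂ V}
    (hW : MM ρ K W) (g : G) : MM ρ K (W.map (ρ g)) :=
  ⟨PP_map hW.1 g, fun W' hW' => by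
    rw [finrank_map]
    exact hW.2 W' hW'⟩

/-- two maximal subspaces which carry the same character on a subgroup of finite index of `K`
coincide -/
theorem MM_eq {ρ : G →* End ℂ V} {K : Subgroup G} {W W' : Submodule ℂ V} (hW : MM ρ K W)
    (hW' : MM ρ K W') (D : Subgroup G) (hD : D.relIndex K ≠ 0) (χ : G → ℂ)
    (h1 : ∀ d ∈ D, ∀ v ∈ W, ρ d v = χ d • v) (h2 : ∀ d ∈ D, ∀ v ∈ W', ρ d v = χ d • v) :
    W = W' := by
  have h3 : PP ρ K (W ⊔ W') := by
    refine ⟨fun h => hW.1.1 (le_bot_iff.1 (h ▸ le_sup_left)), ?_⟩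
    refine fun h => hD (Subgroup.relIndex_eq_zero_of_le_left (K := scalOn ρ (W ⊔ W')) ?_ h)
    intro d hd
    refine ⟨χ d, fun v hv => ?_⟩
    obtain ⟨x, hx, y, hy, rfl⟩ := Submodule.mem_sup.1 hv
    rw [map_add, h1 d hd x hx, h2 d hd y hy, smul_add]
  have h4 : W = W ⊔ W' := Submodule.eq_of_le_of_finrank_le le_sup_left (hW.2 _ h3)
  have h5 : W' = W ⊔ W' := Submodule.eq_of_le_of_finrank_le le_sup_right (hW'.2 _ h3)
  exact h4.trans h5.symm

theorem MM_indep (ρ : G →* End ℂ V) (K : Subgroup G) :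
    iSupIndep fun W : {W // MM ρ K W} => W.1 := by
  classical
  rw [iSupIndep_iff_finsetSum_eq_zero_imp_eq_zero]
  intro s
  induction s using Finset.induction_on with
  | empty => intro v _ _ i hi; simp at hi
  | insert j s hj ih =>
    intro v hv hsum
    -- a common subgroup
    let D : Subgroup G := ⨅ i : {i // i ∈ insert j s}, scalOn ρ i.1.1
    have hD : D.relIndex K ≠ 0 := Subgroup.relIndex_iInf_ne_zero fun i => i.1.2.1.2
    have hDle : ∀ i ∈ insert j s, D ≤ scalOn ρ i.1 := fun i hi =>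
      iInf_le (fun i : {i // i ∈ insert j s} => scalOn ρ i.1.1) ⟨i, hi⟩
    have hχ : ∀ i : {W // MM ρ K W}, ∃ χ : G → ℂ, i ∈ insert j s →
        ∀ d ∈ D, ∀ v ∈ i.1, ρ d v = χ d • v := by
      intro i
      by_cases hi : i ∈ insert j s
      · have h1 : ∀ d : G, ∃ c : ℂ, d ∈ D → ∀ v ∈ i.1, ρ d v = c • v := by
          intro d
          by_cases hd : d ∈ D
          · obtain ⟨c, hc⟩ := hDle i hi hd
            exact ⟨c, fun _ => hc⟩
          · exact ⟨0, fun h => absurd h hd⟩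
        choose χ hχ using h1
        exact ⟨χ, fun _ d hd => hχ d hd⟩
      · exact ⟨0, fun h => absurd h hi⟩
    choose χ hχ using hχ
    -- vanishing on s
    have hs : ∀ i ∈ s, v i = 0 := by
      intro i hi
      by_contra hne
      have hij : i ≠ j := fun h => hj (h ▸ hi)
      have hall : ∀ d ∈ D, χ i d = χ j d := by
        intro d hd
        have h1 : ∑ k ∈ s, (χ k d - χ j d) • v k = 0 := by
          have h2 : ρ d (∑ k ∈ insert j s, v k) = 0 := by rw [hsum, map_zero]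
          have h3 : χ j d • (∑ k ∈ insert j s, v k) = 0 := by rw [hsum, smul_zero]
          have h4 : ρ d (∑ k ∈ insert j s, v k) = ∑ k ∈ insert j s, χ k d • v k := by
            rw [map_sum]
            exact Finset.sum_congr rfl fun k hk => hχ k hk d hd _ (hv k hk)
          rw [h4, Finset.sum_insert hj] at h2
          rw [Finset.smul_sum, Finset.sum_insert hj] at h3
          simp only [sub_smul, Finset.sum_sub_distrib]
          rw [← sub_eq_zero.2 (h2.trans h3.symm)]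
          abel
        have h5 := ih (fun k => (χ k d - χ j d) • v k)
          (fun k hk => k.1.smul_mem _ (hv k (Finset.mem_insert_of_mem hk))) h1 i hi
        rcases smul_eq_zero.1 h5 with h6 | h6
        · exact sub_eq_zero.1 h6
        · exact absurd h6 hne
      refine hij (Subtype.ext (MM_eq i.2 j.2 D hD (χ i)
        (hχ i (Finset.mem_insert_of_mem hi)) fun d hd v hv => ?_))
      rw [hall d hd]
      exact hχ j (Finset.mem_insert_self _ _) d hd v hv
    intro i hi
    rcases Finset.mem_insert.1 hi with rfl | hi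
    · rw [Finset.sum_insert hj, Finset.sum_eq_zero hs, add_zero] at hsum
      exact hsum
    · exact hs i hi

theorem MM_finite (ρ : G →* End ℂ V) (K : Subgroup G) : Finite {W // MM ρ K W} :=
  WellFoundedGT.finite_of_iSupIndep (MM_indep ρ K) fun W => W.2.1.1

/-- the stabiliser of a maximal subspace has finite index -/
theorem stab_index (ρ : G →* End ℂ V) (K : Subgroup G) [K.Normal] {W : Submodule ℂ V}
    (hW : MM ρ K W) : (stab ρ W).relIndex ⊤ ≠ 0 := by
  have := MM_finite ρ K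
  refine relIndex_ne_zero_of_finite _ _ (fun g => W.map (ρ g)) ?_ ?_
  · refine (Set.finite_range fun W : {W // MM ρ K W} => W.1).subset ?_
    rintro _ ⟨g, -, rfl⟩
    exact ⟨⟨_, MM_map hW g⟩, rfl⟩
  · intro a _ b _ hab
    have h1 := congrArg (fun U : Submodule ℂ V => U.map (ρ a⁻¹)) hab
    simp only [map_map, inv_mul_cancel, map_one'] at h1
    exact h1.symm

/-- `K` acts irreducibly: its stabiliser of a maximal subspace acts irreducibly there -/
theorem MM_irr (ρ : G →* End ℂ V) (K : Subgroup G) (hirr : IrrOn ρ K) [K.Normal]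
    {W : Submodule ℂ V} (hW : MM ρ K W) (U : Submodule ℂ V) (hU : U ≤ W) (hU0 : U ≠ ⊥)
    (hinv : ∀ k ∈ K, k ∈ stab ρ W → ∀ v ∈ U, ρ k v ∈ U) : U = W := by
  classical
  have hch : ∀ W' : {W' : Submodule ℂ V // ∃ k ∈ K, W.map (ρ k) = W'}, ∃ k ∈ K,
      W.map (ρ k) = W'.1 := fun W' => W'.2
  choose k hk hkW using hch
  let f : {W' : Submodule ℂ V // ∃ k ∈ K, W.map (ρ k) = W'} → Submodule ℂ V :=
    fun W' => U.map (ρ (k W'))
  let g : {W' : Submodule ℂ V // ∃ k ∈ K, W.map (ρ k) = W'} → Submodule ℂ V := fun W' => W'.1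
  have hg : iSupIndep g := by
    let φ : {W' : Submodule ℂ V // ∃ k ∈ K, W.map (ρ k) = W'} → {W // MM ρ K W} := fun W' =>
      ⟨W'.1, by
        obtain ⟨k, -, hk⟩ := W'.2
        rw [← hk]
        exact MM_map hW k⟩
    have hφ : Function.Injective φ := fun a b hab => by
      have h1 : (φ a).1 = (φ b).1 := congrArg Subtype.val hab
      exact Subtype.ext h1
    exact (MM_indep ρ K).comp hφ
  have hfg : f ≤ g := fun W' => by
    show U.map (ρ (k W')) ≤ W'.1
    rw [← hkW W']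
    exact Submodule.map_mono hU
  -- the key invariance
  have hstep : ∀ x ∈ K, ∀ W', ∃ W'', (f W').map (ρ x) ≤ f W'' := by
    intro x hx W'
    let W'' : {W' : Submodule ℂ V // ∃ k ∈ K, W.map (ρ k) = W'} :=
      ⟨W.map (ρ (x * k W')), x * k W', K.mul_mem hx (hk W'), rfl⟩
    refine ⟨W'', ?_⟩
    have h1 : (k W'')⁻¹ * (x * k W') ∈ stab ρ W := by
      rw [mem_stab, ← map_map]
      have h2 : W.map (ρ (x * k W')) = W.map (ρ (k W'')) := (hkW W'').symm
      rw [h2, map_map, inv_mul_cancel, map_one']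
    have h3 : (k W'')⁻¹ * (x * k W') ∈ K :=
      K.mul_mem (K.inv_mem (hk W'')) (K.mul_mem hx (hk W'))
    have h4 : U.map (ρ ((k W'')⁻¹ * (x * k W'))) ≤ U := by
      rintro _ ⟨u, hu, rfl⟩
      exact hinv _ h3 h1 u hu
    show (U.map (ρ (k W'))).map (ρ x) ≤ U.map (ρ (k W''))
    rw [map_map]
    have h5 : x * k W' = k W'' * ((k W'')⁻¹ * (x * k W')) := by simp
    rw [h5, ← map_map]
    exact Submodule.map_mono h4
  have htop : iSup f = ⊤ := by
    have h1 := hirr (iSup f) fun x hx v hv => by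
      have h2 : (iSup f).map (ρ x) ≤ iSup f := by
        rw [Submodule.map_iSup]
        refine iSup_le fun W' => ?_
        obtain ⟨W'', hW''⟩ := hstep x hx W'
        exact hW''.trans (le_iSup f W'')
      exact h2 (Submodule.mem_map_of_mem hv)
    rcases h1 with h1 | h1
    · exfalso
      rw [iSup_eq_bot] at h1
      exact hU0 (eq_bot_of_map (injective ρ _) (h1 ⟨W, 1, K.one_mem, map_one' ρ W⟩))
    · exact h1
  have heq := (hg.le_iff_eq_of_iSup_eq_top htop).1 hfg
  let W0 : {W' : Submodule ℂ V // ∃ k ∈ K, W.map (ρ k) = W'} := ⟨W, 1, K.one_mem, map_one' ρ W⟩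
  have h1 : U.map (ρ (k W0)) = W := congrFun heq W0
  refine le_antisymm hU ?_
  rw [← h1]
  rintro _ ⟨u, hu, rfl⟩
  exact hinv _ (hk W0) (hkW W0) u hu

/-- a maximal subspace: a subgroup of finite index of `G` acts by scalars on it -/
theorem scalOn_index (ρ : G →* End ℂ V) (K : Subgroup G) (hirr : IrrOn ρ K) [hK : K.Normal]
    {W : Submodule ℂ V} (hW : MM ρ K W) : (scalOn ρ W).relIndex ⊤ ≠ 0 := by
  have hst : ∀ h ∈ stab ρ W, ∀ v ∈ W, ρ h v ∈ W := fun h hh v hv => apply_mem_of_stab hh hv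
  let σ := restr ρ W (stab ρ W) hst
  have hsc : scal σ = (scalOn ρ W).subgroupOf (stab ρ W) := by
    ext x
    rw [Subgroup.mem_subgroupOf]
    refine ⟨fun ⟨c, hc⟩ => ⟨c, fun v hv => ?_⟩, fun ⟨c, hc⟩ => ⟨c, fun v _ => Subtype.ext ?_⟩⟩
    · exact congrArg Subtype.val (hc ⟨v, hv⟩ trivial)
    · exact hc v.1 v.2
  have h1 : (scal σ).relIndex ⊤ ≠ 0 := by
    refine projFinite_of_comm σ (K.subgroupOf (stab ρ W)) ⊤ (K.subgroupOf (stab ρ W)) ?_ ?_ ?_
    · intro U hU
      by_cases hU0 : U = ⊥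
      · exact Or.inl hU0
      right
      have h2 := MM_irr ρ K hirr hW (U.map W.subtype) (Submodule.map_subtype_le W U)
        (fun h => hU0 (eq_bot_of_map W.subtype_injective h)) ?_
      · rw [eq_top_iff]
        intro v _
        have h3 : v.1 ∈ U.map W.subtype := by rw [h2]; exact v.2
        obtain ⟨u, hu, huv⟩ := h3
        rwa [← Subtype.ext huv]
      · rintro x hx hxs _ ⟨u, hu, rfl⟩
        exact ⟨σ ⟨x, hxs⟩ u, hU ⟨x, hxs⟩ (by rwa [Subgroup.mem_subgroupOf]) u hu, rfl⟩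
    · intro a ha b _
      rw [Subgroup.mem_subgroupOf] at ha ⊢
      exact K.mul_mem (hK.conj_mem _ ha _) (K.inv_mem ha)
    · rw [hsc]
      exact Subgroup.relIndex_comap_ne_zero _ hW.1.2
  rw [hsc] at h1
  have h2 : (scalOn ρ W).relIndex (stab ρ W) ≠ 0 := by
    rwa [Subgroup.relIndex_top_right] at h1
  exact Subgroup.relIndex_ne_zero_trans h2 (stab_index ρ K hW)

/-- **Lemma 3.** A representation which is irreducible on a normal subgroup `K`, where it is
virtually abelian, is virtually abelian. -/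
theorem virtAb_of_normal (ρ : G →* End ℂ V) (K : Subgroup G) [K.Normal] (hirr : IrrOn ρ K)
    (D : Subgroup G) (hD : D.relIndex K ≠ 0)
    (hcomm : ∀ a ∈ D, ∀ b ∈ D, ρ a * ρ b = ρ b * ρ a) :
    ∃ D' : Subgroup G, D'.Normal ∧ D'.FiniteIndex ∧
      ∀ a ∈ D', ∀ b ∈ D', ρ a * ρ b = ρ b * ρ a := by
  rcases subsingleton_or_nontrivial V with hV | hV
  · exact ⟨⊤, inferInstance, inferInstance, fun a _ b _ =>
      LinearMap.ext fun v => Subsingleton.elim _ _⟩
  obtain ⟨W0, hW0, hDW0⟩ := exists_scalOn_of_comm ρ D hcomm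
  obtain ⟨W, hW⟩ := exists_MM (ρ := ρ) (K := K)
    ⟨W0, hW0, fun h => hD (Subgroup.relIndex_eq_zero_of_le_left hDW0 h)⟩
  have hfin := MM_finite ρ K
  let D1 : Subgroup G := ⨅ W : {W // MM ρ K W}, scalOn ρ W.1
  have hD1 : D1.relIndex ⊤ ≠ 0 :=
    Subgroup.relIndex_iInf_ne_zero fun W => scalOn_index ρ K hirr W.2
  rw [Subgroup.relIndex_top_right] at hD1
  have hfi : D1.FiniteIndex := ⟨hD1⟩
  have htop : (⨆ W : {W // MM ρ K W}, W.1) = ⊤ := by
    have h1 := hirr (⨆ W : {W // MM ρ K W}, W.1) fun x _ v hv => by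
      have h2 : (⨆ W : {W // MM ρ K W}, W.1).map (ρ x) ≤ ⨆ W : {W // MM ρ K W}, W.1 := by
        rw [Submodule.map_iSup]
        exact iSup_le fun W' => le_iSup (fun W : {W // MM ρ K W} => W.1) ⟨_, MM_map W'.2 x⟩
      exact h2 (Submodule.mem_map_of_mem hv)
    rcases h1 with h1 | h1
    · exfalso
      rw [iSup_eq_bot] at h1
      exact hW.1.1 (h1 ⟨W, hW⟩)
    · exact h1
  refine ⟨D1.normalCore, inferInstance, inferInstance, fun a ha b hb => ?_⟩
  have ha1 := Subgroup.normalCore_le D1 ha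
  have hb1 := Subgroup.normalCore_le D1 hb
  refine LinearMap.ext fun v => ?_
  have hv : v ∈ ⨆ W : {W // MM ρ K W}, W.1 := by rw [htop]; trivial
  induction hv using Submodule.iSup_induction' with
  | mem W' v hv =>
    obtain ⟨c, hc⟩ := (Subgroup.mem_iInf.1 ha1) W'
    obtain ⟨c', hc'⟩ := (Subgroup.mem_iInf.1 hb1) W'
    rw [Module.End.mul_apply, Module.End.mul_apply, hc' v hv, hc v hv, map_smul, map_smul, hc v hv,
      hc' v hv, smul_smul, smul_smul, mul_comm]
  | zero => simp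
  | add x y _ _ hx hy => rw [map_add, map_add, hx, hy]

end Vale.Agent.P002.H627
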