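import Vale.Agent.P002.H627.Bridge
import Vale.Agent.P002.H326J.J9

/-!
# P002, Theorem T: Lemmas 2 and 3 for functions which are multiplicative on a subgroup
-/

namespace Vale.Agent.P002.H627

open Module Matrix Vale.Agent.P002.H2

variable {F : Type} [Group F] {V : Type} [AddCommGroup V] [Module ℂ V]

/-- a subgroup of finite index acts by scalars -/
def ProjFin (A : Subgroup F) (ρ : F → Module.End ℂ V) : Prop :=
  ∃ B : Subgroup F, B ≤ A ∧ B.relIndex A ≠ 0 ∧ Scal B ρ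

theorem relIndex_of_projFin {H A : Subgroup F} {ρ : F → Module.End ℂ V} (hρ : MulOn H ρ)
    (h : ProjFin A ρ) : (scal (hom hρ)).relIndex (A.subgroupOf H) ≠ 0 := by
  obtain ⟨B, -, hB1, hB2⟩ := h
  have h1 : (B.subgroupOf H).relIndex (A.subgroupOf H) ≠ 0 :=
    Subgroup.relIndex_comap_ne_zero _ hB1
  refine fun h2 => h1 (Subgroup.relIndex_eq_zero_of_le_left (fun x hx => ?_) h2)
  exact mem_scal.2 (hB2 x.1 (Subgroup.mem_subgroupOf.1 hx))

theorem projFin_of_relIndex {H A : Subgroup F} (hA : A ≤ H) {ρ : F → Module.End ℂ V}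
    (hρ : MulOn H ρ) (h : (scal (hom hρ)).relIndex (A.subgroupOf H) ≠ 0) : ProjFin A ρ := by
  refine ⟨(scal (hom hρ) ⊓ A.subgroupOf H).map H.subtype, ?_, ?_, ?_⟩
  · rintro _ ⟨x, hx, rfl⟩
    exact Subgroup.mem_subgroupOf.1 hx.2
  · have h1 : (A.subgroupOf H).map H.subtype = A := by
      rw [Subgroup.subgroupOf_map_subtype, inf_eq_left.2 hA]
    have h2 := Subgroup.relIndex_map_map_of_injective (scal (hom hρ) ⊓ A.subgroupOf H)
      (A.subgroupOf H) H.subtype_injective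
    rw [h1, Subgroup.inf_relIndex_right] at h2
    rw [h2]
    exact h
  · rintro _ ⟨x, hx, rfl⟩
    exact mem_scal.1 hx.1

/-- PA3a (Lemma 2). -/
theorem PA3a [FiniteDimensional ℂ V]
    (H A B : Subgroup F) (hA : A ≤ H) (hB : B ≤ H) (ρ : F → Module.End ℂ V) (hρ : MulOn H ρ)
    (_hAn : ∀ x ∈ H, ∀ y ∈ A, x * y * x⁻¹ ∈ A) (_hBn : ∀ x ∈ H, ∀ y ∈ B, x * y * x⁻¹ ∈ B)
    (hirr : Irr A ρ) (hfin : ProjFin ⁅A, B⁆ ρ) : ProjFin B ρ := by
  refine projFin_of_relIndex hB hρ (projFinite_of_comm (hom hρ) (A.subgroupOf H)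
    (B.subgroupOf H) (⁅A, B⁆.subgroupOf H) (irrOn_of_irr hA hρ hirr) ?_
    (relIndex_of_projFin hρ hfin))
  intro a ha b hb
  rw [Subgroup.mem_subgroupOf] at ha hb ⊢
  rw [Subgroup.commutator_comm]
  exact Subgroup.commutator_mem_commutator hb ha

theorem map_derivedSeries_le {A : Type*} [Group A] (f : A →* F) {B : Subgroup F}
    (hf : ∀ a, f a ∈ B) (n : ℕ) : (derivedSeries A n).map f ≤ dser B n := by
  induction n with
  | zero =>
    rintro _ ⟨a, -, rfl⟩
    exact hf a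
  | succ n ih =>
    rw [derivedSeries_succ, Subgroup.map_commutator]
    exact Subgroup.commutator_mono ih ih

theorem MulOn.mono {M : Type*} [Monoid M] {H K : Subgroup F} {ρ : F → M} (h : MulOn H ρ)
    (hK : K ≤ H) : MulOn K ρ := ⟨h.one, fun x hx y hy => h.mul x (hK hx) y (hK hy)⟩

theorem vs_of_comm {H : Subgroup F} {M : Type*} [Monoid M] {ρ : F → M} (hρ : MulOn H ρ)
    (D : Subgroup H) [hD : D.FiniteIndex] (hc : ∀ a ∈ D, ∀ b ∈ D, ρ a * ρ b = ρ b * ρ a) :
    VS H ρ := by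
  refine ⟨D.map H.subtype, Subgroup.map_subtype_le _, ?_, 1, ?_⟩
  · rw [relIndex_map_subtype]
    exact hD.index_ne_zero
  · intro x hx
    have hx' : x ∈ ⁅D.map H.subtype, D.map H.subtype⁆ := hx
    rw [← Subgroup.map_commutator] at hx'
    obtain ⟨y, hy, rfl⟩ := hx'
    have h1 : ⁅D, D⁆ ≤ (hom hρ).ker := by
      rw [Subgroup.commutator_le]
      intro a ha b hb
      rw [MonoidHom.mem_ker, commutatorElement_def, map_mul, map_mul, map_mul]
      have h2 : hom hρ a * hom hρ b = hom hρ b * hom hρ a := hc a ha b hb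
      rw [h2, mul_assoc (hom hρ b), ← map_mul (hom hρ) a, mul_inv_cancel, map_one, mul_one,
        ← map_mul, mul_inv_cancel, map_one]
    exact MonoidHom.mem_ker.1 (h1 hy)

/-- the commuting subgroup of `K` -/
theorem exists_comm_of_vs [FiniteDimensional ℂ V] {K : Subgroup F} {ρ : F → Module.End ℂ V}
    (hρ : MulOn K ρ) (hirr : Irr K ρ) (hvs : VS K ρ) :
    ∃ D : Subgroup F, D ≤ K ∧ D.relIndex K ≠ 0 ∧ ∀ a ∈ D, ∀ b ∈ D, ρ a * ρ b = ρ b * ρ a := by
  obtain ⟨B, hBK, hBi, n, hB⟩ := hvs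
  let b := Module.finBasis ℂ V
  let σ : K →* Matrix (Fin (finrank ℂ V)) (Fin (finrank ℂ V)) ℂ :=
    (LinearMap.toMatrixAlgEquiv b : _ →* _).comp (hom hρ)
  have hσ : ∀ x, σ x = LinearMap.toMatrixAlgEquiv b (ρ x) := fun x => rfl
  have hmul : ∀ x v, σ x *ᵥ v = b.equivFun (ρ x (b.equivFun.symm v)) := by
    intro x v
    rw [hσ]
    have h1 := LinearMap.toMatrix_mulVec_repr b b (ρ x) (b.equivFun.symm v)
    have h2 : (b.repr (b.equivFun.symm v) : Fin (finrank ℂ V) → ℂ) = v :=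
      b.equivFun.apply_symm_apply v
    rw [h2] at h1
    exact h1
  have hssi : Vale.Agent.P002.H306.Ssi σ := by
    intro W hW
    have h1 := hirr.2 (W.comap b.equivFun.toLinearMap) fun x hx v hv => by
      have h2 := hW ⟨x, hx⟩ _ hv
      rw [hmul] at h2
      have h3 : b.equivFun.symm (b.equivFun.toLinearMap v) = v := b.equivFun.symm_apply_apply v
      rw [h3] at h2
      exact h2
    rcases h1 with h1 | h1
    · refine ⟨⊤, fun _ _ _ => trivial, ?_⟩
      have : W = ⊥ := by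
        rw [eq_bot_iff]
        intro w hw
        have h2 : b.equivFun.symm w ∈ W.comap b.equivFun.toLinearMap := by
          show b.equivFun (b.equivFun.symm w) ∈ W
          rwa [LinearEquiv.apply_symm_apply]
        rw [h1, Submodule.mem_bot] at h2
        rw [Submodule.mem_bot, ← b.equivFun.apply_symm_apply w, h2, map_zero]
      rw [this]
      exact isCompl_bot_top
    · refine ⟨⊥, fun g v hv => ?_, ?_⟩
      · rw [Submodule.mem_bot] at hv ⊢
        rw [hv, Matrix.mulVec_zero]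
      · have : W = ⊤ := by
          rw [eq_top_iff]
          intro w _
          have h2 : b.equivFun.symm w ∈ W.comap b.equivFun.toLinearMap := by rw [h1]; trivial
          have h3 : b.equivFun (b.equivFun.symm w) ∈ W := h2
          rwa [LinearEquiv.apply_symm_apply] at h3
        rw [this]
        exact isCompl_top_bot
  obtain ⟨K1, -, hK1, hc⟩ := Vale.Agent.P002.H326J.va_of_vs σ hssi (B.subgroupOf K) ⟨hBi⟩ n (by
    intro g hg
    have h1 := map_derivedSeries_le (K.subtype.comp (B.subgroupOf K).subtype) (B := B)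
      (fun a => Subgroup.mem_subgroupOf.1 a.2) n ⟨g, hg, rfl⟩
    rw [hσ]
    have h2 : ρ ((g : K) : F) = 1 := hB _ h1
    rw [h2, map_one])
  refine ⟨K1.map K.subtype, Subgroup.map_subtype_le _, ?_, ?_⟩
  · rw [relIndex_map_subtype]
    exact hK1.index_ne_zero
  · rintro _ ⟨x, hx, rfl⟩ _ ⟨y, hy, rfl⟩
    have h1 := hc x hx y hy
    rw [hσ, hσ, ← map_mul, ← map_mul] at h1
    exact (LinearMap.toMatrixAlgEquiv b).injective h1

/-- PA3b (Lemma 3). -/
theorem PA3b [FiniteDimensional ℂ V]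
    (H K : Subgroup F) (hK : K ≤ H) (ρ : F → Module.End ℂ V) (hρ : MulOn H ρ)
    (hKn : ∀ x ∈ H, ∀ y ∈ K, x * y * x⁻¹ ∈ K)
    (hirr : Irr K ρ) (hvs : VS K ρ) : VS H ρ := by
  obtain ⟨D, hDK, hDi, hD⟩ := exists_comm_of_vs (MulOn.mono hρ hK) hirr hvs
  have hN : (K.subgroupOf H).Normal := ⟨fun n hn g => by
    rw [Subgroup.mem_subgroupOf] at hn ⊢
    exact hKn g.1 g.2 n.1 hn⟩
  obtain ⟨D', -, hD'i, hD'⟩ := virtAb_of_normal (hom hρ) (K.subgroupOf H)
    (irrOn_of_irr hK hρ hirr) (D.subgroupOf H) (Subgroup.relIndex_comap_ne_zero _ hDi)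
    (fun a ha b hb => hD a (Subgroup.mem_subgroupOf.1 ha) b (Subgroup.mem_subgroupOf.1 hb))
  exact vs_of_comm hρ D' hD'

end Vale.Agent.P002.H627
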