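import Mathlib

/-!
# P002, Theorem T: projectively finite subgroups (Lemmas 2 and 3 of the structure theorem)
-/

namespace Vale.Agent.P002.H627

open Module

section index

variable {G : Type*} [Group G]

/-- a criterion for finite relative index -/
theorem relIndex_ne_zero_of_finite {α : Type*} (H B : Subgroup G) (f : G → α)
    (hfin : (f '' (B : Set G)).Finite) (h : ∀ a ∈ B, ∀ b ∈ B, f a = f b → a⁻¹ * b ∈ H) :
    H.relIndex B ≠ 0 := by
  have h1 : Finite (f '' (B : Set G)) := hfin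
  have h2 : Finite (B ⧸ H.subgroupOf B) := by
    refine Finite.of_injective
      (fun q : B ⧸ H.subgroupOf B => (⟨f (q.out : B), ⟨_, q.out.2, rfl⟩⟩ : f '' (B : Set G))) ?_
    intro q q' hq
    have h3 : f (q.out : B) = f (q'.out : B) := congrArg Subtype.val hq
    have h4 := h _ q.out.2 _ q'.out.2 h3
    have h5 : (QuotientGroup.mk (q.out) : B ⧸ H.subgroupOf B) = QuotientGroup.mk (q'.out) := by
      rw [QuotientGroup.eq, Subgroup.mem_subgroupOf]
      simpa using h4
    rwa [QuotientGroup.out_eq', QuotientGroup.out_eq'] at h5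
  exact Subgroup.index_ne_zero_of_finite

/-- finitely many representatives of the cosets -/
theorem exists_reps (H C : Subgroup G) (h : H.relIndex C ≠ 0) :
    ∃ J : Set G, J.Finite ∧ J ⊆ C ∧ ∀ c ∈ C, ∃ j ∈ J, ∃ z ∈ H, c = j * z := by
  have h1 : (H.subgroupOf C).FiniteIndex := ⟨h⟩
  have h2 : Finite (C ⧸ H.subgroupOf C) := inferInstance
  refine ⟨Set.range fun q : C ⧸ H.subgroupOf C => ((q.out : C) : G), Set.finite_range _, ?_, ?_⟩
  · rintro _ ⟨q, rfl⟩
    exact (q.out : C).2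
  · intro c hc
    let q : C ⧸ H.subgroupOf C := QuotientGroup.mk ⟨c, hc⟩
    refine ⟨_, ⟨q, rfl⟩, (q.out : C)⁻¹ * c, ?_, by simp⟩
    have h3 : (QuotientGroup.mk q.out : C ⧸ H.subgroupOf C) = QuotientGroup.mk ⟨c, hc⟩ :=
      QuotientGroup.out_eq' q
    rw [QuotientGroup.eq, Subgroup.mem_subgroupOf] at h3
    simpa using h3

end index

section scal

variable {G : Type*} [Group G] {V : Type*} [AddCommGroup V] [Module ℂ V]

theorem inv_apply_apply (ρ : G →* End ℂ V) (g : G) (v : V) : ρ g⁻¹ (ρ g v) = v := by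
  rw [← Module.End.mul_apply, ← map_mul, inv_mul_cancel, map_one, Module.End.one_apply]

theorem apply_inv_apply (ρ : G →* End ℂ V) (g : G) (v : V) : ρ g (ρ g⁻¹ v) = v := by
  rw [← Module.End.mul_apply, ← map_mul, mul_inv_cancel, map_one, Module.End.one_apply]

/-- the elements which act by scalars on the subspace `W` -/
def scalOn (ρ : G →* End ℂ V) (W : Submodule ℂ V) : Subgroup G where
  carrier := {g | ∃ c : ℂ, ∀ v ∈ W, ρ g v = c • v}
  one_mem' := ⟨1, fun v _ => by simp⟩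
  mul_mem' := by
    rintro a b ⟨c, hc⟩ ⟨c', hc'⟩
    refine ⟨c * c', fun v hv => ?_⟩
    rw [map_mul, Module.End.mul_apply, hc' v hv, map_smul, hc v hv, smul_smul, mul_comm]
  inv_mem' := by
    rintro a ⟨c, hc⟩
    by_cases h0 : c = 0
    · refine ⟨0, fun v hv => ?_⟩
      have h1 := hc v hv
      rw [h0, zero_smul] at h1
      have h2 := inv_apply_apply ρ a v
      rw [h1, map_zero] at h2
      rw [← h2]
      simp
    · refine ⟨c⁻¹, fun v hv => ?_⟩
      have h1 := hc v hv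
      have h2 := inv_apply_apply ρ a v
      rw [h1, map_smul] at h2
      calc ρ a⁻¹ v = c⁻¹ • (c • ρ a⁻¹ v) := by rw [smul_smul, inv_mul_cancel₀ h0, one_smul]
        _ = c⁻¹ • v := by rw [h2]

theorem mem_scalOn {ρ : G →* End ℂ V} {W : Submodule ℂ V} {g : G} :
    g ∈ scalOn ρ W ↔ ∃ c : ℂ, ∀ v ∈ W, ρ g v = c • v := Iff.rfl

theorem scalOn_anti (ρ : G →* End ℂ V) {W W' : Submodule ℂ V} (h : W ≤ W') :
    scalOn ρ W' ≤ scalOn ρ W := fun _ ⟨c, hc⟩ => ⟨c, fun v hv => hc v (h hv)⟩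

/-- the elements which act by scalars -/
abbrev scal (ρ : G →* End ℂ V) : Subgroup G := scalOn ρ ⊤

theorem mem_scal {ρ : G →* End ℂ V} {g : G} : g ∈ scal ρ ↔ ∃ c : ℂ, ρ g = c • 1 := by
  refine ⟨fun ⟨c, hc⟩ => ⟨c, LinearMap.ext fun v => ?_⟩, fun ⟨c, hc⟩ => ⟨c, fun v _ => ?_⟩⟩
  · rw [hc v trivial]
    rfl
  · rw [hc]
    rfl

/-- the subgroup `A` has no invariant subspaces other than `0` and `V` -/
def IrrOn (ρ : G →* End ℂ V) (A : Subgroup G) : Prop :=
  ∀ W : Submodule ℂ V, (∀ a ∈ A, ∀ v ∈ W, ρ a v ∈ W) → W = ⊥ ∨ W = ⊤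

/-- Schur's lemma -/
theorem schur [FiniteDimensional ℂ V] {ρ : G →* End ℂ V} {A : Subgroup G} (hA : IrrOn ρ A)
    (T : End ℂ V) (hT : ∀ a ∈ A, T * ρ a = ρ a * T) : ∃ c : ℂ, T = c • 1 := by
  rcases subsingleton_or_nontrivial V with hV | hV
  · exact ⟨0, LinearMap.ext fun v => Subsingleton.elim _ _⟩
  · obtain ⟨c, hc⟩ := Module.End.exists_eigenvalue T
    refine ⟨c, ?_⟩
    have h1 := hA (T.eigenspace c) fun a ha v hv => by
      rw [Module.End.mem_eigenspace_iff] at hv ⊢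
      rw [← Module.End.mul_apply, hT a ha, Module.End.mul_apply, hv, map_smul]
    rcases h1 with h1 | h1
    · exact absurd h1 hc
    · refine LinearMap.ext fun v => ?_
      have h2 : v ∈ T.eigenspace c := by rw [h1]; trivial
      rw [Module.End.mem_eigenspace_iff] at h2
      rw [h2]
      rfl

theorem finite_pow_eq {d : ℕ} (hd : 0 < d) (x : ℂ) : {z : ℂ | z ^ d = x}.Finite := by
  refine (Multiset.finite_toSet (Polynomial.nthRoots d x)).subset fun z hz => ?_
  exact (Polynomial.mem_nthRoots hd).2 hz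

/-- operators with given determinant in finitely many lines -/
theorem finite_lines [FiniteDimensional ℂ V] {J : Set (End ℂ V)} (hJ : J.Finite)
    (hdet : ∀ R ∈ J, LinearMap.det R ≠ 0) (δ : ℂ) :
    {T : End ℂ V | LinearMap.det T = δ ∧ ∃ R ∈ J, ∃ z : ℂ, T = z • R}.Finite := by
  rcases subsingleton_or_nontrivial V with hV | hV
  · have : Subsingleton (End ℂ V) := ⟨fun a b => LinearMap.ext fun v => Subsingleton.elim _ _⟩
    exact Set.toFinite _
  · have hd : 0 < finrank ℂ V := finrank_pos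
    have h1 : ∀ R ∈ J, {T : End ℂ V | LinearMap.det T = δ ∧ ∃ z : ℂ, T = z • R}.Finite := by
      intro R hR
      refine ((finite_pow_eq hd (δ / LinearMap.det R)).image fun z => z • R).subset ?_
      rintro T ⟨hT, z, rfl⟩
      refine ⟨z, ?_, rfl⟩
      rw [LinearMap.det_smul] at hT
      exact (eq_div_iff (hdet R hR)).2 hT
    refine (hJ.biUnion h1).subset ?_
    rintro T ⟨hT, R, hR, z, hz⟩
    exact Set.mem_biUnion hR ⟨hT, z, hz⟩

theorem det_ne_zero [FiniteDimensional ℂ V] (ρ : G →* End ℂ V) (g : G) :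
    LinearMap.det (ρ g) ≠ 0 := by
  intro h
  have h1 : LinearMap.det (ρ g * ρ g⁻¹) = 1 := by
    rw [← map_mul, mul_inv_cancel, map_one, map_one]
  rw [map_mul, h, zero_mul] at h1
  exact zero_ne_one h1

/-- **Lemma 2.** `A` irreducible, `[A, B]` projectively finite: `B` is projectively finite. -/
theorem projFinite_of_comm [FiniteDimensional ℂ V] (ρ : G →* End ℂ V) (A B C : Subgroup G)
    (hA : IrrOn ρ A) (hC : ∀ a ∈ A, ∀ b ∈ B, b * a * b⁻¹ * a⁻¹ ∈ C)
    (hfin : (scal ρ).relIndex C ≠ 0) : (scal ρ).relIndex B ≠ 0 := by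
  classical
  have hfg : (Submodule.span ℂ (ρ '' (A : Set G))).FG := IsNoetherian.noetherian _
  obtain ⟨S, hS, hspan⟩ := (Submodule.fg_span_iff_fg_span_finset_subset _).1 hfg
  obtain ⟨J, hJ, hJC, hrep⟩ := exists_reps (scal ρ) C hfin
  refine relIndex_ne_zero_of_finite (scal ρ) B (fun b => fun s : S => ρ b * s.1 * ρ b⁻¹) ?_ ?_
  · -- finiteness of the values
    have h1 : ∀ s : S, {T : End ℂ V | ∃ b ∈ B, T = ρ b * s.1 * ρ b⁻¹}.Finite := by
      intro s
      obtain ⟨a, ha, has⟩ := hS s.2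
      refine (finite_lines ((hJ.image fun j => ρ j * ρ a)) ?_ (LinearMap.det (ρ a))).subset ?_
      · rintro _ ⟨j, -, rfl⟩
        simp only [← map_mul ρ]
        exact det_ne_zero ρ _
      · rintro _ ⟨b, hb, rfl⟩
        rw [← has]
        refine ⟨?_, ?_⟩
        · have h2 : LinearMap.det (ρ b) * LinearMap.det (ρ b⁻¹) = 1 := by
            rw [← map_mul, ← map_mul, mul_inv_cancel, map_one, map_one]
          rw [map_mul, map_mul]
          linear_combination LinearMap.det (ρ a) * h2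
        · obtain ⟨j, hj, z, hz, hc⟩ := hrep _ (hC a ha b hb)
          obtain ⟨ζ, hζ⟩ := mem_scal.1 hz
          refine ⟨_, ⟨j, hj, rfl⟩, ζ, ?_⟩
          have h3 : b * a * b⁻¹ = j * z * a := by
            rw [← hc]
            group
          rw [← map_mul, ← map_mul, h3, map_mul, map_mul, hζ, mul_smul_comm, mul_one,
            smul_mul_assoc]
    refine (Set.Finite.pi' h1).subset ?_
    rintro _ ⟨b, hb, rfl⟩ s
    exact ⟨b, hb, rfl⟩
  · intro a _ b _ hab
    rw [mem_scal]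
    refine schur hA _ fun x hx => ?_
    have h1 : ∀ T ∈ Submodule.span ℂ (ρ '' (A : Set G)), ρ (a⁻¹ * b) * T = T * ρ (a⁻¹ * b) := by
      intro T hT
      rw [hspan] at hT
      induction hT using Submodule.span_induction with
      | mem T hT =>
        have h2 : ρ a * T * ρ a⁻¹ = ρ b * T * ρ b⁻¹ := congrFun hab ⟨T, hT⟩
        have h3 : ρ a⁻¹ * ρ a = 1 := by rw [← map_mul, inv_mul_cancel, map_one]
        have h4 : ρ b⁻¹ * ρ b = 1 := by rw [← map_mul, inv_mul_cancel, map_one]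
        rw [map_mul]
        calc ρ a⁻¹ * ρ b * T = ρ a⁻¹ * (ρ b * T * (ρ b⁻¹ * ρ b)) := by
              rw [h4, mul_one, mul_assoc]
          _ = ρ a⁻¹ * (ρ b * T * ρ b⁻¹) * ρ b := by simp only [mul_assoc]
          _ = ρ a⁻¹ * (ρ a * T * ρ a⁻¹) * ρ b := by rw [h2]
          _ = (ρ a⁻¹ * ρ a) * T * (ρ a⁻¹ * ρ b) := by simp only [mul_assoc]
          _ = T * (ρ a⁻¹ * ρ b) := by rw [h3, one_mul]
      | zero => simp
      | add x y _ _ hx hy => rw [mul_add, add_mul, hx, hy]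
      | smul c x _ hx => rw [mul_smul_comm, smul_mul_assoc, hx]
    exact h1 _ (Submodule.subset_span ⟨x, hx, rfl⟩)

end scal

end Vale.Agent.P002.H627
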