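import Vale.Agent.P002.H627.PA3
import Vale.Agent.P002.H2.Clos
import Vale.Agent.P002.H377.Tw

/-!
# P002, Theorem T: preparations for the structure theorem
-/

namespace Vale.Agent.P002.H627

open Module Matrix Kronecker Vale.Agent.P002.H2

section gen

variable {F : Type} [Group F]

/-- commutators of commuting operators -/
theorem comm_eq_one {M : Type*} [Monoid M] {A D D' : Subgroup F} {ρ : F → M} (hρ : MulOn A ρ)
    (hD : D ≤ A) (hD' : D' ≤ A) (hc : ∀ a ∈ D, ∀ b ∈ D', ρ a * ρ b = ρ b * ρ a) :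
    ∀ x ∈ ⁅D, D'⁆, ρ x = 1 := by
  have h1 : ⁅D, D'⁆ ≤ (hom hρ).ker.map A.subtype := by
    rw [Subgroup.commutator_le]
    intro a ha b hb
    refine ⟨⟨a, hD ha⟩ * ⟨b, hD' hb⟩ * ⟨a, hD ha⟩⁻¹ * ⟨b, hD' hb⟩⁻¹, ?_, rfl⟩
    change hom hρ _ = 1
    have h2 : hom hρ ⟨a, hD ha⟩ * hom hρ ⟨b, hD' hb⟩ = hom hρ ⟨b, hD' hb⟩ * hom hρ ⟨a, hD ha⟩ :=
      hc a ha b hb
    rw [map_mul, map_mul, map_mul, h2, mul_assoc (hom hρ ⟨b, hD' hb⟩), ← map_mul (hom hρ) ⟨a, _⟩,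
      mul_inv_cancel, map_one, mul_one, ← map_mul, mul_inv_cancel, map_one]
  intro x hx
  obtain ⟨y, hy, rfl⟩ := h1 hx
  exact MonoidHom.mem_ker.1 hy

theorem mulOn_inv_mul {M : Type*} [Monoid M] {H : Subgroup F} {ρ : F → M} (hρ : MulOn H ρ) {x : F}
    (hx : x ∈ H) : ρ x⁻¹ * ρ x = 1 := by
  rw [← hρ.mul _ (H.inv_mem hx) _ hx, inv_mul_cancel, hρ.one]

theorem mulOn_mul_inv {M : Type*} [Monoid M] {H : Subgroup F} {ρ : F → M} (hρ : MulOn H ρ) {x : F}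
    (hx : x ∈ H) : ρ x * ρ x⁻¹ = 1 := by
  rw [← hρ.mul _ hx _ (H.inv_mem hx), mul_inv_cancel, hρ.one]

variable {V V₁ : Type} [AddCommGroup V] [Module ℂ V] [AddCommGroup V₁] [Module ℂ V₁]

theorem scal_comm {T T' : Module.End ℂ V} (h : ∃ c : ℂ, T = c • (1 : Module.End ℂ V)) :
    T * T' = T' * T := by
  obtain ⟨c, rfl⟩ := h
  rw [smul_mul_assoc, mul_smul_comm, one_mul, mul_one]

/-- virtual solvability modulo scalars -/
theorem vs_of_scal {A : Subgroup F} {ρ : F → Module.End ℂ V} {ρ₁ : F → Module.End ℂ V₁}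
    (h : VS A ρ) (hm : MulOn A ρ₁)
    (hi : ∀ x ∈ A, ρ x = 1 → ∃ c : ℂ, ρ₁ x = c • (1 : Module.End ℂ V₁)) : VS A ρ₁ := by
  obtain ⟨B, hB, hBi, k, hk⟩ := h
  refine ⟨B, hB, hBi, k + 1, comm_eq_one hm ((dser_le B k).trans hB) ((dser_le B k).trans hB) ?_⟩
  intro a ha b _
  exact scal_comm (hi a (hB (dser_le B k ha)) (hk a ha))

theorem vs_of_projFin {A : Subgroup F} {ρ : F → Module.End ℂ V} (hρ : MulOn A ρ)
    (h : ProjFin A ρ) : VS A ρ := by
  obtain ⟨B, hB, hBi, hs⟩ := h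
  exact ⟨B, hB, hBi, 1, comm_eq_one hρ hB hB fun a ha b _ => scal_comm (hs a ha)⟩

theorem ProjFin.mono {A A' : Subgroup F} {ρ : F → Module.End ℂ V} (h : ProjFin A ρ)
    (hA : A' ≤ A) : ProjFin A' ρ := by
  obtain ⟨B, hB, hBi, hs⟩ := h
  exact ⟨B ⊓ A', inf_le_right, relIndex_of_le hA hBi, fun x hx => hs x hx.1⟩

theorem ProjFin.of_fi {A A' : Subgroup F} {ρ : F → Module.End ℂ V} (h : ProjFin A' ρ)
    (hA : A' ≤ A) (hi : A'.relIndex A ≠ 0) : ProjFin A ρ := by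
  obtain ⟨B, hB, hBi, hs⟩ := h
  exact ⟨B, hB.trans hA, Subgroup.relIndex_ne_zero_trans hBi hi, hs⟩

theorem ProjFin.of_scal {A : Subgroup F} {ρ : F → Module.End ℂ V} (h : Scal A ρ) : ProjFin A ρ :=
  ⟨A, le_rfl, by rw [Subgroup.relIndex_self]; exact one_ne_zero, h⟩

/-- the translates of a nonzero subspace span -/
theorem sup_eq_top {H : Subgroup F} {ρ : F → Module.End ℂ V} (hρ : MulOn H ρ) (hirr : Irr H ρ)
    {U : Submodule ℂ V} (hU : U ≠ ⊥) : (⨆ x ∈ H, U.map (ρ x)) = ⊤ := by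
  refine (hirr.2 (⨆ x ∈ H, U.map (ρ x)) fun y hy v hv => ?_).resolve_left fun h => hU ?_
  · have h1 : (⨆ x ∈ H, U.map (ρ x)).map (ρ y) ≤ ⨆ x ∈ H, U.map (ρ x) := by
      simp only [Submodule.map_iSup]
      refine iSup₂_le fun x hx => ?_
      have h2 : (U.map (ρ x)).map (ρ y) = U.map (ρ (y * x)) := by
        rw [← Submodule.map_comp, hρ.mul y hy x hx]
        rfl
      rw [h2]
      exact le_iSup₂ (f := fun x (_ : x ∈ H) => U.map (ρ x)) (y * x) (H.mul_mem hy hx)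
    exact h1 (Submodule.mem_map_of_mem hv)
  · rw [eq_bot_iff]
    intro u hu
    have h1 : U.map (ρ 1) ≤ ⨆ x ∈ H, U.map (ρ x) :=
      le_iSup₂ (f := fun x (_ : x ∈ H) => U.map (ρ x)) 1 H.one_mem
    rw [h] at h1
    have h2 := h1 (Submodule.mem_map_of_mem hu)
    rwa [hρ.one] at h2

end gen

section

variable {F : Type} [Group F] {I : Type} [MulAction F I]
variable {V V₁ : Type} [AddCommGroup V] [Module ℂ V] [AddCommGroup V₁] [Module ℂ V₁]

/-- transfer of admissibility -/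
theorem adm_of_dom {C : Ctx F I} {N₀ : ℕ} {H H' : Subgroup F} {ρ : F → Module.End ℂ V}
    {ρ₁ : F → Module.End ℂ V₁} (h : Adm C N₀ H ρ) (hH : H' ≤ H) (hfi : H'.relIndex H ≠ 0)
    (hZ : C.Z ≤ H') (hm : MulOn H' ρ₁) (hi : Irr H' ρ₁)
    (hs : ∀ x ∈ H', (∃ c : ℂ, ρ x = c • (1 : Module.End ℂ V)) →
      ∃ c : ℂ, ρ₁ x = c • (1 : Module.End ℂ V₁))
    (he : ∀ x ∈ H', ∀ a a', (ρ₁ x).HasEigenvalue a → (ρ₁ x).HasEigenvalue a' →
      ∃ b : ℂ, b ≠ 0 ∧ (ρ x).HasEigenvalue (b * a) ∧ (ρ x).HasEigenvalue (b * a')) :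
    Adm C N₀ H' ρ₁ where
  mul := hm
  irr := hi
  zle := hZ
  fi := by
    rw [← Subgroup.relIndex_mul_index hH]
    exact mul_ne_zero hfi h.fi
  zscal x hx := hs x (hZ hx) (h.zscal x hx)
  eig y hy hyH a a' ha ha' := by
    obtain ⟨b, hb, h1, h2⟩ := he y hyH a a' ha ha'
    have h3 := h.eig y hy (hH hyH) _ _ h1 h2
    rw [mul_pow, mul_pow] at h3
    exact mul_left_cancel₀ (pow_ne_zero _ hb) h3
  vs := vs_of_scal (h.vs.mono (inf_le_inf_left _ hH)) (MulOn.mono hm inf_le_right)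
    fun x hx h1 => hs x hx.2 ⟨1, by rw [h1, one_smul]⟩

/-- virtual solvability: the base case -/
theorem exists_sl [IsFreeGroup F] {n : Type} [Fintype n] [DecidableEq n] [Nonempty n]
    {H : Subgroup F} {α : F → (Matrix n n ℂ)ˣ} (hα : MulOn H α) :
    ∃ (χ : F → ℂˣ) (σ : F → SpecialLinearGroup n ℂ), MulOn H χ ∧ MulOn H σ ∧
      ∀ x ∈ H, (α x).1 = (χ x : ℂ) • (σ x).1 := by
  classical
  have hdet : ∀ A : (Matrix n n ℂ)ˣ, ∃ c : ℂˣ, (c : ℂ) ^ Fintype.card n = A.1.det := by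
    intro A
    have h1 : A.1.det ≠ 0 := ((Matrix.isUnit_iff_isUnit_det _).1 A.isUnit).ne_zero
    obtain ⟨c, hc⟩ := IsAlgClosed.exists_pow_nat_eq A.1.det (Fintype.card_pos (α := n))
    have h2 : c ≠ 0 := by
      rintro rfl
      rw [zero_pow (Fintype.card_ne_zero (α := n))] at hc
      exact h1 hc.symm
    exact ⟨Units.mk0 c h2, hc⟩
  choose c hc using hdet
  let s : (Matrix n n ℂ)ˣ → SpecialLinearGroup n ℂ := fun A =>
    ⟨((c A)⁻¹ : ℂˣ).1 • A.1, by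
      rw [Matrix.det_smul, ← hc A, ← mul_pow, ← Units.val_mul, inv_mul_cancel, Units.val_one,
        one_pow]⟩
  have hs : ∀ A, A.1 = ((c A : ℂˣ) : ℂ) • (s A).1 := by
    intro A
    change A.1 = ((c A : ℂˣ) : ℂ) • (((c A)⁻¹ : ℂˣ).1 • A.1)
    rw [smul_smul, ← Units.val_mul, mul_inv_cancel, Units.val_one, one_smul]
  let f : IsFreeGroup.Generators H → (Matrix n n ℂ)ˣ := fun i => hom hα (IsFreeGroup.of i)
  let χ : H →* ℂˣ := IsFreeGroup.lift fun i => c (f i)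
  let σ : H →* SpecialLinearGroup n ℂ := IsFreeGroup.lift fun i => s (f i)
  let g : H →* (Matrix n n ℂ)ˣ :=
    { toFun := fun x => ⟨(χ x : ℂ) • (σ x).1, ((χ x)⁻¹ : ℂˣ).1 • ((σ x)⁻¹).1, by
        rw [smul_mul_smul_comm, ← Units.val_mul, mul_inv_cancel, Units.val_one, one_smul]
        exact congrArg Subtype.val (mul_inv_cancel (σ x)), by
        rw [smul_mul_smul_comm, ← Units.val_mul, inv_mul_cancel, Units.val_one, one_smul]
        exact congrArg Subtype.val (inv_mul_cancel (σ x))⟩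
      map_one' := by
        apply Units.ext
        change (χ 1 : ℂ) • (σ 1).1 = 1
        rw [map_one, map_one, Units.val_one, one_smul]
        rfl
      map_mul' := fun x y => by
        apply Units.ext
        change (χ (x * y) : ℂ) • (σ (x * y)).1 = ((χ x : ℂ) • (σ x).1) * ((χ y : ℂ) • (σ y).1)
        rw [map_mul, map_mul, smul_mul_smul_comm, Units.val_mul]
        rfl }
  have hg : hom hα = g := IsFreeGroup.ext_hom fun i => by
    apply Units.ext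
    change (f i).1 = (χ (IsFreeGroup.of i) : ℂ) • (σ (IsFreeGroup.of i)).1
    rw [IsFreeGroup.lift_of, IsFreeGroup.lift_of]
    exact hs _
  refine ⟨ext1 χ, ext1 σ, ext1_mulOn χ, ext1_mulOn σ, fun x hx => ?_⟩
  rw [ext1_apply χ hx, ext1_apply σ hx]
  exact congrArg Units.val (DFunLike.congr_fun hg ⟨x, hx⟩)

/-- the matrices of a representation -/
theorem exists_mat [FiniteDimensional ℂ V] {H : Subgroup F} {ρ : F → Module.End ℂ V}
    (hρ : MulOn H ρ) : ∃ (e : (Fin (finrank ℂ V) → ℂ) ≃ₗ[ℂ] V)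
      (α : F → (Matrix (Fin (finrank ℂ V)) (Fin (finrank ℂ V)) ℂ)ˣ), MulOn H α ∧
      ∀ x ∈ H, ∀ v, ρ x (e v) = e ((α x).1 *ᵥ v) := by
  let b := Module.finBasis ℂ V
  let f : H →* Matrix (Fin (finrank ℂ V)) (Fin (finrank ℂ V)) ℂ :=
    (LinearMap.toMatrixAlgEquiv b : _ →* _).comp (hom hρ)
  refine ⟨b.equivFun.symm, ext1 f.toHomUnits, ext1_mulOn _, fun x hx v => ?_⟩
  rw [ext1_apply _ hx, MonoidHom.coe_toHomUnits]
  have h1 := LinearMap.toMatrix_mulVec_repr b b (ρ x) (b.equivFun.symm v)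
  have h2 : (b.repr (b.equivFun.symm v) : Fin (finrank ℂ V) → ℂ) = v :=
    b.equivFun.apply_symm_apply v
  rw [h2] at h1
  have h3 : f ⟨x, hx⟩ *ᵥ v = b.equivFun (ρ x (b.equivFun.symm v)) := h1
  rw [h3, LinearEquiv.symm_apply_apply]

/-- the representation `ρ` is `χ ⊗ σ` -/
structure Sim (H : Subgroup F) (ρ : F → Module.End ℂ V) {n : Type} [Fintype n] [DecidableEq n]
    (e : (n → ℂ) ≃ₗ[ℂ] V) (χ : F → ℂˣ) (σ : F → SpecialLinearGroup n ℂ) : Prop where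
  mχ : MulOn H χ
  mσ : MulOn H σ
  eq : ∀ x ∈ H, ∀ v, ρ x (e v) = (χ x : ℂ) • e ((σ x).1 *ᵥ v)

theorem exists_sim [IsFreeGroup F] [FiniteDimensional ℂ V] [Nontrivial V] {H : Subgroup F}
    {ρ : F → Module.End ℂ V} (hρ : MulOn H ρ) :
    ∃ (e : (Fin (finrank ℂ V) → ℂ) ≃ₗ[ℂ] V) (χ : F → ℂˣ)
      (σ : F → SpecialLinearGroup (Fin (finrank ℂ V)) ℂ), Sim H ρ e χ σ := by
  obtain ⟨e, α, hα, h⟩ := exists_mat hρ
  have : Nonempty (Fin (finrank ℂ V)) := ⟨⟨0, finrank_pos⟩⟩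
  obtain ⟨χ, σ, hχ, hσ, h1⟩ := exists_sl hα
  refine ⟨e, χ, σ, hχ, hσ, fun x hx v => ?_⟩
  rw [h x hx v, h1 x hx, Matrix.smul_mulVec, map_smul]

variable {n : Type} [Fintype n] [DecidableEq n]

theorem Sim.lin_apply {H : Subgroup F} {ρ : F → Module.End ℂ V} {e : (n → ℂ) ≃ₗ[ℂ] V}
    {χ : F → ℂˣ} {σ : F → SpecialLinearGroup n ℂ} (h : Sim H ρ e χ σ) {x : F} (hx : x ∈ H)
    (v : n → ℂ) : e (lin σ x v) = ((χ x)⁻¹ : ℂˣ).1 • ρ x (e v) := by
  rw [h.eq x hx, smul_smul, ← Units.val_mul, inv_mul_cancel, Units.val_one, one_smul]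
  rfl

theorem lin_mulOn {H : Subgroup F} {σ : F → SpecialLinearGroup n ℂ} (h : MulOn H σ) :
    MulOn H (lin σ) where
  one := by
    change Matrix.toLin' (σ 1).1 = 1
    rw [h.one]
    exact Matrix.toLin'_one
  mul x hx y hy := by
    change Matrix.toLin' (σ (x * y)).1 = Matrix.toLin' (σ x).1 * Matrix.toLin' (σ y).1
    rw [h.mul x hx y hy]
    exact Matrix.toLin'_mul _ _

theorem Sim.adm {C : Ctx F I} {N₀ : ℕ} {H : Subgroup F} {ρ : F → Module.End ℂ V}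
    {e : (n → ℂ) ≃ₗ[ℂ] V} {χ : F → ℂˣ} {σ : F → SpecialLinearGroup n ℂ} (h : Sim H ρ e χ σ)
    (hA : Adm C N₀ H ρ) : Adm C N₀ H (lin σ) := by
  have hV : Nontrivial V := hA.irr.1
  have hn : Nontrivial (n → ℂ) := e.toEquiv.nontrivial
  refine adm_of_dom hA le_rfl (by rw [Subgroup.relIndex_self]; exact one_ne_zero) hA.zle
    (lin_mulOn h.mσ) ⟨hn, fun W hW => ?_⟩ ?_ ?_
  · have h1 := hA.irr.2 (W.map e.toLinearMap) (by
      rintro x hx _ ⟨w, hw, rfl⟩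
      change ρ x (e w) ∈ W.map e.toLinearMap
      rw [h.eq x hx]
      exact Submodule.smul_mem _ _ ⟨_, hW x hx w hw, rfl⟩)
    rcases h1 with h1 | h1
    · exact Or.inl (eq_bot_of_map e.injective h1)
    · right
      rw [eq_top_iff]
      intro v _
      have h2 : e v ∈ W.map e.toLinearMap := by rw [h1]; trivial
      obtain ⟨w, hw, hwv⟩ := h2
      rwa [← e.injective hwv]
  · rintro x hx ⟨c, hc⟩
    refine ⟨((χ x)⁻¹ : ℂˣ).1 * c, LinearMap.ext fun v => e.injective ?_⟩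
    rw [h.lin_apply hx, hc, LinearMap.smul_apply, Module.End.one_apply, LinearMap.smul_apply,
      Module.End.one_apply, map_smul, smul_smul]
  · intro x hx a a' ha ha'
    have key : ∀ a, (lin σ x).HasEigenvalue a → (ρ x).HasEigenvalue ((χ x : ℂ) * a) := by
      intro a ha
      obtain ⟨v, hv⟩ := ha.exists_hasEigenvector
      refine Module.End.hasEigenvalue_of_hasEigenvector (x := e v)
        ⟨Module.End.mem_eigenspace_iff.2 ?_, fun h0 => hv.2 (e.map_eq_zero_iff.1 h0)⟩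
      have h1 : (σ x).1 *ᵥ v = a • v := hv.apply_eq_smul
      rw [h.eq x hx, h1, map_smul, smul_smul]
    exact ⟨χ x, (χ x).ne_zero, key a ha, key a' ha'⟩

/-- `Good` with `H' = H` -/
theorem good_of_sim {C : Ctx F I} {L : IntermediateField ℚ ℂ} {H : Subgroup F}
    {ρ : F → Module.End ℂ V} {m : ℕ} {e : (Fin m → ℂ) ≃ₗ[ℂ] V} {χ : F → ℂˣ}
    {σ : F → SpecialLinearGroup (Fin m) ℂ} (h : Sim H ρ e χ σ) (hρ : MulOn H ρ) (hZ : C.Z ≤ H)
    (hD : D C L H σ) : Good C L H ρ := by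
  refine ⟨H, m, e.toLinearMap, χ, σ, le_rfl, hZ, ?_, e.injective, h.mχ, h.mσ, hD, h.eq, ?_, ?_⟩
  · rw [Subgroup.relIndex_self]
    exact one_ne_zero
  · rw [eq_top_iff]
    have h1 : (LinearMap.range e.toLinearMap).map (ρ 1) = ⊤ := by
      rw [hρ.one, LinearEquiv.range]
      exact Submodule.map_id _
    rw [← h1]
    exact le_iSup₂ (f := fun x (_ : x ∈ H) => (LinearMap.range e.toLinearMap).map (ρ x)) 1 H.one_mem
  · rw [Subgroup.relIndex_self, one_mul, ← e.finrank_eq, Module.finrank_fin_fun]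

end

end Vale.Agent.P002.H627
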