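import Vale.Agent.P002.H627.S1

/-!
# P002, Theorem T: the structure theorem, primitive tensor indecomposable case
-/

namespace Vale.Agent.P002.H627

open Module Matrix Kronecker Vale.Agent.P002.H2

variable {F : Type} [Group F]
variable {V : Type} [AddCommGroup V] [Module ℂ V]

/-- normal subgroups act by scalars or irreducibly -/
def Dich (H : Subgroup F) (ρ : F → Module.End ℂ V) : Prop :=
  ∀ M ≤ H, (∀ x ∈ H, ∀ y ∈ M, x * y * x⁻¹ ∈ M) → Scal M ρ ∨ Irr M ρ

theorem projFin_chain [FiniteDimensional ℂ V] {J : Type*} [Finite J] {H : Subgroup F} {N : J → Subgroup F}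
    (hN : ∀ j, N j ≤ H) (hn : ∀ j, ∀ x ∈ H, ∀ y ∈ N j, x * y * x⁻¹ ∈ N j)
    {ρ : F → Module.End ℂ V} (hρ : MulOn H ρ) (hirr : ∀ j, Irr (N j) ρ)
    (hK : ProjFin ((⨅ j, N j) ⊓ H) ρ) : ProjFin H ρ := by
  classical
  have := Fintype.ofFinite J
  have key : ∀ s : Finset J, ProjFin ((⨅ j ∈ s, N j) ⊓ H) ρ → ProjFin H ρ := by
    intro s
    induction s using Finset.induction_on with
    | empty =>
      intro h
      simpa using h
    | insert j s hj ih =>
      intro h
      refine ih (PA3a H (N j) _ (hN j) inf_le_right ρ hρ (hn j) ?_ (hirr j) (h.mono ?_))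
      · intro x hx y hy
        rw [Subgroup.mem_inf] at hy ⊢
        refine ⟨?_, H.mul_mem (H.mul_mem hx hy.2) (H.inv_mem hx)⟩
        have h1 := hy.1
        simp only [Subgroup.mem_iInf] at h1 ⊢
        exact fun k hk => hn k x hx y (h1 k hk)
      · rw [Subgroup.commutator_le]
        intro a ha b hb
        rw [Subgroup.mem_inf] at hb ⊢
        have hb1 := hb.1
        simp only [Subgroup.mem_iInf] at hb1
        have haH := hN j ha
        refine ⟨?_, ?_⟩
        · simp only [Subgroup.mem_iInf, Finset.mem_insert]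
          rintro k (rfl | hk)
          · rw [commutatorElement_def, mul_assoc, mul_assoc, ← mul_assoc b]
            exact (N k).mul_mem ha (hn k b hb.2 _ ((N k).inv_mem ha))
          · rw [commutatorElement_def]
            exact (N k).mul_mem (hn k a haH b (hb1 k hk)) ((N k).inv_mem (hb1 k hk))
        · exact H.mul_mem (H.mul_mem (H.mul_mem haH hb.2) (H.inv_mem haH)) (H.inv_mem hb.2)
  refine key Finset.univ ?_
  simpa using hK

variable {I : Type} [MulAction F I]

theorem case_vs [IsFreeGroup F] [FiniteDimensional ℂ V] {C : Ctx F I} {L : IntermediateField ℚ ℂ} {N₀ B : ℕ}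
    (hvs : BaseVS C L N₀ B) {H : Subgroup F} {ρ : F → Module.End ℂ V} (h : Adm C N₀ H ρ)
    (hB : H.index * Module.finrank ℂ V ≤ B) (hv : VS H ρ) : Good C L H ρ := by
  have hV := h.irr.1
  obtain ⟨e, χ, σ, hS⟩ := exists_sim h.mul
  have hA := hS.adm h
  refine good_of_sim hS h.mul h.zle (hvs H _ σ hB hS.mσ hA ?_)
  have h1 : VS H (lin σ) := vs_of_scal hv hA.mul fun x hx h1 => by
    refine ⟨((χ x)⁻¹ : ℂˣ).1, LinearMap.ext fun v => e.injective ?_⟩
    rw [hS.lin_apply hx, h1, Module.End.one_apply, LinearMap.smul_apply, Module.End.one_apply,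
      map_smul]
  exact h1.of_imp fun x _ h2 => by
    apply Subtype.ext
    exact Matrix.toLin'.injective (h2.trans Matrix.toLin'_one.symm)

theorem case_curve [IsFreeGroup F] [FiniteDimensional ℂ V] {C : Ctx F I} {L : IntermediateField ℚ ℂ} {N₀ B : ℕ}
    (hcu : BaseCurve C L N₀ B) {H : Subgroup F} {ρ : F → Module.End ℂ V} (h : Adm C N₀ H ρ)
    (hB : H.index * Module.finrank ℂ V ≤ B) (i : I) (hi : H ≤ MulAction.stabilizer F i)
    (hs : Scal (C.N i ⊓ H) ρ) : Good C L H ρ := by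
  have hV := h.irr.1
  obtain ⟨e, χ, σ, hS⟩ := exists_sim h.mul
  have hA := hS.adm h
  refine good_of_sim hS h.mul h.zle (hcu H _ σ i hB hi hS.mσ hA fun x hx => ?_)
  obtain ⟨c, hc⟩ := hs x hx
  refine ⟨((χ x)⁻¹ : ℂˣ).1 * c, LinearMap.ext fun v => e.injective ?_⟩
  rw [hS.lin_apply hx.2, hc, LinearMap.smul_apply, Module.End.one_apply, LinearMap.smul_apply,
    Module.End.one_apply, map_smul, smul_smul]

/-- intersection of the conjugates of `N i` -/
def NO (C : Ctx F I) (H : Subgroup F) (i : I) : Subgroup F := (⨅ x ∈ H, C.N (x • i)) ⊓ H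

theorem mem_NO {C : Ctx F I} {H : Subgroup F} {i : I} {y : F} :
    y ∈ NO C H i ↔ (∀ x ∈ H, y ∈ C.N (x • i)) ∧ y ∈ H := by
  simp only [NO, Subgroup.mem_inf, Subgroup.mem_iInf]

theorem NO_normal (C : Ctx F I) (H : Subgroup F) (i : I) :
    ∀ x ∈ H, ∀ y ∈ NO C H i, x * y * x⁻¹ ∈ NO C H i := by
  intro x hx y hy
  rw [mem_NO] at hy ⊢
  refine ⟨fun z hz => ?_, H.mul_mem (H.mul_mem hx hy.2) (H.inv_mem hx)⟩
  have h1 := C.hN x _ y (hy.1 (x⁻¹ * z) (H.mul_mem (H.inv_mem hx) hz))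
  rwa [smul_smul, mul_inv_cancel_left] at h1

theorem case_dich [IsFreeGroup F] [FiniteDimensional ℂ V] [Finite I] {C : Ctx F I} {L : IntermediateField ℚ ℂ} {N₀ B : ℕ}
    (hvs : BaseVS C L N₀ B) (hcu : BaseCurve C L N₀ B)
    {H : Subgroup F} {ρ : F → Module.End ℂ V} (h : Adm C N₀ H ρ)
    (hB : H.index * Module.finrank ℂ V ≤ B) (hd : Dich H ρ) :
    Good C L H ρ ∨ ∃ i, ¬ H ≤ MulAction.stabilizer F i ∧ Scal (NO C H i) ρ := by
  by_cases hall : ∀ i, Irr (NO C H i) ρ
  · left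
    refine case_vs hvs h hB ?_
    have hKn : ∀ x ∈ H, ∀ y ∈ C.K ⊓ H, x * y * x⁻¹ ∈ C.K ⊓ H := by
      intro x hx y hy
      rw [Subgroup.mem_inf] at hy ⊢
      obtain ⟨hy, hyH⟩ := hy
      refine ⟨?_, H.mul_mem (H.mul_mem hx hyH) (H.inv_mem hx)⟩
      simp only [Ctx.K, Subgroup.mem_iInf] at hy ⊢
      intro i
      have h1 := C.hN x (x⁻¹ • i) y (hy _)
      rwa [smul_smul, mul_inv_cancel, one_smul] at h1
    rcases hd (C.K ⊓ H) inf_le_right hKn with h1 | h1
    · refine vs_of_projFin h.mul (projFin_chain (N := fun i => NO C H i) (fun i => inf_le_right)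
        (fun i => NO_normal C H i) h.mul hall ((ProjFin.of_scal h1).mono ?_))
      intro x hx
      rw [Subgroup.mem_inf] at hx ⊢
      obtain ⟨hx, hxH⟩ := hx
      refine ⟨?_, hxH⟩
      simp only [Ctx.K, Subgroup.mem_iInf] at hx ⊢
      intro i
      have h2 := (mem_NO.1 (hx i)).1 1 H.one_mem
      rwa [one_smul] at h2
    · exact PA3b H _ inf_le_right ρ h.mul hKn h1 h.vs
  · push Not at hall
    obtain ⟨i, hi⟩ := hall
    have h1 : Scal (NO C H i) ρ := (hd _ inf_le_right (NO_normal C H i)).resolve_right hi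
    by_cases hst : H ≤ MulAction.stabilizer F i
    · left
      refine case_curve hcu h hB i hst fun x hx => h1 x ?_
      rw [mem_NO]
      refine ⟨fun y hy => ?_, hx.2⟩
      rw [MulAction.mem_stabilizer_iff.1 (hst hy)]
      exact hx.1
    · exact Or.inr ⟨i, hst, h1⟩

/-! ### The imprimitive case -/

theorem good_of_imprim [FiniteDimensional ℂ V] {C : Ctx F I} {L : IntermediateField ℚ ℂ} {H H' : Subgroup F}
    {ρ : F → Module.End ℂ V} (hρ : MulOn H ρ) (hirr : Irr H ρ) {W : Submodule ℂ V}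
    {ρW : F → Module.End ℂ W} (hH' : H' ≤ H) (hi : H'.relIndex H ≠ 0)
    (hW : ∀ x ∈ H', ∀ v : W, ((ρW x v : W) : V) = ρ x v)
    (hdim : Module.finrank ℂ V = H'.relIndex H * Module.finrank ℂ W) (h : Good C L H' ρW) :
    Good C L H ρ := by
  obtain ⟨H'', n, e, χ, σ, h1, h2, h3, h4, h5, h6, h7, h8, h9, h10⟩ := h
  have hV := hirr.1
  have hpos : 0 < finrank ℂ V := finrank_pos
  refine ⟨H'', n, W.subtype ∘ₗ e, χ, σ, h1.trans hH', h2, Subgroup.relIndex_ne_zero_trans h3 hi,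
    W.subtype_injective.comp h4, h5, h6, h7, fun x hx v => ?_, sup_eq_top hρ hirr ?_, ?_⟩
  · have h11 := h8 x hx v
    have h12 := hW x (h1 hx) (e v)
    rw [h11] at h12
    exact h12.symm
  · intro h0
    rw [LinearMap.range_eq_bot] at h0
    have hn : 0 < n := by
      rcases Nat.eq_zero_or_pos n with h | h
      · rw [h, mul_zero] at h10
        rw [h10, mul_zero] at hdim
        omega
      · exact h
    have h11 : (Pi.single (⟨0, hn⟩ : Fin n) (1 : ℂ)) = 0 :=
      (W.subtype_injective.comp h4) (by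
        change (W.subtype ∘ₗ e) _ = (W.subtype ∘ₗ e) _
        rw [h0]
        rfl)
    have h12 := congrFun h11 ⟨0, hn⟩
    rw [Pi.single_eq_same] at h12
    exact one_ne_zero h12
  · rw [hdim, h10, ← mul_assoc, mul_comm (H'.relIndex H), Subgroup.relIndex_mul_relIndex _ _ _ h1 hH']

theorem adm_of_imprim {C : Ctx F I} {N₀ : ℕ} {H H' : Subgroup F}
    {ρ : F → Module.End ℂ V} (h : Adm C N₀ H ρ) {W : Submodule ℂ V}
    {ρW : F → Module.End ℂ W} (hH' : H' ≤ H) (hi : H'.relIndex H ≠ 0)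
    (hmem : ∀ x ∈ H, (∀ v ∈ W, ρ x v ∈ W) → x ∈ H') (hm : MulOn H' ρW) (hirr : Irr H' ρW)
    (hW : ∀ x ∈ H', ∀ v : W, ((ρW x v : W) : V) = ρ x v) : Adm C N₀ H' ρW := by
  refine adm_of_dom h hH' hi (fun x hx => hmem x (h.zle hx) fun v hv => ?_) hm hirr ?_ ?_
  · obtain ⟨c, hc⟩ := h.zscal x hx
    rw [hc]
    exact W.smul_mem c hv
  · rintro x hx ⟨c, hc⟩
    refine ⟨c, LinearMap.ext fun v => Subtype.ext ?_⟩
    rw [hW x hx, hc]
    rfl
  · intro x hx a a' ha ha'
    have key : ∀ a, (ρW x).HasEigenvalue a → (ρ x).HasEigenvalue (1 * a) := by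
      intro a ha
      obtain ⟨v, hv⟩ := ha.exists_hasEigenvector
      refine Module.End.hasEigenvalue_of_hasEigenvector (x := (v : V))
        ⟨Module.End.mem_eigenspace_iff.2 ?_, fun h0 => hv.2 (Subtype.ext h0)⟩
      rw [← hW x hx, hv.apply_eq_smul, one_mul]
      rfl
    exact ⟨1, one_ne_zero, key a ha, key a' ha'⟩

end Vale.Agent.P002.H627
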