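import Vale.Agent.P002.H627.S2

/-!
# P002, Theorem T: the structure theorem, tensor products
-/

namespace Vale.Agent.P002.H627

open Module Matrix Kronecker Vale.Agent.P002.H2

section dim

variable {V : Type*} [AddCommGroup V] [Module ℂ V] [FiniteDimensional ℂ V]

theorem finrank_iSup_le {Ω : Type*} [Fintype Ω] (f : Ω → Submodule ℂ V) :
    finrank ℂ (⨆ c, f c : Submodule ℂ V) ≤ ∑ c, finrank ℂ (f c) := by
  classical
  have h : ∀ s : Finset Ω, finrank ℂ (⨆ c ∈ s, f c : Submodule ℂ V) ≤ ∑ c ∈ s, finrank ℂ (f c) := by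
    intro s
    induction s using Finset.induction_on with
    | empty => simp
    | insert c s hc ih =>
      rw [Finset.iSup_insert, Finset.sum_insert hc]
      exact (Submodule.finrank_add_le_finrank_add_finrank _ _).trans
        (Nat.add_le_add_left ih _)
  have h1 := h Finset.univ
  have h2 : (⨆ c ∈ (Finset.univ : Finset Ω), f c) = ⨆ c, f c :=
    iSup_congr fun c => iSup_pos (Finset.mem_univ c)
  rwa [h2] at h1

end dim

variable {F : Type} [Group F]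
variable {V : Type} [AddCommGroup V] [Module ℂ V]

theorem finrank_translates_le [FiniteDimensional ℂ V] {H H₁ : Subgroup F}
    {ρ : F → Module.End ℂ V} (hρ : MulOn H ρ) (hH : H₁ ≤ H) (hfi : H₁.relIndex H ≠ 0)
    (X : Submodule ℂ V) (hX : ∀ x ∈ H₁, ∀ v ∈ X, ρ x v ∈ X) :
    finrank ℂ (⨆ x ∈ H, X.map (ρ x) : Submodule ℂ V) ≤ H₁.relIndex H * finrank ℂ X := by
  obtain ⟨t, ht⟩ := H377.PC5a H H₁ hH hfi
  have h1 : (⨆ x ∈ H, X.map (ρ x)) ≤ ⨆ c, X.map (ρ (t c)) := by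
    refine iSup₂_le fun x hx => ?_
    obtain ⟨c, hc, -⟩ := ht.uniq x hx
    refine le_trans ?_ (le_iSup (fun c => X.map (ρ (t c))) c)
    rintro _ ⟨v, hv, rfl⟩
    refine ⟨ρ ((t c)⁻¹ * x) v, hX _ hc v hv, ?_⟩
    rw [← Module.End.mul_apply, ← hρ.mul _ (ht.mem c) _ (hH hc), mul_inv_cancel_left]
  refine (Submodule.finrank_mono h1).trans ((finrank_iSup_le _).trans ?_)
  calc ∑ c, finrank ℂ (X.map (ρ (t c))) ≤ ∑ _c : Fin (H₁.relIndex H), finrank ℂ X :=
        Finset.sum_le_sum fun c _ => Submodule.finrank_map_le _ _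
    _ = H₁.relIndex H * finrank ℂ X := by simp

variable {m k : Type} [Fintype m] [DecidableEq m] [Fintype k] [DecidableEq k]

/-- the linear maps of invertible matrices -/
def lu (α : F → (Matrix m m ℂ)ˣ) : F → Module.End ℂ (m → ℂ) := fun x => Matrix.toLin' (α x).1

theorem lu_apply (α : F → (Matrix m m ℂ)ˣ) (x : F) (v : m → ℂ) : lu α x v = (α x).1 *ᵥ v := rfl

theorem lu_mulOn {H : Subgroup F} {α : F → (Matrix m m ℂ)ˣ} (h : MulOn H α) :
    MulOn H (lu α) where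
  one := by
    change Matrix.toLin' (α 1).1 = 1
    rw [h.one]
    exact Matrix.toLin'_one
  mul x hx y hy := by
    change Matrix.toLin' (α (x * y)).1 = Matrix.toLin' (α x).1 * Matrix.toLin' (α y).1
    rw [h.mul x hx y hy]
    exact Matrix.toLin'_mul _ _

/-- pure tensors -/
def tp (u : m → ℂ) (w : k → ℂ) : m × k → ℂ := fun p => u p.1 * w p.2

theorem kron_mulVec {m' k' : Type} (A : Matrix m' m ℂ) (B : Matrix k' k ℂ) (u : m → ℂ)
    (w : k → ℂ) : (A ⊗ₖ B) *ᵥ tp u w = tp (A *ᵥ u) (B *ᵥ w) := by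
  funext p
  simp only [Matrix.mulVec, dotProduct, tp, kroneckerMap_apply, Fintype.sum_prod_type,
    Finset.sum_mul_sum]
  refine Finset.sum_congr rfl fun i _ => Finset.sum_congr rfl fun j _ => ?_
  ring

theorem tp_ne_zero {u : m → ℂ} {w : k → ℂ} (hu : u ≠ 0) (hw : w ≠ 0) : tp u w ≠ 0 := by
  obtain ⟨i, hi⟩ := Function.ne_iff.1 hu
  obtain ⟨j, hj⟩ := Function.ne_iff.1 hw
  intro h
  exact mul_ne_zero hi hj (congrFun h (i, j))

theorem scal_of_kron [Nonempty k] {A : Matrix m m ℂ} {B : Matrix k k ℂ} (hB : IsUnit B) {c : ℂ}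
    (h : A ⊗ₖ B = c • (1 : Matrix (m × k) (m × k) ℂ)) : ∃ c' : ℂ, A = c' • (1 : Matrix m m ℂ) := by
  have hB0 : B ≠ 0 := by
    rintro rfl
    exact not_isUnit_zero hB
  obtain ⟨j, l, hjl⟩ : ∃ j l, B j l ≠ 0 := by
    by_contra hcon
    push Not at hcon
    exact hB0 (Matrix.ext hcon)
  refine ⟨c * (1 : Matrix k k ℂ) j l / B j l, ?_⟩
  ext i i'
  have h1 := congrFun (congrFun h (i, j)) (i', l)
  rw [kroneckerMap_apply, Matrix.smul_apply, smul_eq_mul, Matrix.one_apply] at h1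
  rw [Matrix.smul_apply, smul_eq_mul, Matrix.one_apply, Matrix.one_apply, div_mul_eq_mul_div,
    eq_div_iff hjl, h1]
  by_cases h2 : i = i' <;> by_cases h3 : j = l <;> simp [h2, h3]

theorem scal_of_kron' [Nonempty m] {A : Matrix m m ℂ} {B : Matrix k k ℂ} (hA : IsUnit A) {c : ℂ}
    (h : A ⊗ₖ B = c • (1 : Matrix (m × k) (m × k) ℂ)) : ∃ c' : ℂ, B = c' • (1 : Matrix k k ℂ) := by
  refine scal_of_kron (A := B) (B := A) (c := c) hA ?_
  ext p q
  have h1 := congrFun (congrFun h (p.2, p.1)) (q.2, q.1)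
  rw [kroneckerMap_apply, Matrix.smul_apply, smul_eq_mul, Matrix.one_apply] at h1 ⊢
  rw [mul_comm, h1]
  by_cases h2 : p = q
  · subst h2
    simp
  · rw [if_neg h2, if_neg]
    intro h3
    rw [Prod.mk.injEq] at h3
    exact h2 (Prod.ext h3.2 h3.1)

/-- `ρ = α ⊗ β` on `H` -/
structure Tns (H : Subgroup F) (ρ : F → Module.End ℂ V) (e : (m × k → ℂ) ≃ₗ[ℂ] V)
    (α : F → (Matrix m m ℂ)ˣ) (β : F → (Matrix k k ℂ)ˣ) : Prop where
  mα : MulOn H α
  mβ : MulOn H β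
  eq : ∀ x ∈ H, ∀ v, ρ x (e v) = e (((α x).1 ⊗ₖ (β x).1) *ᵥ v)

section

variable {H : Subgroup F} {ρ : F → Module.End ℂ V} {e : (m × k → ℂ) ≃ₗ[ℂ] V}
    {α : F → (Matrix m m ℂ)ˣ} {β : F → (Matrix k k ℂ)ˣ}

theorem Tns.kron_eq (h : Tns H ρ e α β) {x : F} (hx : x ∈ H) {c : ℂ}
    (hc : ρ x = c • (1 : Module.End ℂ V)) :
    (α x).1 ⊗ₖ (β x).1 = c • (1 : Matrix (m × k) (m × k) ℂ) := by
  apply Matrix.toLin'.injective
  refine LinearMap.ext fun v => e.injective ?_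
  rw [Matrix.toLin'_apply, ← h.eq x hx, hc, LinearMap.smul_apply, Module.End.one_apply, map_smul,
    Matrix.toLin'_one, LinearMap.smul_apply, LinearMap.id_apply, map_smul]

theorem Tns.scalL (h : Tns H ρ e α β) [Nonempty k] {x : F} (hx : x ∈ H)
    (hc : ∃ c : ℂ, ρ x = c • (1 : Module.End ℂ V)) :
    ∃ c : ℂ, lu α x = c • (1 : Module.End ℂ (m → ℂ)) := by
  obtain ⟨c, hc⟩ := hc
  obtain ⟨c', hc'⟩ := scal_of_kron (β x).isUnit (h.kron_eq hx hc)
  refine ⟨c', ?_⟩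
  rw [lu, hc', map_smul, Matrix.toLin'_one]
  rfl

theorem Tns.scalR (h : Tns H ρ e α β) [Nonempty m] {x : F} (hx : x ∈ H)
    (hc : ∃ c : ℂ, ρ x = c • (1 : Module.End ℂ V)) :
    ∃ c : ℂ, lu β x = c • (1 : Module.End ℂ (k → ℂ)) := by
  obtain ⟨c, hc⟩ := hc
  obtain ⟨c', hc'⟩ := scal_of_kron' (α x).isUnit (h.kron_eq hx hc)
  refine ⟨c', ?_⟩
  rw [lu, hc', map_smul, Matrix.toLin'_one]
  rfl

theorem Tns.eigen (h : Tns H ρ e α β) {x : F} (hx : x ∈ H) {a b : ℂ}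
    (ha : (lu α x).HasEigenvalue a) (hb : (lu β x).HasEigenvalue b) :
    (ρ x).HasEigenvalue (a * b) := by
  obtain ⟨u, hu⟩ := ha.exists_hasEigenvector
  obtain ⟨w, hw⟩ := hb.exists_hasEigenvector
  have hu1 : (α x).1 *ᵥ u = a • u := hu.apply_eq_smul
  have hw1 : (β x).1 *ᵥ w = b • w := hw.apply_eq_smul
  refine Module.End.hasEigenvalue_of_hasEigenvector (x := e (tp u w))
    ⟨Module.End.mem_eigenspace_iff.2 ?_, fun h0 => tp_ne_zero hu.2 hw.2 (e.map_eq_zero_iff.1 h0)⟩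
  rw [h.eq x hx, kron_mulVec, hu1, hw1, ← map_smul]
  congr 1
  funext p
  simp only [tp, Pi.smul_apply, smul_eq_mul]
  ring

theorem lu_eigen [Nonempty k] (β : F → (Matrix k k ℂ)ˣ) (x : F) :
    ∃ b : ℂ, b ≠ 0 ∧ (lu β x).HasEigenvalue b := by
  obtain ⟨b, hb⟩ := Module.End.exists_eigenvalue (lu β x)
  refine ⟨b, ?_, hb⟩
  rintro rfl
  obtain ⟨w, hw⟩ := hb.exists_hasEigenvector
  have hw1 : (β x).1 *ᵥ w = (0 : ℂ) • w := hw.apply_eq_smul
  refine hw.2 ?_
  calc w = ((β x)⁻¹).1 *ᵥ ((β x).1 *ᵥ w) := by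
        rw [Matrix.mulVec_mulVec, Units.inv_mul, Matrix.one_mulVec]
    _ = 0 := by rw [hw1, zero_smul, Matrix.mulVec_zero]

variable {I : Type} [MulAction F I]

theorem Tns.adm_left (h : Tns H ρ e α β) [Nonempty k] {C : Ctx F I} {N₀ : ℕ}
    (hA : Adm C N₀ H ρ) {H' : Subgroup F} (hH : H' ≤ H) (hfi : H'.relIndex H ≠ 0)
    (hZ : C.Z ≤ H') (hi : Irr H' (lu α)) : Adm C N₀ H' (lu α) := by
  refine adm_of_dom hA hH hfi hZ (MulOn.mono (lu_mulOn h.mα) hH) hi
    (fun x hx => h.scalL (hH hx)) fun x hx a a' ha ha' => ?_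
  obtain ⟨b, hb, hb1⟩ := lu_eigen β x
  exact ⟨b, hb, mul_comm a b ▸ h.eigen (hH hx) ha hb1, mul_comm a' b ▸ h.eigen (hH hx) ha' hb1⟩

theorem Tns.adm_right (h : Tns H ρ e α β) [Nonempty m] {C : Ctx F I} {N₀ : ℕ}
    (hA : Adm C N₀ H ρ) {H' : Subgroup F} (hH : H' ≤ H) (hfi : H'.relIndex H ≠ 0)
    (hZ : C.Z ≤ H') (hi : Irr H' (lu β)) : Adm C N₀ H' (lu β) := by
  refine adm_of_dom hA hH hfi hZ (MulOn.mono (lu_mulOn h.mβ) hH) hi
    (fun x hx => h.scalR (hH hx)) fun x hx a a' ha ha' => ?_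
  obtain ⟨b, hb, hb1⟩ := lu_eigen α x
  exact ⟨b, hb, h.eigen (hH hx) hb1 ha, h.eigen (hH hx) hb1 ha'⟩

/-- the left factor is irreducible -/
theorem Tns.irr_left (h : Tns H ρ e α β) [Nonempty m] [Nonempty k] (hirr : Irr H ρ) :
    Irr H (lu α) := by
  refine ⟨inferInstance, fun U hU => ?_⟩
  let X : Submodule ℂ (m × k → ℂ) :=
    { carrier := {v | ∀ j, (fun i => v (i, j)) ∈ U}
      zero_mem' := fun j => U.zero_mem
      add_mem' := fun {v w} hv hw j => U.add_mem (hv j) (hw j)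
      smul_mem' := fun c v hv j => U.smul_mem c (hv j) }
  have hX := hirr.2 (X.map e.toLinearMap) (by
    rintro x hx _ ⟨v, hv, rfl⟩
    change ρ x (e v) ∈ X.map e.toLinearMap
    rw [h.eq x hx]
    refine ⟨_, ?_, rfl⟩
    have hv' : ∀ j, (fun i => v (i, j)) ∈ U := hv
    show ∀ j, (fun i => (((α x).1 ⊗ₖ (β x).1) *ᵥ v) (i, j)) ∈ U
    intro j
    have h1 : (fun i => (((α x).1 ⊗ₖ (β x).1) *ᵥ v) (i, j)) =
        ∑ l, (β x).1 j l • ((α x).1 *ᵥ fun i => v (i, l)) := by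
      funext i
      simp only [Matrix.mulVec, dotProduct, kroneckerMap_apply, Fintype.sum_prod_type,
        Finset.sum_apply, Pi.smul_apply, smul_eq_mul, Finset.mul_sum]
      rw [Finset.sum_comm]
      refine Finset.sum_congr rfl fun l _ => Finset.sum_congr rfl fun i' _ => ?_
      ring
    rw [h1]
    exact U.sum_mem fun l _ => U.smul_mem _ (hU x hx _ (hv' l)))
  obtain ⟨j₀⟩ := ‹Nonempty k›
  rcases hX with hX | hX
  · left
    rw [eq_bot_iff]
    intro u hu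
    have h1 : X = ⊥ := eq_bot_of_map e.injective hX
    have h2 : (fun p : m × k => u p.1) ∈ X := fun j => hu
    rw [h1, Submodule.mem_bot] at h2
    rw [Submodule.mem_bot]
    funext i
    exact congrFun h2 (i, j₀)
  · right
    rw [eq_top_iff]
    intro u _
    have h1 : e (fun p : m × k => u p.1) ∈ X.map e.toLinearMap := by rw [hX]; trivial
    obtain ⟨v, hv, hv1⟩ := h1
    have h2 := e.injective hv1
    subst h2
    exact hv j₀

/-- the right factor is irreducible on the subgroup from which the left factor is induced -/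
theorem Tns.irr_right (h : Tns H ρ e α β) [Nonempty m] [Nonempty k] (hρ : MulOn H ρ)
    (hirr : Irr H ρ) {H₁ : Subgroup F} {n₁ : ℕ} (e₁ : (Fin n₁ → ℂ) →ₗ[ℂ] (m → ℂ)) (χ₁ : F → ℂˣ)
    (σ₁ : F → SpecialLinearGroup (Fin n₁) ℂ) (hH : H₁ ≤ H) (hfi : H₁.relIndex H ≠ 0)
    (he₁ : Function.Injective e₁)
    (heq : ∀ x ∈ H₁, ∀ v, lu α x (e₁ v) = (χ₁ x : ℂ) • e₁ ((σ₁ x).1 *ᵥ v))
    (hdim : Module.finrank ℂ (m → ℂ) = H₁.relIndex H * n₁) : Irr H₁ (lu β) := by
  have hVfin : FiniteDimensional ℂ V := LinearEquiv.finiteDimensional e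
  refine ⟨inferInstance, fun U hU => ?_⟩
  by_cases hU0 : U = ⊥
  · exact Or.inl hU0
  right
  let f : (Fin n₁ → U) →ₗ[ℂ] (m × k → ℂ) :=
    { toFun := fun u p => ∑ j, e₁ (Pi.single j 1) p.1 * (u j : k → ℂ) p.2
      map_add' := fun u u' => by
        funext p
        simp only [Pi.add_apply, Submodule.coe_add, mul_add, Finset.sum_add_distrib]
      map_smul' := fun c u => by
        funext p
        simp only [Pi.smul_apply, Submodule.coe_smul, smul_eq_mul, RingHom.id_apply,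
          Finset.mul_sum]
        refine Finset.sum_congr rfl fun j _ => ?_
        ring }
  have hf : ∀ u, f u = ∑ j, tp (e₁ (Pi.single j 1)) (u j : k → ℂ) := by
    intro u
    funext p
    rw [Finset.sum_apply]
    rfl
  let X : Submodule ℂ V := (LinearMap.range f).map e.toLinearMap
  have hX : ∀ x ∈ H₁, ∀ v ∈ X, ρ x v ∈ X := by
    rintro x hx _ ⟨_, ⟨u, rfl⟩, rfl⟩
    change ρ x (e (f u)) ∈ X
    rw [h.eq x (hH hx)]
    refine ⟨_, ⟨fun i => ∑ j, ((χ₁ x : ℂ) * (σ₁ x).1 i j) •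
      (⟨(β x).1 *ᵥ (u j : k → ℂ), hU x hx _ (u j).2⟩ : U), ?_⟩, rfl⟩
    rw [hf, hf, Matrix.mulVec_sum]
    have h1 : ∀ j, ((α x).1 ⊗ₖ (β x).1) *ᵥ tp (e₁ (Pi.single j 1)) (u j : k → ℂ) =
        ∑ i, tp (e₁ (Pi.single i 1)) (((χ₁ x : ℂ) * (σ₁ x).1 i j) • ((β x).1 *ᵥ (u j : k → ℂ))) := by
      intro j
      rw [kron_mulVec]
      have h2 : (α x).1 *ᵥ e₁ (Pi.single j 1) =
          ∑ i, ((χ₁ x : ℂ) * (σ₁ x).1 i j) • e₁ (Pi.single i 1) := by
        have h3 := heq x hx (Pi.single j 1)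
        rw [lu_apply] at h3
        rw [h3, Matrix.mulVec_single_one]
        have h4 : (σ₁ x).1.col j = ∑ i, (σ₁ x).1 i j • (Pi.single i 1 : Fin n₁ → ℂ) := by
          rw [Matrix.col_def]
          exact pi_eq_sum_univ' _
        rw [h4, map_sum, Finset.smul_sum]
        refine Finset.sum_congr rfl fun i _ => ?_
        rw [map_smul, smul_smul]
      rw [h2]
      funext p
      simp only [tp, Finset.sum_apply, Pi.smul_apply, smul_eq_mul, Finset.sum_mul]
      refine Finset.sum_congr rfl fun i _ => ?_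
      ring
    rw [Finset.sum_congr rfl fun j _ => h1 j, Finset.sum_comm]
    refine Finset.sum_congr rfl fun i _ => ?_
    funext p
    simp only [tp, Finset.sum_apply, Submodule.coe_sum, Submodule.coe_smul, Finset.mul_sum]
  have hn₁ : 0 < n₁ := by
    rcases Nat.eq_zero_or_pos n₁ with h0 | h0
    · rw [h0, mul_zero] at hdim
      have : 0 < finrank ℂ (m → ℂ) := finrank_pos
      omega
    · exact h0
  have hX0 : X ≠ ⊥ := by
    intro h0
    have h1 : LinearMap.range f = ⊥ := eq_bot_of_map e.injective h0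
    rw [LinearMap.range_eq_bot] at h1
    obtain ⟨u, hu, hu0⟩ := (Submodule.ne_bot_iff U).1 hU0
    have h2 : f (Pi.single ⟨0, hn₁⟩ ⟨u, hu⟩) = tp (e₁ (Pi.single ⟨0, hn₁⟩ 1)) u := by
      rw [hf, Finset.sum_eq_single ⟨0, hn₁⟩]
      · rw [Pi.single_eq_same]
      · intro j _ hj
        rw [Pi.single_eq_of_ne hj]
        funext p
        simp [tp]
      · intro h3
        exact absurd (Finset.mem_univ _) h3
    rw [h1] at h2
    refine tp_ne_zero (fun h3 => ?_) hu0 h2.symm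
    have h4 := he₁ (h3.trans (map_zero e₁).symm)
    have h5 := congrFun h4 ⟨0, hn₁⟩
    rw [Pi.single_eq_same] at h5
    exact one_ne_zero h5
  have h1 := finrank_translates_le hρ hH hfi X hX
  rw [sup_eq_top hρ hirr hX0, finrank_top] at h1
  have h2 : finrank ℂ X ≤ n₁ * finrank ℂ U := by
    refine (Submodule.finrank_map_le _ _).trans ((LinearMap.finrank_range_le f).trans ?_)
    rw [Module.finrank_pi_fintype]
    simp
  have h3 : finrank ℂ V = finrank ℂ (m → ℂ) * finrank ℂ (k → ℂ) := by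
    rw [← e.finrank_eq, Module.finrank_fintype_fun_eq_card, Module.finrank_fintype_fun_eq_card,
      Module.finrank_fintype_fun_eq_card, Fintype.card_prod]
  have h4 : finrank ℂ (m → ℂ) * finrank ℂ (k → ℂ) ≤ finrank ℂ (m → ℂ) * finrank ℂ U := by
    rw [← h3]
    calc finrank ℂ V ≤ H₁.relIndex H * finrank ℂ X := h1
      _ ≤ H₁.relIndex H * (n₁ * finrank ℂ U) := Nat.mul_le_mul_left _ h2
      _ = finrank ℂ (m → ℂ) * finrank ℂ U := by rw [hdim, mul_assoc]
  have h5 : finrank ℂ (k → ℂ) ≤ finrank ℂ U :=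
    Nat.le_of_mul_le_mul_left h4 finrank_pos
  exact Submodule.eq_top_of_finrank_eq (le_antisymm (Submodule.finrank_le U) h5)

end

end Vale.Agent.P002.H627
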