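import Vale.Agent.P002.H627.S3

/-!
# P002, Theorem T: the structure theorem
-/

namespace Vale.Agent.P002.H627

open Module Matrix Kronecker Vale.Agent.P002.H2

variable {F : Type} [Group F]
variable {V : Type} [AddCommGroup V] [Module ℂ V]

theorem range_ne_bot [FiniteDimensional ℂ V] [Nontrivial V] {n r : ℕ} {f : (Fin n → ℂ) →ₗ[ℂ] V}
    (hf : Function.Injective f) (h : finrank ℂ V = r * n) : LinearMap.range f ≠ ⊥ := by
  intro h0
  rw [LinearMap.range_eq_bot] at h0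
  have hpos : 0 < finrank ℂ V := finrank_pos
  have hn : 0 < n := by
    rcases Nat.eq_zero_or_pos n with h1 | h1
    · rw [h1, mul_zero] at h
      omega
    · exact h1
  have h1 : (Pi.single (⟨0, hn⟩ : Fin n) (1 : ℂ)) = 0 := hf (by rw [h0]; rfl)
  have h2 := congrFun h1 ⟨0, hn⟩
  rw [Pi.single_eq_same] at h2
  exact one_ne_zero h2

theorem toMatrix'_rel {n n' : Type} [Fintype n] [DecidableEq n] [Fintype n'] [DecidableEq n']
    {A : Matrix n n ℂ} {S : Matrix n' n' ℂ} {f : (n' → ℂ) →ₗ[ℂ] (n → ℂ)} {c : ℂ}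
    (h : ∀ v, A *ᵥ f v = c • f (S *ᵥ v)) :
    A * LinearMap.toMatrix' f = c • (LinearMap.toMatrix' f * S) := by
  apply Matrix.toLin'.injective
  refine LinearMap.ext fun v => ?_
  rw [Matrix.toLin'_apply, Matrix.toLin'_apply, ← Matrix.mulVec_mulVec, Matrix.smul_mulVec,
    ← Matrix.mulVec_mulVec, LinearMap.toMatrix'_mulVec, LinearMap.toMatrix'_mulVec]
  exact h v

variable {I : Type} [MulAction F I]

/-- the tensor product -/
theorem good_of_tns [FiniteDimensional ℂ V] {C : Ctx F I} {L : IntermediateField ℚ ℂ}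
    {H : Subgroup F} {ρ : F → Module.End ℂ V} {a b : ℕ} {e : (Fin a × Fin b → ℂ) ≃ₗ[ℂ] V}
    {α : F → (Matrix (Fin a) (Fin a) ℂ)ˣ} {β : F → (Matrix (Fin b) (Fin b) ℂ)ˣ}
    (h : Tns H ρ e α β) (hρ : MulOn H ρ) (hirr : Irr H ρ)
    {H₁ : Subgroup F} {n₁ : ℕ} {e₁ : (Fin n₁ → ℂ) →ₗ[ℂ] (Fin a → ℂ)} {χ₁ : F → ℂˣ}
    {σ₁ : F → SpecialLinearGroup (Fin n₁) ℂ} (hH : H₁ ≤ H) (hfi : H₁.relIndex H ≠ 0)
    (he₁ : Function.Injective e₁) (hχ₁ : MulOn H₁ χ₁) (hσ₁ : MulOn H₁ σ₁) (hD : D C L H₁ σ₁)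
    (heq : ∀ x ∈ H₁, ∀ v, lu α x (e₁ v) = (χ₁ x : ℂ) • e₁ ((σ₁ x).1 *ᵥ v))
    (hdim : Module.finrank ℂ (Fin a → ℂ) = H₁.relIndex H * n₁) (hg : Good C L H₁ (lu β)) :
    Good C L H ρ := by
  obtain ⟨H₂, n₂, e₂, χ₂, σ₂, hH₂, hZ₂, hfi₂, he₂, hχ₂, hσ₂, hD₂, heq₂, -, hdim₂⟩ := hg
  have hVn := hirr.1
  let ε : Fin n₁ × Fin n₂ ≃ Fin (n₁ * n₂) := finProdFinEquiv
  let E₁ := LinearMap.toMatrix' e₁
  let E₂ := LinearMap.toMatrix' e₂
  let f : (Fin (n₁ * n₂) → ℂ) →ₗ[ℂ] V :=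
    e.toLinearMap ∘ₗ Matrix.toLin' (E₁ ⊗ₖ E₂) ∘ₗ LinearMap.funLeft ℂ ℂ ε
  have hf : ∀ v, f v = e ((E₁ ⊗ₖ E₂) *ᵥ (v ∘ ε)) := fun v => rfl
  have hinj : Function.Injective f := by
    obtain ⟨g₁, hg₁⟩ := LinearMap.exists_leftInverse_of_injective e₁ (LinearMap.ker_eq_bot.2 he₁)
    obtain ⟨g₂, hg₂⟩ := LinearMap.exists_leftInverse_of_injective e₂ (LinearMap.ker_eq_bot.2 he₂)
    have h1 : LinearMap.toMatrix' g₁ * E₁ = 1 := by
      rw [← LinearMap.toMatrix'_comp, hg₁, LinearMap.toMatrix'_id]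
    have h2 : LinearMap.toMatrix' g₂ * E₂ = 1 := by
      rw [← LinearMap.toMatrix'_comp, hg₂, LinearMap.toMatrix'_id]
    intro v w hvw
    rw [hf, hf] at hvw
    have h3 := congrArg (fun u => (LinearMap.toMatrix' g₁ ⊗ₖ LinearMap.toMatrix' g₂) *ᵥ u)
      (e.injective hvw)
    simp only [Matrix.mulVec_mulVec, ← Matrix.mul_kronecker_mul, h1, h2,
      Matrix.one_kronecker_one, Matrix.one_mulVec] at h3
    funext i
    have h4 := congrFun h3 (ε.symm i)
    simpa using h4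
  have hdimV : finrank ℂ V = H₂.relIndex H * (n₁ * n₂) := by
    have h1 : finrank ℂ V = finrank ℂ (Fin a → ℂ) * finrank ℂ (Fin b → ℂ) := by
      rw [← e.finrank_eq, Module.finrank_fintype_fun_eq_card, Module.finrank_fintype_fun_eq_card,
        Module.finrank_fintype_fun_eq_card, Fintype.card_prod]
    rw [h1, hdim, hdim₂, ← Subgroup.relIndex_mul_relIndex _ _ _ hH₂ hH]
    ring
  refine ⟨H₂, n₁ * n₂, f, fun x => χ₁ x * χ₂ x, fun x => reidx ε (kron (σ₁ x) (σ₂ x)),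
    hH₂.trans hH, hZ₂, Subgroup.relIndex_ne_zero_trans hfi₂ hfi, hinj, ?_, ?_,
    ((hD.restrict hH₂).tensor hD₂).reidx ε, ?_, sup_eq_top hρ hirr (range_ne_bot hinj hdimV),
    hdimV⟩
  · refine ⟨by rw [hχ₁.one, hχ₂.one, one_mul], fun x hx y hy => ?_⟩
    rw [hχ₁.mul x (hH₂ hx) y (hH₂ hy), hχ₂.mul x hx y hy, mul_mul_mul_comm]
  · refine ⟨by rw [hσ₁.one, hσ₂.one, kron_one, reidx_one], fun x hx y hy => ?_⟩
    rw [hσ₁.mul x (hH₂ hx) y (hH₂ hy), hσ₂.mul x hx y hy, kron_mul, reidx_mul]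
  · intro x hx v
    rw [hf, h.eq x (hH (hH₂ hx)), Matrix.mulVec_mulVec, ← Matrix.mul_kronecker_mul,
      toMatrix'_rel (fun v => heq x (hH₂ hx) v), toMatrix'_rel (fun v => heq₂ x hx v),
      Matrix.smul_kronecker, Matrix.kronecker_smul, smul_smul, Matrix.mul_kronecker_mul,
      Matrix.smul_mulVec, ← Matrix.mulVec_mulVec, map_smul, hf, Units.val_mul]
    congr 3
    change _ = (((kron (σ₁ x) (σ₂ x)).1.submatrix ε.symm ε.symm) *ᵥ v) ∘ ε
    rw [Matrix.submatrix_mulVec_equiv]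
    funext p
    simp [kron_val]

/-- **The structure theorem**, up to the tensor induced case. -/
theorem struct [IsFreeGroup F] [Finite I] {C : Ctx F I} {L : IntermediateField ℚ ℂ} {N₀ B : ℕ}
    (hvs : BaseVS C L N₀ B) (hcu : BaseCurve C L N₀ B)
    (hti : ∀ (V : Type) [AddCommGroup V] [Module ℂ V] [FiniteDimensional ℂ V] (H : Subgroup F)
      (ρ : F → Module.End ℂ V) (i : I), Adm C N₀ H ρ → H.index * Module.finrank ℂ V ≤ B →
      Dich H ρ → ¬ H ≤ MulAction.stabilizer F i → Scal (NO C H i) ρ → Good C L H ρ)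
    (d : ℕ) : ∀ (V : Type) [AddCommGroup V] [Module ℂ V] [FiniteDimensional ℂ V] (H : Subgroup F)
      (ρ : F → Module.End ℂ V), Module.finrank ℂ V = d → Adm C N₀ H ρ →
      H.index * Module.finrank ℂ V ≤ B → Good C L H ρ := by
  induction d using Nat.strong_induction_on with
  | _ d ih =>
    intro V _ _ _ H ρ hd h hB
    have hVn := h.irr.1
    by_cases hD : Dich H ρ
    · rcases case_dich hvs hcu h hB hD with h1 | ⟨i, h1, h2⟩
      · exact h1
      · exact hti V H ρ i h hB hD h1 h2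
    · unfold Dich at hD
      push Not at hD
      obtain ⟨M, hMH, hM, hM1, hM2⟩ := hD
      rcases PA12 H M hMH hM ρ h.mul h.irr with h1 | h1 | h1 | h1
      · exact absurd h1 hM1
      · exact absurd h1 hM2
      · obtain ⟨H', W, ρW, hH', hi, hWt, hmem, hm, hirr, hW, -, hdim⟩ := h1
        have hA := adm_of_imprim h hH' hi hmem hm hirr hW
        refine good_of_imprim h.mul h.irr hH' hi hW hdim
          (ih (finrank ℂ W) ?_ W H' ρW rfl hA ?_)
        · rw [← hd]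
          exact Submodule.finrank_lt hWt
        · rw [← Subgroup.relIndex_mul_index hH', mul_comm (H'.relIndex H), mul_assoc, ← hdim]
          exact hB
      · obtain ⟨a, b, e, α, β, ha, hb, hα, hβ, heq⟩ := h1
        have hT : Tns H ρ e α β := ⟨hα, hβ, heq⟩
        have hna : Nonempty (Fin a) := ⟨⟨0, by omega⟩⟩
        have hnb : Nonempty (Fin b) := ⟨⟨0, by omega⟩⟩
        have hdim : finrank ℂ V = a * b := by
          rw [← e.finrank_eq, Module.finrank_fintype_fun_eq_card, Fintype.card_prod,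
            Fintype.card_fin, Fintype.card_fin]
        have h1 : H.relIndex H ≠ 0 := by
          rw [Subgroup.relIndex_self]
          exact one_ne_zero
        have hlt : a < d ∧ b < d := by
          rw [← hd, hdim]
          constructor <;> nlinarith
        have hga := ih a hlt.1 (Fin a → ℂ) H (lu α) (Module.finrank_fin_fun ℂ)
          (hT.adm_left h le_rfl h1 h.zle (hT.irr_left h.irr)) (by
            rw [Module.finrank_fin_fun]
            refine le_trans (Nat.mul_le_mul_left _ ?_) hB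
            omega)
        obtain ⟨H₁, n₁, e₁, χ₁, σ₁, hH₁, hZ₁, hfi₁, he₁, hχ₁, hσ₁, hD₁, heq₁, -, hdim₁⟩ := hga
        have hirr := hT.irr_right h.mul h.irr e₁ χ₁ σ₁ hH₁ hfi₁ he₁ heq₁ hdim₁
        refine good_of_tns hT h.mul h.irr hH₁ hfi₁ he₁ hχ₁ hσ₁ hD₁ heq₁ hdim₁
          (ih b hlt.2 (Fin b → ℂ) H₁ (lu β) (Module.finrank_fin_fun ℂ)
            (hT.adm_right h hH₁ hfi₁ hZ₁ hirr) ?_)
        rw [Module.finrank_fin_fun] at hdim₁ ⊢
        have hn₁ : 1 ≤ n₁ := by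
          rcases Nat.eq_zero_or_pos n₁ with h2 | h2
          · rw [h2, mul_zero] at hdim₁
            omega
          · exact h2
        calc H₁.index * b = H.index * (H₁.relIndex H * 1 * b) := by
              rw [← Subgroup.relIndex_mul_index hH₁]
              ring
          _ ≤ H.index * (H₁.relIndex H * n₁ * b) := by gcongr
          _ = H.index * finrank ℂ V := by rw [← hdim₁, hdim]
          _ ≤ B := hB

/-- PA4: structure theorem, trivial action. -/
theorem PA4 [IsFreeGroup F] [Finite I] (htriv : ∀ (x : F) (i : I), x • i = i) (C : Ctx F I)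
    (L : IntermediateField ℚ ℂ) (N₀ B : ℕ) (_hN₀ : 0 < N₀) (hvs : BaseVS C L N₀ B)
    (hcu : BaseCurve C L N₀ B)
    {V : Type} [AddCommGroup V] [Module ℂ V] [FiniteDimensional ℂ V]
    (H : Subgroup F) (ρ : F → Module.End ℂ V) (h : Adm C N₀ H ρ)
    (hB : H.index * Module.finrank ℂ V ≤ B) : Good C L H ρ :=
  struct hvs hcu (fun _ _ _ _ _ _ i _ _ _ h1 _ => absurd
    (fun x _ => MulAction.mem_stabilizer_iff.2 (htriv x i)) h1) _ V H ρ rfl h hB

end Vale.Agent.P002.H627
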