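import Vale.Agent.P002.H377.Tw

/-!
# P002, Theorem T++: commuting actions of matrix algebras
-/

namespace Vale.Agent.P002.H627

open Module Matrix Vale.Agent.P002.H377

variable {Ω n : Type} [Fintype Ω] [DecidableEq Ω] [Fintype n] [DecidableEq n]
variable {V : Type} [AddCommGroup V] [Module ℂ V]
variable {φ : Ω → (Matrix n n ℂ →ₐ[ℂ] Module.End ℂ V)}

omit [Fintype Ω] [DecidableEq Ω] in
theorem pw (hφ : ∀ c c', c ≠ c' → ∀ a a', Commute (φ c a) (φ c' a')) (s : Finset Ω)
    (f : Ω → Matrix n n ℂ) :
    (s : Set Ω).Pairwise (Function.onFun Commute fun c => φ c (f c)) :=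
  fun c _ c' _ h => hφ c c' h _ _

/-- the product of the operators `φ c (f c)` -/
noncomputable def pr (hφ : ∀ c c', c ≠ c' → ∀ a a', Commute (φ c a) (φ c' a'))
    (f : Ω → Matrix n n ℂ) : Module.End ℂ V :=
  Finset.univ.noncommProd (fun c => φ c (f c)) (pw hφ _ f)

section

variable (hφ : ∀ c c', c ≠ c' → ∀ a a', Commute (φ c a) (φ c' a'))

theorem pr_mul (f g : Ω → Matrix n n ℂ) : pr hφ f * pr hφ g = pr hφ (f * g) := by
  refine (Finset.noncommProd_mul_distrib (fun c => φ c (f c)) (fun c => φ c (g c)) (pw hφ _ f)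
    (pw hφ _ g) fun c _ c' _ h => hφ c c' h _ _).symm.trans ?_
  refine Finset.noncommProd_congr rfl (fun c _ => ?_) _
  rw [Pi.mul_apply, Pi.mul_apply, map_mul]

/-- splitting off one factor -/
theorem exists_rest (f : Ω → Matrix n n ℂ) (c : Ω) :
    ∃ R : Module.End ℂ V, ∀ a, pr hφ (Function.update f c a) = φ c a * R := by
  refine ⟨(Finset.univ.erase c).noncommProd (fun c => φ c (f c)) (pw hφ _ f), fun a => ?_⟩
  refine (Finset.mul_noncommProd_erase Finset.univ (Finset.mem_univ c)
    (fun c' => φ c' (Function.update f c a c')) (pw hφ _ _) (pw hφ _ _)).symm.trans ?_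
  rw [Function.update_self]
  refine congrArg (fun R => φ c a * R) ?_
  refine Finset.noncommProd_congr rfl (fun c' hc' => ?_) _
  rw [Function.update_of_ne (Finset.ne_of_mem_erase hc')]

theorem pr_zero (f : Ω → Matrix n n ℂ) (c : Ω) (h : f c = 0) : pr hφ f = 0 := by
  obtain ⟨R, hR⟩ := exists_rest hφ f c
  have h1 := hR 0
  rw [map_zero, zero_mul, ← h, Function.update_eq_self] at h1
  exact h1

theorem pr_fix (f : Ω → Matrix n n ℂ) (w : V) (h : ∀ c, φ c (f c) w = w) : pr hφ f w = w := by
  refine Finset.noncommProd_induction _ _ (pw hφ _ f) (fun T : Module.End ℂ V => T w = w)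
    (fun a b ha hb => ?_) rfl fun c _ => h c
  rw [Module.End.mul_apply, hb, ha]

theorem mul_pr (f : Ω → Matrix n n ℂ) (c : Ω) (a : Matrix n n ℂ) :
    φ c a * pr hφ f = pr hφ (Function.update f c (a * f c)) := by
  obtain ⟨R, hR⟩ := exists_rest hφ f c
  have h1 := hR (f c)
  rw [Function.update_eq_self] at h1
  rw [h1, hR, map_mul, mul_assoc]

variable (o : n)

/-- the basis vectors -/
noncomputable def vq (w : V) (q : Ω → n) : V := pr hφ (fun c => Matrix.single (q c) o 1) w

theorem act_vq (w : V) (q : Ω → n) (c : Ω) (a : Matrix n n ℂ) :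
    φ c a (vq hφ o w q) = ∑ k, a k (q c) • vq hφ o w (Function.update q c k) := by
  obtain ⟨R, hR⟩ := exists_rest hφ (fun c => Matrix.single (q c) o (1 : ℂ)) c
  have h1 : ∀ k, vq hφ o w (Function.update q c k) = φ c (Matrix.single k o 1) (R w) := by
    intro k
    have h2 : (fun c' => Matrix.single (Function.update q c k c') o (1 : ℂ)) =
        Function.update (fun c => Matrix.single (q c) o (1 : ℂ)) c (Matrix.single k o 1) := by
      funext c'
      by_cases hc : c' = c
      · subst hc
        rw [Function.update_self, Function.update_self]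
      · rw [Function.update_of_ne hc, Function.update_of_ne hc]
    unfold vq
    rw [h2, hR, Module.End.mul_apply]
  have h3 : a * Matrix.single (q c) o 1 = ∑ k, a k (q c) • Matrix.single k o (1 : ℂ) := by
    ext i j
    rw [Matrix.sum_apply]
    simp only [Matrix.smul_apply, smul_eq_mul]
    by_cases hj : j = o
    · subst hj
      rw [Matrix.mul_single_apply_same, mul_one, Finset.sum_eq_single i]
      · rw [Matrix.single_apply_same, mul_one]
      · intro k _ hk
        rw [Matrix.single_apply_of_ne _ _ _ _ _ (fun h => hk h.1), mul_zero]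
      · intro h
        exact absurd (Finset.mem_univ _) h
    · rw [Matrix.mul_single_apply_of_ne _ _ _ _ _ hj]
      refine (Finset.sum_eq_zero fun k _ => ?_).symm
      rw [Matrix.single_apply_of_ne _ _ _ _ _ (fun h => hj h.2.symm), mul_zero]
  have h4 : φ c a (vq hφ o w q) = φ c (a * Matrix.single (q c) o 1) (R w) := by
    have h5 := h1 (q c)
    rw [Function.update_eq_self] at h5
    rw [h5, map_mul, Module.End.mul_apply]
  rw [h4, h3, map_sum, LinearMap.sum_apply]
  refine Finset.sum_congr rfl fun k _ => ?_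
  rw [map_smul, LinearMap.smul_apply, h1]

theorem dual_vq (w : V) (hw : ∀ c, φ c (Matrix.single o o 1) w = w) (q q' : Ω → n) :
    pr hφ (fun c => Matrix.single o (q c) 1) (vq hφ o w q') = if q = q' then w else 0 := by
  unfold vq
  rw [← Module.End.mul_apply, pr_mul]
  by_cases h : q = q'
  · subst h
    rw [if_pos rfl]
    refine pr_fix hφ _ w fun c => ?_
    rw [Pi.mul_apply, Matrix.single_mul_single_same, mul_one]
    exact hw c
  · rw [if_neg h]
    obtain ⟨c, hc⟩ := Function.ne_iff.1 h
    rw [pr_zero hφ _ c, LinearMap.zero_apply]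
    exact Matrix.single_mul_single_of_ne _ _ _ _ hc _

include hφ in
omit [DecidableEq Ω] in
theorem exists_fixed [Nontrivial V] : ∃ w : V, w ≠ 0 ∧ ∀ c, φ c (Matrix.single o o 1) w = w := by
  classical
  have key : ∀ s : Finset Ω, ∃ w : V, w ≠ 0 ∧ ∀ c ∈ s, φ c (Matrix.single o o 1) w = w := by
    intro s
    induction s using Finset.induction_on with
    | empty =>
      obtain ⟨w, hw⟩ := exists_ne (0 : V)
      exact ⟨w, hw, fun c hc => absurd hc (Finset.notMem_empty c)⟩
    | insert c s hc ih =>
      obtain ⟨w, hw, hws⟩ := ih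
      obtain ⟨k, hk⟩ : ∃ k, φ c (Matrix.single o k 1) w ≠ 0 := by
        by_contra hcon
        push Not at hcon
        have h1 : (∑ k, Matrix.single k k (1 : ℂ)) = (1 : Matrix n n ℂ) := by
          rw [← Matrix.diagonal_one]
          ext i j
          rw [Matrix.sum_apply]
          by_cases hij : i = j
          · subst hij
            rw [Matrix.diagonal_apply_eq, Finset.sum_eq_single i]
            · rw [Matrix.single_apply_same]
            · intro k _ hk
              exact Matrix.single_apply_of_ne _ _ _ _ _ (fun h => hk h.1)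
            · intro h
              exact absurd (Finset.mem_univ _) h
          · rw [Matrix.diagonal_apply_ne _ hij]
            exact Finset.sum_eq_zero fun k _ =>
              Matrix.single_apply_of_ne _ _ _ _ _ (fun h => hij (h.1.symm.trans h.2))
        have h2 : w = φ c (∑ k, Matrix.single k k (1 : ℂ)) w := by
          rw [h1, map_one, Module.End.one_apply]
        rw [map_sum, LinearMap.sum_apply] at h2
        refine hw (h2.trans (Finset.sum_eq_zero fun k _ => ?_))
        have h3 : Matrix.single k k (1 : ℂ) = Matrix.single k o 1 * Matrix.single o k 1 := by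
          rw [Matrix.single_mul_single_same, mul_one]
        rw [h3, map_mul, Module.End.mul_apply, hcon, map_zero]
      refine ⟨_, hk, fun c' hc' => ?_⟩
      rcases Finset.mem_insert.1 hc' with rfl | hc'
      · rw [← Module.End.mul_apply, ← map_mul, Matrix.single_mul_single_same, mul_one]
      · have hne : c' ≠ c := fun h => hc (h ▸ hc')
        rw [← Module.End.mul_apply, (hφ c' c hne _ _).eq, Module.End.mul_apply, hws c' hc']
  obtain ⟨w, hw, h⟩ := key Finset.univ
  exact ⟨w, hw, fun c => h c (Finset.mem_univ c)⟩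

end

theorem sum_tw {W : Type*} [AddCommGroup W] [Module ℂ W] (f : (Ω → n) → W) (c : Ω)
    (a : Matrix n n ℂ) (q : Ω → n) :
    ∑ p, tw (1 : Equiv.Perm Ω) (Pi.mulSingle c a) p q • f p =
      ∑ k, a k (q c) • f (Function.update q c k) := by
  symm
  refine Fintype.sum_of_injective (fun k => Function.update q c k)
    (Function.update_injective q c) _ _ (fun p hp => ?_) fun k => ?_
  · have h1 : ∃ c', c' ≠ c ∧ p c' ≠ q c' := by
      by_contra hcon
      push Not at hcon
      refine hp ⟨p c, ?_⟩
      funext c'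
      change Function.update q c (p c) c' = p c'
      by_cases hc : c' = c
      · subst hc
        rw [Function.update_self]
      · rw [Function.update_of_ne hc, hcon c' hc]
    obtain ⟨c', hc', hpq⟩ := h1
    rw [tw_apply, Finset.prod_eq_zero (Finset.mem_univ c'), zero_smul]
    rw [Pi.mulSingle_eq_of_ne hc', Equiv.Perm.one_apply]
    exact Matrix.one_apply_ne hpq
  · rw [tw_apply, Finset.prod_eq_single c]
    · rw [Pi.mulSingle_eq_same, Equiv.Perm.one_apply, Function.update_self]
    · intro c' _ hc'
      rw [Pi.mulSingle_eq_of_ne hc', Equiv.Perm.one_apply, Function.update_of_ne hc']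
      exact Matrix.one_apply_eq _
    · intro h
      exact absurd (Finset.mem_univ _) h

/-- **Tensor decomposition.** -/
theorem exists_tensor [Nonempty n] [Nontrivial V]
    (hφ : ∀ c c', c ≠ c' → ∀ a a', Commute (φ c a) (φ c' a'))
    (hirr : ∀ U : Submodule ℂ V, (∀ c a, ∀ v ∈ U, φ c a v ∈ U) → U = ⊥ ∨ U = ⊤) :
    ∃ E : ((Ω → n) → ℂ) ≃ₗ[ℂ] V, ∀ c a v,
      φ c a (E v) = E (tw (1 : Equiv.Perm Ω) (Pi.mulSingle c a) *ᵥ v) := by
  obtain ⟨o⟩ := ‹Nonempty n›
  obtain ⟨w, hw0, hw⟩ := exists_fixed hφ o
  let E₀ : ((Ω → n) → ℂ) →ₗ[ℂ] V :=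
    { toFun := fun x => ∑ q, x q • vq hφ o w q
      map_add' := fun x y => by
        simp only [Pi.add_apply, add_smul, Finset.sum_add_distrib]
      map_smul' := fun c x => by
        simp only [Pi.smul_apply, smul_eq_mul, mul_smul, Finset.smul_sum, RingHom.id_apply] }
  have hE : ∀ x, E₀ x = ∑ q, x q • vq hφ o w q := fun x => rfl
  have hint : ∀ c a v, φ c a (E₀ v) = E₀ (tw (1 : Equiv.Perm Ω) (Pi.mulSingle c a) *ᵥ v) := by
    intro c a v
    rw [hE, hE, map_sum]
    simp only [map_smul, act_vq, Matrix.mulVec, dotProduct, Finset.sum_smul]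
    rw [Finset.sum_comm]
    refine Finset.sum_congr rfl fun q _ => ?_
    rw [← sum_tw (vq hφ o w) c a q, Finset.smul_sum]
    refine Finset.sum_congr rfl fun p _ => ?_
    rw [smul_smul, mul_comm]
  have hinj : Function.Injective E₀ := by
    rw [injective_iff_map_eq_zero]
    intro x hx
    funext q
    have h1 := congrArg (pr hφ (fun c => Matrix.single o (q c) 1)) hx
    rw [hE, map_sum, map_zero, Finset.sum_eq_single q] at h1
    · rw [map_smul, dual_vq hφ o w hw, if_pos rfl] at h1
      exact (smul_eq_zero.1 h1).resolve_right hw0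
    · intro q' _ hq'
      rw [map_smul, dual_vq hφ o w hw, if_neg (Ne.symm hq'), smul_zero]
    · intro h
      exact absurd (Finset.mem_univ _) h
  have hsurj : LinearMap.range E₀ = ⊤ := by
    refine (hirr _ ?_).resolve_left fun h => ?_
    · rintro c a _ ⟨v, rfl⟩
      exact ⟨_, (hint c a v).symm⟩
    · rw [LinearMap.range_eq_bot] at h
      have h1 : vq hφ o w (fun _ => o) = w := pr_fix hφ _ w hw
      have h2 : E₀ (Pi.single (fun _ => o) 1) = w := by
        rw [hE, Finset.sum_eq_single (fun _ => o)]
        · rw [Pi.single_eq_same, one_smul, h1]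
        · intro q _ hq
          rw [Pi.single_eq_of_ne hq, zero_smul]
        · intro h
          exact absurd (Finset.mem_univ _) h
      rw [h] at h2
      exact hw0 h2.symm
  exact ⟨LinearEquiv.ofBijective E₀ ⟨hinj, LinearMap.range_eq_top.1 hsurj⟩, hint⟩

end Vale.Agent.P002.H627
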