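import Vale.Agent.P002.H627.Tens

/-!
# P002, Theorem T++: the isotypic decomposition, once more
-/

namespace Vale.Agent.P002.H627

open Module Matrix Kronecker

variable {G : Type*} [Group G] {V : Type*} [AddCommGroup V] [Module ℂ V]

/-- lifting of the tensor factors to homomorphisms -/
theorem exists_homs [IsFreeGroup G] {ρ : G →* End ℂ V} {a b : ℕ}
    (e : (Fin a × Fin b → ℂ) ≃ₗ[ℂ] V)
    (h : ∀ g : G, ∃ (A : (Matrix (Fin a) (Fin a) ℂ)ˣ) (B : (Matrix (Fin b) (Fin b) ℂ)ˣ),
      ∀ v, ρ g (e v) = e ((A.1 ⊗ₖ B.1) *ᵥ v)) :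
    ∃ (α : G →* (Matrix (Fin a) (Fin a) ℂ)ˣ) (β : G →* (Matrix (Fin b) (Fin b) ℂ)ˣ),
      ∀ g v, ρ g (e v) = e (((α g).1 ⊗ₖ (β g).1) *ᵥ v) := by
  choose A B hAB using h
  refine ⟨IsFreeGroup.lift fun i => A (IsFreeGroup.of i),
    IsFreeGroup.lift fun i => B (IsFreeGroup.of i), ?_⟩
  let f₁ : G →* (End ℂ (Fin a × Fin b → ℂ)) :=
    { toFun := fun g => e.symm.toLinearMap ∘ₗ ρ g ∘ₗ e.toLinearMap
      map_one' := LinearMap.ext fun v => by simp
      map_mul' := fun x y => LinearMap.ext fun v => by simp }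
  let f₂ : G →* (End ℂ (Fin a × Fin b → ℂ)) :=
    { toFun := fun g => Matrix.toLin'
        (((IsFreeGroup.lift fun i => A (IsFreeGroup.of i)) g).1 ⊗ₖ
          ((IsFreeGroup.lift fun i => B (IsFreeGroup.of i)) g).1)
      map_one' := by
        rw [map_one, map_one, Units.val_one, Units.val_one, Matrix.one_kronecker_one,
          Matrix.toLin'_one]
        rfl
      map_mul' := fun x y => by
        rw [map_mul, map_mul, Units.val_mul, Units.val_mul, Matrix.mul_kronecker_mul,
          Matrix.toLin'_mul]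
        rfl }
  have hf : f₁.toHomUnits = f₂.toHomUnits := IsFreeGroup.ext_hom fun i => Units.ext (by
    rw [MonoidHom.coe_toHomUnits, MonoidHom.coe_toHomUnits]
    refine LinearMap.ext fun v => ?_
    show e.symm (ρ (IsFreeGroup.of i) (e v)) = _
    rw [hAB, LinearEquiv.symm_apply_apply]
    show _ = Matrix.toLin' _ v
    rw [IsFreeGroup.lift_of, IsFreeGroup.lift_of, Matrix.toLin'_apply])
  intro g v
  have h1 : f₁ g = f₂ g := congrArg Units.val (DFunLike.congr_fun hf g)
  have h2 := LinearMap.congr_fun h1 v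
  have h3 : e.symm (ρ g (e v)) = Matrix.toLin' _ v := h2
  rw [LinearEquiv.symm_apply_eq, Matrix.toLin'_apply] at h3
  exact h3

variable [FiniteDimensional ℂ V]

/-- **The isotypic decomposition.** -/
theorem tens2 [Nontrivial V] {ρ : G →* End ℂ V} (N : Subgroup G) [N.Normal]
    (hFI : ∀ U, FI ρ N U → U = ⊥ ∨ U = ⊤) :
    ∃ (a b : ℕ) (e : (Fin a × Fin b → ℂ) ≃ₗ[ℂ] V), 0 < a ∧ 0 < b ∧
      (∀ g : G, ∃ (A : (Matrix (Fin a) (Fin a) ℂ)ˣ) (B : (Matrix (Fin b) (Fin b) ℂ)ˣ),
        ∀ v, ρ g (e v) = e ((A.1 ⊗ₖ B.1) *ᵥ v)) ∧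
      (∀ x ∈ N, ∃ A : Matrix (Fin a) (Fin a) ℂ, ∀ v,
        ρ x (e v) = e ((A ⊗ₖ (1 : Matrix (Fin b) (Fin b) ℂ)) *ᵥ v)) ∧
      (∀ T : End ℂ V, (∀ x ∈ N, T * ρ x = ρ x * T) → ∃ B : Matrix (Fin b) (Fin b) ℂ, ∀ v,
        T (e v) = e (((1 : Matrix (Fin a) (Fin a) ℂ) ⊗ₖ B) *ᵥ v)) ∧
      (∀ U : Submodule ℂ (Fin a → ℂ), (∀ x ∈ N, ∀ A : Matrix (Fin a) (Fin a) ℂ,
        (∀ v, ρ x (e v) = e ((A ⊗ₖ (1 : Matrix (Fin b) (Fin b) ℂ)) *ᵥ v)) →
          ∀ u ∈ U, A *ᵥ u ∈ U) → U = ⊥ ∨ U = ⊤) := by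
  classical
  obtain ⟨S, hS, -⟩ := exists_mini (P := Inv ρ N) (U := ⊤) top_ne_bot fun _ _ _ _ => trivial
  obtain ⟨m, e, he⟩ := exists_equiv hS hFI
  have hV : 0 < finrank ℂ V := finrank_pos
  have hnm := finrank_eq e
  have hm : 0 < m := Nat.pos_of_ne_zero fun h => by
    rw [h, zero_mul] at hnm
    omega
  have hn : 0 < finrank ℂ S := Nat.pos_of_ne_zero fun h => by
    rw [h, mul_zero] at hnm
    omega
  have hirr := irrOn_restr hS
  let c := Module.finBasis ℂ S
  let e1 : (Fin (finrank ℂ S) × Fin m → ℂ) ≃ₗ[ℂ] (Fin m → S) :=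
    { toFun := fun x i => ∑ k, x (k, i) • c k
      map_add' := fun x y => by
        funext i
        simp only [Pi.add_apply, add_smul, Finset.sum_add_distrib]
      map_smul' := fun t x => by
        funext i
        simp only [Pi.smul_apply, smul_eq_mul, mul_smul, Finset.smul_sum, RingHom.id_apply]
      invFun := fun s p => c.repr (s p.2) p.1
      left_inv := fun x => by
        funext p
        simp only
        rw [c.repr_sum_self]
      right_inv := fun s => by
        funext i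
        simp only
        rw [c.sum_repr] }
  have he1 : ∀ x i, e1 x i = ∑ k, x (k, i) • c k := fun x i => rfl
  -- the basic computation
  have hA : ∀ (a : S →ₗ[ℂ] S) l, a (c l) = ∑ k, (LinearMap.toMatrix c c a) k l • c k := by
    intro a l
    rw [← c.sum_repr (a (c l))]
    refine Finset.sum_congr rfl fun k _ => ?_
    rw [LinearMap.toMatrix_apply]
  have hk : ∀ (a : S →ₗ[ℂ] S) (b : Matrix (Fin m) (Fin m) ℂ) v,
      (fun i => ∑ j, b i j • a (e1 v j)) = e1 ((LinearMap.toMatrix c c a ⊗ₖ b) *ᵥ v) := by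
    intro a b v
    funext i
    rw [he1]
    simp only [he1, map_sum, map_smul, hA a, Matrix.mulVec, dotProduct, Fintype.sum_prod_type,
      kroneckerMap_apply, Finset.smul_sum, Finset.sum_smul, smul_smul]
    rw [Finset.sum_comm]
    refine ((Finset.sum_congr rfl fun l _ => Finset.sum_comm).trans Finset.sum_comm).trans ?_
    refine Finset.sum_congr rfl fun k _ => Finset.sum_congr rfl fun l _ =>
      Finset.sum_congr rfl fun j _ => ?_
    congr 1
    ring
  have hmap : ∀ (a : S →ₗ[ℂ] S) v, (fun i => a (e1 v i)) =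
      e1 ((LinearMap.toMatrix c c a ⊗ₖ (1 : Matrix (Fin m) (Fin m) ℂ)) *ᵥ v) := by
    intro a v
    rw [← hk]
    funext i
    rw [Finset.sum_eq_single i]
    · rw [Matrix.one_apply_eq, one_smul]
    · intro j _ hj
      rw [Matrix.one_apply_ne (Ne.symm hj), zero_smul]
    · intro h
      exact absurd (Finset.mem_univ _) h
  have hN : ∀ (x : N) v, ρ x.1 (e (e1 v)) =
      e (e1 ((LinearMap.toMatrix c c (restr ρ S N hS.1.2 x) ⊗ₖ
        (1 : Matrix (Fin m) (Fin m) ℂ)) *ᵥ v)) := by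
    intro x v
    rw [← he, hmap]
  refine ⟨finrank ℂ S, m, e1.trans e, hn, hm, fun g => ?_, fun x hx => ⟨_, hN ⟨x, hx⟩⟩,
    fun T hT => ?_, fun U hU => ?_⟩
  · obtain ⟨a, b, hab⟩ := exists_pure hS e he g
    have hk' : ∀ v, ρ g (e (e1 v)) = e (e1 ((LinearMap.toMatrix c c a ⊗ₖ b) *ᵥ v)) := by
      intro v
      rw [hab, hk]
    have hinj : Function.Injective ((LinearMap.toMatrix c c a ⊗ₖ b).mulVec) := by
      intro v w hvw
      have h1 : ρ g (e (e1 v)) = ρ g (e (e1 w)) := by rw [hk', hk', hvw]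
      exact e1.injective (e.injective (injective ρ g h1))
    have hu : IsUnit (LinearMap.toMatrix c c a ⊗ₖ b) := Matrix.mulVec_injective_iff_isUnit.1 hinj
    rw [Matrix.isUnit_iff_isUnit_det, Matrix.det_kronecker] at hu
    have hu2 := isUnit_iff_ne_zero.1 hu
    have hA0 : (LinearMap.toMatrix c c a).det ≠ 0 := fun h => hu2 (by
      rw [h, Fintype.card_fin, zero_pow hm.ne', zero_mul])
    have hb0 : b.det ≠ 0 := fun h => hu2 (by
      rw [h, Fintype.card_fin, Fintype.card_fin, zero_pow hn.ne', mul_zero])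
    obtain ⟨A', hA'⟩ := (Matrix.isUnit_iff_isUnit_det _).2 (isUnit_iff_ne_zero.2 hA0)
    obtain ⟨B', hB'⟩ := (Matrix.isUnit_iff_isUnit_det b).2 (isUnit_iff_ne_zero.2 hb0)
    refine ⟨A', B', fun v => ?_⟩
    rw [hA', hB']
    exact hk' v
  · let R : End ℂ (Fin m → S) := e.symm.toLinearMap ∘ₗ T ∘ₗ e.toLinearMap
    have hR : ∀ v, e (R v) = T (e v) := fun v => e.apply_symm_apply _
    let r : Fin m → Fin m → S →ₗ[ℂ] S := fun i j =>
      LinearMap.proj i ∘ₗ R ∘ₗ LinearMap.single ℂ (fun _ => S) j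
    have hRr : ∀ v i, R v i = ∑ j, r i j (v j) := by
      intro v i
      have h1 : v = ∑ j, LinearMap.single ℂ (fun _ => (S : Type _)) j (v j) := by
        simp only [LinearMap.coe_single]
        exact (Finset.univ_sum_single v).symm
      conv_lhs => rw [h1]
      rw [map_sum, Finset.sum_apply]
      rfl
    have hb : ∀ i j, ∃ t : ℂ, r i j = t • 1 := by
      intro i j
      refine schur (ρ := restr ρ S N hS.1.2) hirr _ fun x _ => LinearMap.ext fun s => ?_
      have h1 : (LinearMap.single ℂ (fun _ => (S : Type _)) j (restr ρ S N hS.1.2 x s)) =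
          fun k => restr ρ S N hS.1.2 x (LinearMap.single ℂ (fun _ => (S : Type _)) j s k) := by
        funext k
        simp only [LinearMap.coe_single]
        by_cases hk : k = j
        · subst hk
          simp
        · rw [Pi.single_eq_of_ne hk, Pi.single_eq_of_ne hk, map_zero]
      have h2 : R (LinearMap.single ℂ (fun _ => (S : Type _)) j (restr ρ S N hS.1.2 x s)) =
          fun k => restr ρ S N hS.1.2 x
            (R (LinearMap.single ℂ (fun _ => (S : Type _)) j s) k) := by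
        apply e.injective
        rw [hR, h1, he, he, hR]
        exact LinearMap.congr_fun (hT x.1 x.2) _
      exact congrFun h2 i
    choose b hb using hb
    refine ⟨fun i j => b i j, fun v => ?_⟩
    change T (e (e1 v)) = e (e1 _)
    rw [← hR]
    congr 1
    have h3 := hk (LinearMap.id) (fun i j => b i j) v
    rw [LinearMap.toMatrix_id] at h3
    rw [← h3]
    funext i
    rw [hRr]
    refine Finset.sum_congr rfl fun j _ => ?_
    rw [hb]
    rfl
  · have h1 := hirr (U.map c.equivFun.symm.toLinearMap) (by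
      rintro x - _ ⟨u, hu, rfl⟩
      refine ⟨LinearMap.toMatrix c c (restr ρ S N hS.1.2 x) *ᵥ u,
        hU x.1 x.2 _ (hN x) u hu, ?_⟩
      have h2 := LinearMap.toMatrix_mulVec_repr c c (restr ρ S N hS.1.2 x) (c.equivFun.symm u)
      have h3 : (c.repr (c.equivFun.symm u) : Fin (finrank ℂ S) → ℂ) = u :=
        c.equivFun.apply_symm_apply u
      rw [h3] at h2
      change c.equivFun.symm _ = _
      rw [h2]
      exact c.equivFun.symm_apply_apply _)
    rcases h1 with h1 | h1
    · exact Or.inl (eq_bot_of_map c.equivFun.symm.injective h1)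
    · right
      rw [eq_top_iff]
      intro v _
      have h2 : c.equivFun.symm v ∈ U.map c.equivFun.symm.toLinearMap := by rw [h1]; trivial
      obtain ⟨w, hw, hwv⟩ := h2
      rwa [← c.equivFun.symm.injective hwv]

end Vale.Agent.P002.H627
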