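import Vale.Agent.P002.H627.S2

/-!
# P002, Theorem T++: the group theory of an orbit
-/

namespace Vale.Agent.P002.H627

open Module Matrix Vale.Agent.P002.H2 Vale.Agent.P002.H377

section cen

variable {F : Type} [Group F]

/-- the elements of `H` which commute with `B` modulo `Z` -/
def cen (H Z : Subgroup F) (hZ : ∀ x ∈ H, ∀ z ∈ Z, x * z * x⁻¹ ∈ Z) (B : Subgroup F) :
    Subgroup F where
  carrier := {x | x ∈ H ∧ ∀ b ∈ B, x * b * x⁻¹ * b⁻¹ ∈ Z}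
  one_mem' := ⟨H.one_mem, fun b _ => by
    have : 1 * b * 1⁻¹ * b⁻¹ = 1 := by group
    rw [this]
    exact Z.one_mem⟩
  mul_mem' := by
    rintro x y ⟨hx, hxb⟩ ⟨hy, hyb⟩
    refine ⟨H.mul_mem hx hy, fun b hb => ?_⟩
    have : x * y * b * (x * y)⁻¹ * b⁻¹ =
        x * (y * b * y⁻¹ * b⁻¹) * x⁻¹ * (x * b * x⁻¹ * b⁻¹) := by group
    rw [this]
    exact Z.mul_mem (hZ x hx _ (hyb b hb)) (hxb b hb)
  inv_mem' := by
    rintro x ⟨hx, hxb⟩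
    refine ⟨H.inv_mem hx, fun b hb => ?_⟩
    have : x⁻¹ * b * x⁻¹⁻¹ * b⁻¹ = x⁻¹ * (x * b * x⁻¹ * b⁻¹)⁻¹ * x⁻¹⁻¹ := by group
    rw [this]
    exact hZ _ (H.inv_mem hx) _ (Z.inv_mem (hxb b hb))

variable {H Z : Subgroup F} {hZ : ∀ x ∈ H, ∀ z ∈ Z, x * z * x⁻¹ ∈ Z}

theorem mem_cen {B : Subgroup F} {x : F} :
    x ∈ cen H Z hZ B ↔ x ∈ H ∧ ∀ b ∈ B, x * b * x⁻¹ * b⁻¹ ∈ Z := Iff.rfl

theorem cen_symm {A B : Subgroup F} (hB : B ≤ H) (h : A ≤ cen H Z hZ B) : B ≤ cen H Z hZ A := by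
  intro b hb
  refine ⟨hB hb, fun a ha => ?_⟩
  have h1 := (h ha).2 b hb
  have : b * a * b⁻¹ * a⁻¹ = (a * b * a⁻¹ * b⁻¹)⁻¹ := by group
  rw [this]
  exact Z.inv_mem h1

theorem cen_of_le {A B : Subgroup F} (hA : A ≤ H) (hB : B ≤ H) (h : A ≤ Z) :
    A ≤ cen H Z hZ B := by
  intro a ha
  refine ⟨hA ha, fun b hb => ?_⟩
  have : a * b * a⁻¹ * b⁻¹ = a * (b * a⁻¹ * b⁻¹) := by group
  rw [this]
  exact Z.mul_mem (h ha) (hZ b (hB hb) _ (h (A.inv_mem ha)))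

theorem commutator_le_of_cen {A B : Subgroup F} (h : A ≤ cen H Z hZ B) : ⁅A, B⁆ ≤ Z := by
  rw [Subgroup.commutator_le]
  intro a ha b hb
  exact (h ha).2 b hb

/-- elements of a product of subgroups -/
theorem mem_sup_of_normalizes {A B : Subgroup F} (h : ∀ a ∈ A, ∀ b ∈ B, a * b * a⁻¹ ∈ B) {x : F}
    (hx : x ∈ A ⊔ B) : ∃ a ∈ A, ∃ b ∈ B, x = a * b := by
  let X : Subgroup F :=
    { carrier := {x | ∃ a ∈ A, ∃ b ∈ B, x = a * b}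
      one_mem' := ⟨1, A.one_mem, 1, B.one_mem, (mul_one _).symm⟩
      mul_mem' := by
        rintro _ _ ⟨a, ha, b, hb, rfl⟩ ⟨a', ha', b', hb', rfl⟩
        refine ⟨a * a', A.mul_mem ha ha', a'⁻¹ * b * a'⁻¹⁻¹ * b',
          B.mul_mem (h _ (A.inv_mem ha') b hb) hb', by group⟩
      inv_mem' := by
        rintro _ ⟨a, ha, b, hb, rfl⟩
        exact ⟨a⁻¹, A.inv_mem ha, a * b⁻¹ * a⁻¹, h a ha _ (B.inv_mem hb), by group⟩ }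
  have h1 : A ⊔ B ≤ X := sup_le (fun a ha => ⟨a, ha, 1, B.one_mem, (mul_one a).symm⟩)
    fun b hb => ⟨1, A.one_mem, b, hb, (one_mul b).symm⟩
  exact h1 hx

theorem relIndex_sup_ne_zero {A B P : Subgroup F} [hP : P.Normal] (hPi : P.index ≠ 0)
    (h : ∀ a ∈ A, ∀ b ∈ B, a * b * a⁻¹ ∈ B) : ((A ⊓ P) ⊔ (B ⊓ P)).relIndex (A ⊔ B) ≠ 0 := by
  classical
  have hfi : P.FiniteIndex := ⟨hPi⟩
  have hfin : Finite (F ⧸ P) := Subgroup.finite_quotient_of_finiteIndex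
  have h1 : ∀ x : F, ∃ p : F × F, x ∈ A ⊔ B → p.1 ∈ A ∧ p.2 ∈ B ∧ x = p.1 * p.2 := by
    intro x
    by_cases hx : x ∈ A ⊔ B
    · obtain ⟨a, ha, b, hb, hab⟩ := mem_sup_of_normalizes h hx
      exact ⟨(a, b), fun _ => ⟨ha, hb, hab⟩⟩
    · exact ⟨(1, 1), fun h => absurd h hx⟩
  choose p hp using h1
  refine relIndex_ne_zero_of_finite _ _
    (fun x => ((QuotientGroup.mk (p x).1 : F ⧸ P), (QuotientGroup.mk (p x).2 : F ⧸ P)))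
    (Set.toFinite _) fun x hx y hy hxy => ?_
  obtain ⟨ha, hb, hab⟩ := hp x hx
  obtain ⟨ha', hb', hab'⟩ := hp y hy
  rw [Prod.mk.injEq, QuotientGroup.eq, QuotientGroup.eq] at hxy
  obtain ⟨h2, h3⟩ := hxy
  set a := (p x).1
  set b := (p x).2
  set a' := (p y).1
  set b' := (p y).2
  have h4 : x⁻¹ * y = (a⁻¹ * a') * (((a⁻¹ * a')⁻¹ * b⁻¹ * (a⁻¹ * a')⁻¹⁻¹) * b) * (b⁻¹ * b') := by
    rw [hab, hab']
    group
  rw [h4]
  have haa : a⁻¹ * a' ∈ A := A.mul_mem (A.inv_mem ha) ha'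
  refine Subgroup.mul_mem _ (Subgroup.mul_mem _ (Subgroup.mem_sup_left ⟨haa, h2⟩) ?_)
    (Subgroup.mem_sup_right ⟨B.mul_mem (B.inv_mem hb) hb', h3⟩)
  refine Subgroup.mem_sup_right ⟨B.mul_mem (h _ (A.inv_mem haa) _ (B.inv_mem hb)) hb, ?_⟩
  have h5 : (a⁻¹ * a')⁻¹ * b⁻¹ * (a⁻¹ * a')⁻¹⁻¹ * b =
      (a⁻¹ * a')⁻¹ * (b⁻¹ * (a⁻¹ * a') * b⁻¹⁻¹) := by group
  rw [h5]
  exact P.mul_mem (P.inv_mem h2) (hP.conj_mem _ h2 b⁻¹)

end cen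

section scF

variable {F : Type} [Group F] {V : Type} [AddCommGroup V] [Module ℂ V]

/-- the elements of `H` which act by scalars -/
def scF {H : Subgroup F} {ρ : F → Module.End ℂ V} (hρ : MulOn H ρ) : Subgroup F :=
  (scal (hom hρ)).map H.subtype

variable {H : Subgroup F} {ρ : F → Module.End ℂ V} {hρ : MulOn H ρ}

theorem mem_scF {x : F} : x ∈ scF hρ ↔ x ∈ H ∧ ∃ c : ℂ, ρ x = c • (1 : Module.End ℂ V) := by
  constructor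
  · rintro ⟨y, hy, rfl⟩
    exact ⟨y.2, mem_scal.1 hy⟩
  · rintro ⟨hx, hc⟩
    exact ⟨⟨x, hx⟩, mem_scal.2 hc, rfl⟩

theorem scF_normal (hρ : MulOn H ρ) : ∀ x ∈ H, ∀ z ∈ scF hρ, x * z * x⁻¹ ∈ scF hρ := by
  intro x hx z hz
  rw [mem_scF] at hz ⊢
  obtain ⟨hz, c, hc⟩ := hz
  refine ⟨H.mul_mem (H.mul_mem hx hz) (H.inv_mem hx), c, ?_⟩
  rw [hρ.mul _ (H.mul_mem hx hz) _ (H.inv_mem hx), hρ.mul x hx z hz, hc, mul_smul_comm, mul_one,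
    smul_mul_assoc, mulOn_mul_inv hρ hx]

theorem scal_of_le {A : Subgroup F} (h : A ≤ scF hρ) : Scal A ρ := fun x hx => (mem_scF.1 (h hx)).2

theorem le_scF {A : Subgroup F} (hA : A ≤ H) (h : Scal A ρ) : A ≤ scF hρ :=
  fun _ hx => mem_scF.2 ⟨hA hx, h _ hx⟩

theorem comm_central {G : Type*} [Group G] {z w A B : G} (hz : ∀ g, z * g = g * z)
    (hw : ∀ g, w * g = g * w) :
    (z * A) * (w * B) * (z * A)⁻¹ * (w * B)⁻¹ = A * B * A⁻¹ * B⁻¹ :=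
  calc (z * A) * (w * B) * (z * A)⁻¹ * (w * B)⁻¹
      = z * ((A * w) * B * A⁻¹) * z⁻¹ * B⁻¹ * w⁻¹ := by group
    _ = z * ((w * A) * B * A⁻¹) * z⁻¹ * B⁻¹ * w⁻¹ := by rw [hw A]
    _ = ((w * A) * B * A⁻¹) * z * z⁻¹ * B⁻¹ * w⁻¹ := by rw [hz ((w * A) * B * A⁻¹)]
    _ = w * (A * B * A⁻¹ * B⁻¹) * w⁻¹ := by group
    _ = A * B * A⁻¹ * B⁻¹ := by rw [hw, mul_inv_cancel_right]

/-- commuting up to scalars implies commuting with the commutators -/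
theorem comm_exact (hρ : MulOn H ρ) {M : Subgroup F} (hM : M ≤ H) {x : F} (hx : x ∈ H)
    (h : ∀ m ∈ M, x * m * x⁻¹ * m⁻¹ ∈ scF hρ) : ∀ d ∈ ⁅M, M⁆, ρ x * ρ d = ρ d * ρ x := by
  let f : H →* (Module.End ℂ V)ˣ := (hom hρ).toHomUnits
  let X : H := ⟨x, hx⟩
  -- conjugation changes elements of `M` by central elements
  have h1 : ∀ m (hm : m ∈ M), ∃ z : (Module.End ℂ V)ˣ, (∀ g, z * g = g * z) ∧
      f X * f ⟨m, hM hm⟩ * (f X)⁻¹ = z * f ⟨m, hM hm⟩ := by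
    intro m hm
    obtain ⟨-, c, hc⟩ := mem_scF.1 (h m hm)
    refine ⟨f (X * ⟨m, hM hm⟩ * X⁻¹ * (⟨m, hM hm⟩)⁻¹), fun g => Units.ext ?_, ?_⟩
    · change ρ (x * m * x⁻¹ * m⁻¹) * g.1 = g.1 * ρ (x * m * x⁻¹ * m⁻¹)
      rw [hc, smul_mul_assoc, mul_smul_comm, one_mul, mul_one]
    · rw [← map_inv, ← map_mul, ← map_mul, ← map_mul]
      congr 1
      group
  let Y : Subgroup F := ((Subgroup.centralizer {f X}).comap f).map H.subtype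
  have h2 : ⁅M, M⁆ ≤ Y := by
    rw [Subgroup.commutator_le]
    intro a ha b hb
    refine ⟨⟨a, hM ha⟩ * ⟨b, hM hb⟩ * ⟨a, hM ha⟩⁻¹ * ⟨b, hM hb⟩⁻¹, ?_, rfl⟩
    rw [SetLike.mem_coe, Subgroup.mem_comap, Subgroup.mem_centralizer_singleton_iff]
    obtain ⟨z, hz, hza⟩ := h1 a ha
    obtain ⟨w, hw, hwb⟩ := h1 b hb
    set A := f ⟨a, hM ha⟩
    set B := f ⟨b, hM hb⟩
    have h3 : f X * (A * B * A⁻¹ * B⁻¹) * (f X)⁻¹ = A * B * A⁻¹ * B⁻¹ := by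
      calc f X * (A * B * A⁻¹ * B⁻¹) * (f X)⁻¹ = (f X * A * (f X)⁻¹) * (f X * B * (f X)⁻¹) *
            (f X * A * (f X)⁻¹)⁻¹ * (f X * B * (f X)⁻¹)⁻¹ := by group
        _ = (z * A) * (w * B) * (z * A)⁻¹ * (w * B)⁻¹ := by rw [hza, hwb]
        _ = A * B * A⁻¹ * B⁻¹ := comm_central hz hw
    rw [map_mul, map_mul, map_mul, map_inv, map_inv]
    exact (mul_inv_eq_iff_eq_mul.1 h3).symm
  intro d hd
  obtain ⟨y, hy, rfl⟩ := h2 hd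
  rw [SetLike.mem_coe, Subgroup.mem_comap, Subgroup.mem_centralizer_singleton_iff] at hy
  exact (congrArg Units.val hy).symm

end scF

end Vale.Agent.P002.H627
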