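import Vale.Agent.P002.H627.T3

/-!
# P002, Theorem T++: the subgroups attached to an orbit
-/

namespace Vale.Agent.P002.H627

open Module Matrix Vale.Agent.P002.H2 Vale.Agent.P002.H377

variable {F : Type} [Group F] {I : Type} [MulAction F I] (C : Ctx F I) {H : Subgroup F} {i₀ : I}
  {Ω : Type} [Fintype Ω] [DecidableEq Ω] {t : Ω → F}

omit [DecidableEq Ω] in
theorem smul_pt (ht : Trans H (H ⊓ MulAction.stabilizer F i₀) t) {x : F} (hx : x ∈ H) (c : Ω) :
    x • (t c • i₀) = t (permT ht x hx c) • i₀ := by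
  have h := (Subgroup.mem_inf.1 (permT_spec ht x hx c)).2
  rw [MulAction.mem_stabilizer_iff, mul_smul, mul_smul, inv_smul_eq_iff] at h
  exact h

omit [Fintype Ω] [DecidableEq Ω] in
theorem pt_injective (ht : Trans H (H ⊓ MulAction.stabilizer F i₀) t) :
    Function.Injective fun c => t c • i₀ := by
  intro c c' h
  have h1 : t c • i₀ = t c' • i₀ := h
  refine (ht.uniq (t c') (ht.mem c')).unique
    (Subgroup.mem_inf.2 ⟨H.mul_mem (H.inv_mem (ht.mem c)) (ht.mem c'), ?_⟩) ?_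
  · rw [MulAction.mem_stabilizer_iff, mul_smul, ← h1, inv_smul_smul]
  · rw [inv_mul_cancel]
    exact Subgroup.one_mem _

variable (H t i₀) in
/-- the pointwise stabiliser of the orbit -/
def PO : Subgroup F := (⨅ c, MulAction.stabilizer F (t c • i₀)) ⊓ H

omit [Fintype Ω] [DecidableEq Ω] in
theorem mem_PO {x : F} : x ∈ PO H i₀ t ↔ (∀ c, x • t c • i₀ = t c • i₀) ∧ x ∈ H := by
  simp only [PO, Subgroup.mem_inf, Subgroup.mem_iInf, MulAction.mem_stabilizer_iff]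

variable (H t i₀) in
/-- the subgroups attached to the subsets of the orbit -/
def QO (S : Finset Ω) : Subgroup F := (⨅ c ∈ S, C.N (t c • i₀)) ⊓ PO H i₀ t

variable {C}

omit [Fintype Ω] [DecidableEq Ω] in
theorem mem_QO {S : Finset Ω} {x : F} :
    x ∈ QO C H i₀ t S ↔ (∀ c ∈ S, x ∈ C.N (t c • i₀)) ∧ x ∈ PO H i₀ t := by
  simp only [QO, Subgroup.mem_inf, Subgroup.mem_iInf]

omit [Fintype Ω] [DecidableEq Ω] in
theorem PO_le : PO H i₀ t ≤ H := inf_le_right

omit [Fintype Ω] [DecidableEq Ω] in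
theorem QO_le_PO {S : Finset Ω} : QO C H i₀ t S ≤ PO H i₀ t := inf_le_right

omit [Fintype Ω] [DecidableEq Ω] in
theorem QO_le {S : Finset Ω} : QO C H i₀ t S ≤ H := QO_le_PO.trans PO_le

omit [Fintype Ω] [DecidableEq Ω] in
theorem QO_mono {S R : Finset Ω} (h : S ⊆ R) : QO C H i₀ t R ≤ QO C H i₀ t S := by
  intro x hx
  rw [mem_QO] at hx ⊢
  exact ⟨fun c hc => hx.1 c (h hc), hx.2⟩

omit [Fintype Ω] [DecidableEq Ω] in
theorem QO_empty : QO C H i₀ t (∅ : Finset Ω) = PO H i₀ t := by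
  ext x
  rw [mem_QO]
  exact ⟨fun h => h.2, fun h => ⟨fun c hc => absurd hc (Finset.notMem_empty c), h⟩⟩

omit [Fintype Ω] [DecidableEq Ω] in
/-- elements of `PO` normalise the groups `N c` -/
theorem conj_mem_N {x y : F} (hx : x ∈ PO H i₀ t) (c : Ω) (hy : y ∈ C.N (t c • i₀)) :
    x * y * x⁻¹ ∈ C.N (t c • i₀) := by
  have h := C.hN x (t c • i₀) y hy
  rwa [(mem_PO.1 hx).1 c] at h

omit [DecidableEq Ω] in
theorem PO_conj (ht : Trans H (H ⊓ MulAction.stabilizer F i₀) t) {x y : F} (hx : x ∈ H)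
    (hy : y ∈ PO H i₀ t) : x * y * x⁻¹ ∈ PO H i₀ t := by
  rw [mem_PO] at hy ⊢
  refine ⟨fun c => ?_, H.mul_mem (H.mul_mem hx hy.2) (H.inv_mem hx)⟩
  rw [mul_smul, mul_smul, smul_pt ht (H.inv_mem hx), hy.1, ← smul_pt ht (H.inv_mem hx),
    smul_inv_smul]

theorem QO_conj (ht : Trans H (H ⊓ MulAction.stabilizer F i₀) t) {x y : F} (hx : x ∈ H)
    {S : Finset Ω} (hy : y ∈ QO C H i₀ t S) :
    x * y * x⁻¹ ∈ QO C H i₀ t (S.image (permT ht x hx)) := by
  rw [mem_QO] at hy ⊢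
  refine ⟨fun c hc => ?_, PO_conj ht hx hy.2⟩
  obtain ⟨c', hc', rfl⟩ := Finset.mem_image.1 hc
  have h := C.hN x (t c' • i₀) y (hy.1 c' hc')
  rwa [smul_pt ht hx] at h

omit [Fintype Ω] in
theorem QO_comm {S R : Finset Ω} {q r : F} (hq : q ∈ QO C H i₀ t S) (hr : r ∈ QO C H i₀ t R) :
    q * r * q⁻¹ * r⁻¹ ∈ QO C H i₀ t (S ∪ R) := by
  rw [mem_QO] at hq hr ⊢
  refine ⟨fun c hc => ?_, Subgroup.mul_mem _ (Subgroup.mul_mem _ (Subgroup.mul_mem _ hq.2 hr.2)
    (Subgroup.inv_mem _ hq.2)) (Subgroup.inv_mem _ hr.2)⟩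
  rcases Finset.mem_union.1 hc with hc | hc
  · rw [mul_assoc, mul_assoc, ← mul_assoc r]
    exact Subgroup.mul_mem _ (hq.1 c hc) (conj_mem_N hr.2 c (Subgroup.inv_mem _ (hq.1 c hc)))
  · exact Subgroup.mul_mem _ (conj_mem_N hq.2 c (hr.1 c hc)) (Subgroup.inv_mem _ (hr.1 c hc))

variable (C H t i₀) in
/-- generated by the groups of the subsets with at least `k` elements -/
def TO (k : ℕ) : Subgroup F := ⨆ S : {S : Finset Ω // k ≤ S.card}, QO C H i₀ t S.1

omit [Fintype Ω] [DecidableEq Ω] in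
theorem QO_le_TO {k : ℕ} {S : Finset Ω} (h : k ≤ S.card) : QO C H i₀ t S ≤ TO C H i₀ t k :=
  le_iSup (fun S : {S : Finset Ω // k ≤ S.card} => QO C H i₀ t S.1) ⟨S, h⟩

omit [Fintype Ω] [DecidableEq Ω] in
theorem TO_le_PO {k : ℕ} : TO C H i₀ t k ≤ PO H i₀ t := iSup_le fun _ => QO_le_PO

omit [Fintype Ω] [DecidableEq Ω] in
theorem TO_le {k : ℕ} : TO C H i₀ t k ≤ H := TO_le_PO.trans PO_le

/-- conjugation invariance of suprema -/
theorem conj_iSup {ι : Type*} {f : ι → Subgroup F} {X : Subgroup F} {x : F}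
    (h : ∀ i, ∀ y ∈ f i, x * y * x⁻¹ ∈ X) : ∀ y ∈ ⨆ i, f i, x * y * x⁻¹ ∈ X := by
  have h1 : (⨆ i, f i) ≤ X.comap (MulAut.conj x).toMonoidHom := iSup_le fun i y hy => h i y hy
  exact fun y hy => h1 hy

theorem TO_normal (ht : Trans H (H ⊓ MulAction.stabilizer F i₀) t) (k : ℕ) :
    ∀ x ∈ H, ∀ y ∈ TO C H i₀ t k, x * y * x⁻¹ ∈ TO C H i₀ t k := by
  intro x hx
  refine conj_iSup fun S y hy => QO_le_TO ?_ (QO_conj ht hx hy)
  rw [Finset.card_image_of_injective _ (permT ht x hx).injective]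
  exact S.2

omit [DecidableEq Ω] in
theorem TO_card : TO C H i₀ t (Fintype.card Ω) ≤ QO C H i₀ t Finset.univ := by
  refine iSup_le fun S => ?_
  have h : S.1 = Finset.univ := by
    rw [← Finset.card_eq_iff_eq_univ]
    exact le_antisymm (Finset.card_le_univ _) S.2
  rw [h]

omit [DecidableEq Ω] in
theorem QO_univ_le (ht : Trans H (H ⊓ MulAction.stabilizer F i₀) t) :
    QO C H i₀ t Finset.univ ≤ NO C H i₀ := by
  intro x hx
  rw [mem_QO] at hx
  rw [mem_NO]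
  refine ⟨fun y hy => ?_, PO_le hx.2⟩
  obtain ⟨c, hc, -⟩ := ht.uniq y hy
  have h1 : y • i₀ = t c • i₀ := by
    have h2 := (Subgroup.mem_inf.1 hc).2
    rw [MulAction.mem_stabilizer_iff, mul_smul, inv_smul_eq_iff] at h2
    exact h2
  rw [h1]
  exact hx.1 c (Finset.mem_univ c)

theorem stab_index_ne_zero [Finite I] (i : I) : (MulAction.stabilizer F i).index ≠ 0 := by
  rw [MulAction.index_stabilizer]
  exact ((Set.ncard_pos (Set.toFinite _)).2 ⟨i, MulAction.mem_orbit_self i⟩).ne'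

omit [DecidableEq Ω] in
theorem PO_index [Finite I] (hH : H.index ≠ 0) : (PO H i₀ t).index ≠ 0 := by
  have h1 : (PO H i₀ t).relIndex ⊤ ≠ 0 := by
    refine Subgroup.relIndex_inf_ne_zero (Subgroup.relIndex_iInf_ne_zero fun c => ?_) ?_
    · rw [Subgroup.relIndex_top_right]
      exact stab_index_ne_zero _
    · rwa [Subgroup.relIndex_top_right]
  rwa [Subgroup.relIndex_top_right] at h1

omit [DecidableEq Ω] in
theorem sup_QO_index [Finite I] (ht : Trans H (H ⊓ MulAction.stabilizer F i₀) t)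
    (hH : H.index ≠ 0) {c c' : Ω} (hc : c ≠ c') :
    (QO C H i₀ t {c} ⊔ QO C H i₀ t {c'}).index ≠ 0 := by
  have hPi : (PO H i₀ t).normalCore.index ≠ 0 := by
    have : (PO H i₀ t).FiniteIndex := ⟨PO_index hH⟩
    exact Subgroup.FiniteIndex.index_ne_zero
  have h1 := relIndex_sup_ne_zero (P := (PO H i₀ t).normalCore)
    (A := C.N (t c • i₀) ⊓ MulAction.stabilizer F (t c' • i₀)) (B := C.N (t c' • i₀)) hPi
    (fun a ha b hb => by
      have h2 := C.hN a (t c' • i₀) b hb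
      rwa [MulAction.mem_stabilizer_iff.1 (Subgroup.mem_inf.1 ha).2] at h2)
  have h2 := C.hfi (t c • i₀) (t c' • i₀) (fun h => hc (pt_injective ht h))
    ⟨t c' * (t c)⁻¹, by
      change (t c' * (t c)⁻¹) • t c • i₀ = t c' • i₀
      rw [mul_smul, inv_smul_smul]⟩
  have h3 : (MulAction.stabilizer F (t c' • i₀)).relIndex ⊤ ≠ 0 := by
    rw [Subgroup.relIndex_top_right]
    exact stab_index_ne_zero _
  have h4 := Subgroup.relIndex_ne_zero_trans (Subgroup.relIndex_ne_zero_trans h1 h2) h3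
  intro h5
  rw [← Subgroup.relIndex_top_right] at h5
  refine h4 (Subgroup.relIndex_eq_zero_of_le_left ?_ h5)
  refine sup_le_sup ?_ ?_
  · intro x hx
    rw [Subgroup.mem_inf, Subgroup.mem_inf] at hx
    rw [mem_QO]
    refine ⟨fun d hd => ?_, Subgroup.normalCore_le _ hx.2⟩
    rw [Finset.mem_singleton.1 hd]
    exact hx.1.1
  · intro x hx
    rw [Subgroup.mem_inf] at hx
    rw [mem_QO]
    refine ⟨fun d hd => ?_, Subgroup.normalCore_le _ hx.2⟩
    rw [Finset.mem_singleton.1 hd]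
    exact hx.1

end Vale.Agent.P002.H627
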