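import Vale.Agent.P002.H627.T4

/-!
# P002, Theorem T++: virtually solvable or tensor induced
-/

namespace Vale.Agent.P002.H627

open Module Matrix Vale.Agent.P002.H2 Vale.Agent.P002.H377 commutatorElement

variable {F : Type} [Group F] {I : Type} [MulAction F I] {C : Ctx F I} {H : Subgroup F} {i₀ : I}
  {Ω : Type} [Fintype Ω] [DecidableEq Ω] {t : Ω → F}
  {V : Type} [AddCommGroup V] [Module ℂ V] {ρ : F → Module.End ℂ V}

theorem chain_T (hd : Dich H ρ) (ht : Trans H (H ⊓ MulAction.stabilizer F i₀) t) (k : ℕ) :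
    Scal (TO C H i₀ t k) ρ → Scal (TO C H i₀ t 0) ρ ∨
      ∃ j, j < k ∧ Irr (TO C H i₀ t j) ρ ∧ Scal (TO C H i₀ t (j + 1)) ρ := by
  induction k with
  | zero => exact fun h => Or.inl h
  | succ k ih =>
    intro h
    rcases hd (TO C H i₀ t k) TO_le (TO_normal ht k) with h1 | h1
    · rcases ih h1 with h2 | ⟨j, hj, h2⟩
      · exact Or.inl h2
      · exact Or.inr ⟨j, by omega, h2⟩
    · exact Or.inr ⟨k, by omega, h1, h⟩

omit [Fintype Ω] [DecidableEq Ω] in
theorem scal_mono {A B : Subgroup F} (h : Scal B ρ) (hAB : A ≤ B) : Scal A ρ :=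
  fun x hx => h x (hAB hx)

theorem relIndex_of_index {A B : Subgroup F} (hAB : A ≤ B) (h : A.index ≠ 0) :
    A.relIndex B ≠ 0 := by
  intro h0
  rw [← Subgroup.relIndex_mul_index hAB, h0, zero_mul] at h
  exact h rfl

omit [DecidableEq Ω] in
theorem case_zero [Finite I] (hρ : MulOn H ρ) (hH : H.index ≠ 0)
    (h : Scal (TO C H i₀ t 0) ρ) : VS H ρ := by
  refine vs_of_projFin hρ (ProjFin.of_fi (ProjFin.of_scal (A := PO H i₀ t) ?_) PO_le
    (relIndex_of_index PO_le (PO_index hH)))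
  refine scal_mono h ?_
  rw [← QO_empty (C := C)]
  exact QO_le_TO (Nat.zero_le _)

theorem case_low [FiniteDimensional ℂ V] [Finite I] (hρ : MulOn H ρ) (hH : H.index ≠ 0)
    (ht : Trans H (H ⊓ MulAction.stabilizer F i₀) t) {j : ℕ} (hj : j + 2 ≤ Fintype.card Ω)
    (h1 : Irr (TO C H i₀ t j) ρ) (h2 : Scal (TO C H i₀ t (j + 1)) ρ) : VS H ρ := by
  classical
  have hZ := scF_normal hρ
  have h3 : TO C H i₀ t (j + 1) ≤ scF hρ := le_scF TO_le h2
  let B₀ : Subgroup F := (⨅ p : {p : Ω × Ω // p.1 ≠ p.2},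
    (QO C H i₀ t {p.1.1} ⊔ QO C H i₀ t {p.1.2})) ⊓ PO H i₀ t
  have hB₀ : B₀.index ≠ 0 := by
    rw [← Subgroup.relIndex_top_right]
    refine Subgroup.relIndex_inf_ne_zero (Subgroup.relIndex_iInf_ne_zero fun p => ?_) ?_
    · rw [Subgroup.relIndex_top_right]
      exact sup_QO_index ht hH p.2
    · rw [Subgroup.relIndex_top_right]
      exact PO_index hH
  have hB₀f : B₀.FiniteIndex := ⟨hB₀⟩
  have hB₁ : B₀.normalCore.index ≠ 0 := Subgroup.FiniteIndex.index_ne_zero
  have hB₁H : B₀.normalCore ≤ H := (Subgroup.normalCore_le _).trans (inf_le_right.trans PO_le)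
  have hcen : TO C H i₀ t j ≤ cen H (scF hρ) hZ B₀.normalCore := by
    refine iSup_le fun S => ?_
    rcases Nat.lt_or_ge j S.1.card with hS | hS
    · exact cen_of_le QO_le hB₁H ((QO_le_TO hS).trans h3)
    · have hSj : S.1.card = j := le_antisymm hS S.2
      have h4 : 1 < (S.1ᶜ).card := by
        rw [Finset.card_compl]
        omega
      obtain ⟨c, hc, c', hc', hcc⟩ := Finset.one_lt_card.1 h4
      rw [Finset.mem_compl] at hc hc'
      have h5 : ∀ d, d ∉ S.1 → QO C H i₀ t {d} ≤ cen H (scF hρ) hZ (QO C H i₀ t S.1) := by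
        intro d hd e he
        refine ⟨QO_le he, fun q hq => h3 (QO_le_TO ?_ (QO_comm he hq))⟩
        rw [Finset.card_union_of_disjoint (Finset.disjoint_singleton_left.2 hd),
          Finset.card_singleton]
        omega
      refine cen_symm QO_le ?_
      refine le_trans ?_ (sup_le (h5 c hc) (h5 c' hc'))
      refine (Subgroup.normalCore_le _).trans (inf_le_left.trans ?_)
      exact iInf_le (fun p : {p : Ω × Ω // p.1 ≠ p.2} =>
        (QO C H i₀ t {p.1.1} ⊔ QO C H i₀ t {p.1.2})) ⟨(c, c'), hcc⟩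
  have h4 : ProjFin B₀.normalCore ρ := PA3a H (TO C H i₀ t j) B₀.normalCore TO_le hB₁H ρ hρ
    (TO_normal ht j) (fun x _ y hy => (Subgroup.normalCore_normal B₀).conj_mem y hy x) h1
    (ProjFin.of_scal (scal_of_le (commutator_le_of_cen hcen)))
  exact vs_of_projFin hρ (h4.of_fi hB₁H (relIndex_of_index hB₁H hB₁))

variable (C H t i₀) in
/-- the commutator subgroups -/
def DO (c : Ω) : Subgroup F :=
  ⁅QO C H i₀ t (Finset.univ.erase c), QO C H i₀ t (Finset.univ.erase c)⁆

theorem DO_le_QO (c : Ω) : DO C H i₀ t c ≤ QO C H i₀ t (Finset.univ.erase c) := by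
  unfold DO
  rw [Subgroup.commutator_le]
  intro a ha b hb
  exact Subgroup.mul_mem _ (Subgroup.mul_mem _ (Subgroup.mul_mem _ ha hb)
    (Subgroup.inv_mem _ ha)) (Subgroup.inv_mem _ hb)

theorem DO_le (c : Ω) : DO C H i₀ t c ≤ H := (DO_le_QO c).trans QO_le

theorem QO_erase_conj (ht : Trans H (H ⊓ MulAction.stabilizer F i₀) t) {x y : F} (hx : x ∈ H)
    {c : Ω} (hy : y ∈ QO C H i₀ t (Finset.univ.erase c)) :
    x * y * x⁻¹ ∈ QO C H i₀ t (Finset.univ.erase (permT ht x hx c)) := by
  have h := QO_conj ht hx hy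
  have h1 : (Finset.univ.erase c).image (permT ht x hx) =
      Finset.univ.erase (permT ht x hx c) := by
    ext d
    rw [Finset.mem_image, Finset.mem_erase]
    constructor
    · rintro ⟨c', hc', rfl⟩
      exact ⟨fun h => (Finset.mem_erase.1 hc').1 ((permT ht x hx).injective h),
        Finset.mem_univ _⟩
    · rintro ⟨hd, -⟩
      refine ⟨(permT ht x hx).symm d, Finset.mem_erase.2 ⟨fun h => hd ?_, Finset.mem_univ _⟩,
        Equiv.apply_symm_apply _ _⟩
      rw [← h, Equiv.apply_symm_apply]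
  rwa [h1] at h

theorem DO_conj (ht : Trans H (H ⊓ MulAction.stabilizer F i₀) t) {x : F} (hx : x ∈ H) (c : Ω) :
    ∀ y ∈ DO C H i₀ t c, x * y * x⁻¹ ∈ DO C H i₀ t (permT ht x hx c) := by
  have h1 : DO C H i₀ t c ≤ (DO C H i₀ t (permT ht x hx c)).comap
      (MulAut.conj x).toMonoidHom := by
    unfold DO
    rw [Subgroup.commutator_le]
    intro a ha b hb
    have h2 := Subgroup.commutator_mem_commutator (QO_erase_conj ht hx ha)
      (QO_erase_conj ht hx hb)
    rw [Subgroup.mem_comap]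
    have h3 : (MulAut.conj x).toMonoidHom ⁅a, b⁆ = ⁅x * a * x⁻¹, x * b * x⁻¹⁆ := by
      rw [commutatorElement_def, commutatorElement_def]
      change x * (a * b * a⁻¹ * b⁻¹) * x⁻¹ = _
      group
    rw [h3]
    exact h2
  exact fun y hy => h1 hy

theorem QO_union_univ {c c' : Ω} (h : c ≠ c') :
    (Finset.univ.erase c : Finset Ω) ∪ Finset.univ.erase c' = Finset.univ := by
  ext d
  simp only [Finset.mem_union, Finset.mem_erase, Finset.mem_univ, and_true, iff_true]
  by_cases hd : d = c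
  · right
    rw [hd]
    exact h
  · exact Or.inl hd

/-- **The orbit dichotomy.** -/
theorem vs_or_tensor [FiniteDimensional ℂ V] [Finite I] {N₀ : ℕ} (h : Adm C N₀ H ρ)
    (hd : Dich H ρ) (ht : Trans H (H ⊓ MulAction.stabilizer F i₀) t)
    (hs : Scal (NO C H i₀) ρ) :
    VS H ρ ∨ (Irr (⨆ c, DO C H i₀ t c) ρ ∧
      (∀ c c', c ≠ c' → ∀ x ∈ DO C H i₀ t c, ∀ y ∈ DO C H i₀ t c', ρ x * ρ y = ρ y * ρ x) ∧
      (∀ c, ∀ x ∈ C.N (t c • i₀) ⊓ H, ∀ y ∈ DO C H i₀ t c, ρ x * ρ y = ρ y * ρ x)) := by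
  classical
  have hZ := scF_normal h.mul
  have hne : Nonempty Ω := ⟨(ht.uniq 1 H.one_mem).choose⟩
  have hu : QO C H i₀ t Finset.univ ≤ scF h.mul :=
    (QO_univ_le ht).trans (le_scF inf_le_right hs)
  rcases chain_T hd ht (Fintype.card Ω) (scal_of_le (TO_card.trans hu)) with h1 | ⟨j, hj, h1, h2⟩
  · exact Or.inl (case_zero h.mul h.fi h1)
  rcases Nat.lt_or_ge (j + 1) (Fintype.card Ω) with hj2 | hj2
  · exact Or.inl (case_low h.mul h.fi ht hj2 h1 h2)
  have hjn : j + 1 = Fintype.card Ω := by omega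
  have hDn : ∀ x ∈ H, ∀ y ∈ ⨆ c, DO C H i₀ t c, x * y * x⁻¹ ∈ ⨆ c, DO C H i₀ t c := by
    intro x hx
    exact conj_iSup fun c y hy => (le_iSup (fun c => DO C H i₀ t c) _) (DO_conj ht hx c y hy)
  rcases hd (⨆ c, DO C H i₀ t c) (iSup_le fun c => DO_le c) hDn with h3 | h3
  · -- the scalar case
    left
    have hDZ : (⨆ c, DO C H i₀ t c) ≤ scF h.mul := le_scF (iSup_le fun c => DO_le c) h3
    have hTle : TO C H i₀ t j ≤ ⨆ c, QO C H i₀ t (Finset.univ.erase c) := by
      refine iSup_le fun S => ?_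
      have : ∃ c, Finset.univ.erase c ⊆ S.1 := by
        by_cases hS : S.1 = Finset.univ
        · exact ⟨Classical.arbitrary Ω, by rw [hS]; exact Finset.subset_univ _⟩
        · obtain ⟨c, hc⟩ : ∃ c, c ∉ S.1 := by
            by_contra hcon
            push Not at hcon
            exact hS (Finset.eq_univ_iff_forall.2 hcon)
          refine ⟨c, ?_⟩
          have h4 : S.1 ⊆ Finset.univ.erase c := fun d hd =>
            Finset.mem_erase.2 ⟨fun h5 => hc (h5 ▸ hd), Finset.mem_univ _⟩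
          have h5 : (Finset.univ.erase c).card ≤ S.1.card := by
            rw [Finset.card_erase_of_mem (Finset.mem_univ c), Finset.card_univ]
            have := S.2
            omega
          exact (Finset.eq_of_subset_of_card_le h4 h5).symm.subset
      obtain ⟨c, hc⟩ := this
      exact (QO_mono hc).trans (le_iSup (fun c => QO C H i₀ t (Finset.univ.erase c)) c)
    have hcen : ∀ c c', QO C H i₀ t (Finset.univ.erase c) ≤
        cen H (scF h.mul) hZ (QO C H i₀ t (Finset.univ.erase c')) := by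
      intro c c' e he
      refine ⟨QO_le he, fun q hq => ?_⟩
      by_cases hcc : c = c'
      · subst hcc
        exact hDZ ((le_iSup (fun c => DO C H i₀ t c) c)
          (Subgroup.commutator_mem_commutator he hq))
      · have h4 := QO_comm he hq
        rw [QO_union_univ hcc] at h4
        exact hu h4
    have hcen2 : (⨆ c, QO C H i₀ t (Finset.univ.erase c)) ≤
        cen H (scF h.mul) hZ (⨆ c, QO C H i₀ t (Finset.univ.erase c)) :=
      iSup_le fun c' => cen_symm QO_le (iSup_le fun c => hcen c c')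
    have h4 : VS (⨆ c, QO C H i₀ t (Finset.univ.erase c)) ρ := by
      refine ⟨_, le_rfl, by rw [Subgroup.relIndex_self]; exact one_ne_zero, 2, ?_⟩
      have h5 : dser (⨆ c, QO C H i₀ t (Finset.univ.erase c)) 1 ≤ scF h.mul :=
        commutator_le_of_cen hcen2
      exact comm_eq_one h.mul (h5.trans fun x hx => (mem_scF.1 hx).1)
        (h5.trans fun x hx => (mem_scF.1 hx).1)
        fun a ha b _ => scal_comm (mem_scF.1 (h5 ha)).2
    exact PA3b H _ TO_le ρ h.mul (TO_normal ht j) h1 (h4.mono hTle)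
  · right
    refine ⟨h3, fun c c' hcc x hx => ?_, fun c x hx => ?_⟩
    · refine comm_exact h.mul QO_le (DO_le c hx) fun m hm => ?_
      have h4 := QO_comm (DO_le_QO c hx) hm
      rw [QO_union_univ hcc] at h4
      exact hu h4
    · rw [Subgroup.mem_inf] at hx
      refine comm_exact h.mul QO_le hx.2 fun m hm => hu ?_
      rw [mem_QO]
      have hxc : permT ht x hx.2 c = c := by
        have h5 := smul_pt ht hx.2 c
        rw [MulAction.mem_stabilizer_iff.1 (C.hst _ hx.1)] at h5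
        exact (pt_injective ht h5).symm
      have h6 := QO_erase_conj ht hx.2 hm
      rw [hxc] at h6
      have h7 := Subgroup.mul_mem _ h6 (Subgroup.inv_mem _ hm)
      have h8 := mem_QO.1 h7
      refine ⟨fun d _ => ?_, h8.2⟩
      by_cases hdc : d = c
      · rw [hdc, mul_assoc, mul_assoc, ← mul_assoc m]
        exact Subgroup.mul_mem _ hx.1 (conj_mem_N (QO_le_PO hm) c (Subgroup.inv_mem _ hx.1))
      · exact h8.1 d (Finset.mem_erase.2 ⟨hdc, Finset.mem_univ _⟩)

end Vale.Agent.P002.H627
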