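import Vale.Agent.P002.H627.T1
import Vale.Agent.P002.H627.T2
import Vale.Agent.P002.H627.T5
import Vale.Agent.P002.H627.S4
import Vale.Agent.P002.H377.TInd

/-!
# P002, Theorem T++: the tensor induced case
-/

namespace Vale.Agent.P002.H627

open Module Matrix Kronecker Vale.Agent.P002.H2 Vale.Agent.P002.H377

section alg

variable {V : Type} [AddCommGroup V] [Module ℂ V] {a b : ℕ}

/-- the action on the first tensor factor -/
noncomputable def phi0 (e : (Fin a × Fin b → ℂ) ≃ₗ[ℂ] V) :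
    Matrix (Fin a) (Fin a) ℂ →ₐ[ℂ] Module.End ℂ V where
  toFun A := e.toLinearMap ∘ₗ Matrix.toLin' (A ⊗ₖ (1 : Matrix (Fin b) (Fin b) ℂ)) ∘ₗ
    e.symm.toLinearMap
  map_one' := by
    rw [Matrix.one_kronecker_one, Matrix.toLin'_one]
    refine LinearMap.ext fun v => ?_
    simp
  map_mul' A A' := by
    refine LinearMap.ext fun v => ?_
    have h : (A * A') ⊗ₖ (1 : Matrix (Fin b) (Fin b) ℂ) = (A ⊗ₖ 1) * (A' ⊗ₖ 1) := by
      rw [← Matrix.mul_kronecker_mul, mul_one]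
    rw [h, Matrix.toLin'_mul]
    simp
  map_zero' := by
    rw [Matrix.zero_kronecker, map_zero]
    refine LinearMap.ext fun v => ?_
    simp
  map_add' A A' := by
    rw [Matrix.add_kronecker, map_add]
    refine LinearMap.ext fun v => ?_
    simp
  commutes' r := by
    rw [Algebra.algebraMap_eq_smul_one, Matrix.smul_kronecker, Matrix.one_kronecker_one, map_smul,
      Matrix.toLin'_one]
    refine LinearMap.ext fun v => ?_
    simp [Algebra.algebraMap_eq_smul_one]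

theorem phi0_apply (e : (Fin a × Fin b → ℂ) ≃ₗ[ℂ] V) (A : Matrix (Fin a) (Fin a) ℂ)
    (v : Fin a × Fin b → ℂ) :
    phi0 e A (e v) = e ((A ⊗ₖ (1 : Matrix (Fin b) (Fin b) ℂ)) *ᵥ v) := by
  change e (Matrix.toLin' _ (e.symm (e v))) = _
  rw [LinearEquiv.symm_apply_apply, Matrix.toLin'_apply]

/-- conjugation of an action -/
def conjA {R : Type*} [Ring R] [Algebra ℂ R] {T T' : Module.End ℂ V} (h1 : T * T' = 1)
    (h2 : T' * T = 1) (f : R →ₐ[ℂ] Module.End ℂ V) : R →ₐ[ℂ] Module.End ℂ V where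
  toFun x := T * f x * T'
  map_one' := by rw [map_one, mul_one, h1]
  map_mul' x y := by
    rw [map_mul]
    calc T * (f x * f y) * T' = T * f x * 1 * f y * T' := by rw [mul_one, ← mul_assoc]
      _ = T * f x * (T' * T) * f y * T' := by rw [h2]
      _ = T * f x * T' * (T * f y * T') := by simp only [mul_assoc]
  map_zero' := by rw [map_zero, mul_zero, zero_mul]
  map_add' x y := by rw [map_add, mul_add, add_mul]
  commutes' r := by
    rw [AlgHom.commutes, Algebra.algebraMap_eq_smul_one, mul_smul_comm, mul_one, smul_mul_assoc, h1]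

theorem conjA_apply {R : Type*} [Ring R] [Algebra ℂ R] {T T' : Module.End ℂ V} (h1 : T * T' = 1)
    (h2 : T' * T = 1) (f : R →ₐ[ℂ] Module.End ℂ V) (x : R) : conjA h1 h2 f x = T * f x * T' := rfl

theorem eq_of_apply_e {n : Type*} {e : (n → ℂ) ≃ₗ[ℂ] V} {T T' : Module.End ℂ V}
    (h : ∀ v, T (e v) = T' (e v)) : T = T' := LinearMap.ext fun w => by
  have := h (e.symm w)
  rwa [e.apply_symm_apply] at this

/-- Schur's lemma for a set of operators -/
theorem schur_set [FiniteDimensional ℂ V] [Nontrivial V] {S : Set (Module.End ℂ V)}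
    (hirr : ∀ U : Submodule ℂ V, (∀ X ∈ S, ∀ v ∈ U, X v ∈ U) → U = ⊥ ∨ U = ⊤)
    (T : Module.End ℂ V) (hT : ∀ X ∈ S, T * X = X * T) : ∃ c : ℂ, T = c • 1 := by
  obtain ⟨c, hc⟩ := Module.End.exists_eigenvalue T
  refine ⟨c, ?_⟩
  rcases hirr (T.eigenspace c) fun X hX v hv => by
    rw [Module.End.mem_eigenspace_iff] at hv ⊢
    rw [← Module.End.mul_apply, hT X hX, Module.End.mul_apply, hv, map_smul] with h1 | h1
  · exact absurd h1 hc
  · refine LinearMap.ext fun v => ?_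
    have h2 : v ∈ T.eigenspace c := by rw [h1]; trivial
    rw [Module.End.mem_eigenspace_iff] at h2
    rw [h2]
    rfl

theorem scal_of_kron_one {m k : Type} [Fintype m] [DecidableEq m] [Fintype k] [DecidableEq k]
    [Nonempty k] {A : Matrix m m ℂ} {B B' : Matrix k k ℂ} (hB : IsUnit B)
    (h : A ⊗ₖ B = (1 : Matrix m m ℂ) ⊗ₖ B') : ∃ c : ℂ, A = c • (1 : Matrix m m ℂ) := by
  have hB0 : B ≠ 0 := by
    rintro rfl
    exact not_isUnit_zero hB
  obtain ⟨j, l, hjl⟩ : ∃ j l, B j l ≠ 0 := by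
    by_contra hcon
    push Not at hcon
    exact hB0 (Matrix.ext hcon)
  refine ⟨B' j l / B j l, ?_⟩
  ext i i'
  have h1 := congrFun (congrFun h (i, j)) (i', l)
  rw [kroneckerMap_apply, kroneckerMap_apply] at h1
  rw [Matrix.smul_apply, smul_eq_mul, div_mul_eq_mul_div, eq_div_iff hjl, h1, mul_comm]

theorem mul_le_pow_of {n a : ℕ} (ha : 2 ≤ a) (hn : 1 ≤ n) : n * a ≤ a ^ n := by
  induction n, hn using Nat.le_induction with
  | base => simp
  | succ n hn ih =>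
    calc (n + 1) * a ≤ (n * 2) * a := by gcongr; omega
      _ = 2 * (n * a) := by ring
      _ ≤ a * (n * a) := by gcongr
      _ ≤ a * a ^ n := by gcongr
      _ = a ^ (n + 1) := by ring

end alg

section

variable {F : Type} [Group F] {V : Type} [AddCommGroup V] [Module ℂ V]

theorem inv_of_iSup {Ω : Type*} {H : Subgroup F} {ρ : F → Module.End ℂ V} (hρ : MulOn H ρ)
    {D : Ω → Subgroup F} (hD : ∀ c, D c ≤ H) {U : Submodule ℂ V}
    (h : ∀ c, ∀ x ∈ D c, ∀ v ∈ U, ρ x v ∈ U) : ∀ x ∈ ⨆ c, D c, ∀ v ∈ U, ρ x v ∈ U := by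
  intro x hx
  have key : x ∈ H ∧ ∀ v ∈ U, ρ x v ∈ U := by
    refine Subgroup.iSup_induction D (C := fun x => x ∈ H ∧ ∀ v ∈ U, ρ x v ∈ U) hx
      (fun c x hx => ⟨hD c hx, h c x hx⟩) ⟨H.one_mem, fun v hv => ?_⟩ ?_
    · rw [hρ.one]
      exact hv
    · rintro x y ⟨hx, hxU⟩ ⟨hy, hyU⟩
      refine ⟨H.mul_mem hx hy, fun v hv => ?_⟩
      rw [hρ.mul x hx y hy]
      exact hxU _ (hyU v hv)
  exact key.2

variable {n : Type} [Fintype n] [DecidableEq n]

theorem exists_mat' {H : Subgroup F} {ρ : F → Module.End ℂ V}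
    (hρ : MulOn H ρ) (E : (n → ℂ) ≃ₗ[ℂ] V) :
    ∃ α : F → (Matrix n n ℂ)ˣ, MulOn H α ∧ ∀ x ∈ H, ∀ v, ρ x (E v) = E ((α x).1 *ᵥ v) := by
  let f : H →* Matrix n n ℂ :=
    { toFun := fun x => LinearMap.toMatrix' (E.symm.toLinearMap ∘ₗ ρ x ∘ₗ E.toLinearMap)
      map_one' := by
        have h : E.symm.toLinearMap ∘ₗ ρ (1 : H) ∘ₗ E.toLinearMap = LinearMap.id := by
          refine LinearMap.ext fun v => ?_
          simp [hρ.one]
        rw [h, LinearMap.toMatrix'_id]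
      map_mul' := fun x y => by
        rw [← LinearMap.toMatrix'_comp]
        congr 1
        refine LinearMap.ext fun v => ?_
        simp [hρ.mul x.1 x.2 y.1 y.2] }
  refine ⟨ext1 f.toHomUnits, ext1_mulOn _, fun x hx v => ?_⟩
  rw [ext1_apply _ hx, MonoidHom.coe_toHomUnits]
  change _ = E (LinearMap.toMatrix' (E.symm.toLinearMap ∘ₗ ρ x ∘ₗ E.toLinearMap) *ᵥ v)
  rw [LinearMap.toMatrix'_mulVec]
  simp

variable {I : Type} [MulAction F I]

theorem good_of_sim' {C : Ctx F I} {L : IntermediateField ℚ ℂ} {H : Subgroup F}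
    {ρ : F → Module.End ℂ V} {e : (n → ℂ) ≃ₗ[ℂ] V} {χ : F → ℂˣ}
    {σ : F → SpecialLinearGroup n ℂ} (h : Sim H ρ e χ σ) (hρ : MulOn H ρ) (hZ : C.Z ≤ H)
    (hD : D C L H σ) : Good C L H ρ := by
  let ε := Fintype.equivFin n
  refine good_of_sim (e := (LinearEquiv.funCongrLeft ℂ ℂ ε).trans e) (χ := χ)
    (σ := fun x => reidx ε (σ x)) ⟨h.mχ, ?_, fun x hx v => ?_⟩ hρ hZ (hD.reidx ε)
  · refine ⟨by rw [h.mσ.one, reidx_one], fun x hx y hy => ?_⟩
    rw [h.mσ.mul x hx y hy, reidx_mul]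
  · change ρ x (e (v ∘ ε)) = (χ x : ℂ) • e (((reidx ε (σ x)).1 *ᵥ v) ∘ ε)
    rw [h.eq x hx]
    congr 2
    change _ = (((σ x).1.submatrix ε.symm ε.symm) *ᵥ v) ∘ ε
    rw [Matrix.submatrix_mulVec_equiv]
    funext p
    simp

end

end Vale.Agent.P002.H627
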