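import Vale.Agent.P002.H627.Cliff

/-!
# P002, Theorem T: Clifford theory, the isotypic case
-/

namespace Vale.Agent.P002.H627

open Module Matrix Kronecker

variable {G : Type*} [Group G] {V : Type*} [AddCommGroup V] [Module ℂ V]

/-- operators `S → V` commuting with `N` -/
def HomN (ρ : G →* End ℂ V) (N : Subgroup G) (S : Submodule ℂ V) (hS : Inv ρ N S) :
    Submodule ℂ (S →ₗ[ℂ] V) where
  carrier := {T | ∀ (n : N) (s : S), T (restr ρ S N hS n s) = ρ n.1 (T s)}
  zero_mem' n s := by simp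
  add_mem' {T T'} hT hT' n s := by
    rw [LinearMap.add_apply, LinearMap.add_apply, hT, hT', map_add]
  smul_mem' c T hT n s := by
    rw [LinearMap.smul_apply, LinearMap.smul_apply, hT, map_smul]

theorem mem_homN {ρ : G →* End ℂ V} {N : Subgroup G} {S : Submodule ℂ V} {hS : Inv ρ N S}
    {T : S →ₗ[ℂ] V} : T ∈ HomN ρ N S hS ↔
      ∀ (n : N) (s : S), T (restr ρ S N hS n s) = ρ n.1 (T s) := Iff.rfl

/-- the minimal invariant subspaces are irreducible -/
theorem irrOn_restr {ρ : G →* End ℂ V} {N : Subgroup G} {S : Submodule ℂ V}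
    (h : Mini (Inv ρ N) S) : IrrOn (restr ρ S N h.1.2) ⊤ := by
  intro U hU
  by_cases hU0 : U = ⊥
  · exact Or.inl hU0
  right
  have h1 := h.2 (U.map S.subtype) (fun h0 => hU0 (eq_bot_of_map S.subtype_injective h0))
    (by
      rintro n hn _ ⟨u, hu, rfl⟩
      exact ⟨_, hU ⟨n, hn⟩ trivial u hu, rfl⟩) (Submodule.map_subtype_le S U)
  rw [eq_top_iff]
  intro v _
  have h3 : v.1 ∈ U.map S.subtype := by rw [h1]; exact v.2
  obtain ⟨u, hu, huv⟩ := h3
  rwa [← Subtype.ext huv]

section

variable [FiniteDimensional ℂ V] {ρ : G →* End ℂ V} {N : Subgroup G} {S : Submodule ℂ V}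

theorem homN_indep (hS : Inv ρ N S) (hirr : IrrOn (restr ρ S N hS) ⊤) {ι : Type*}
    (T : ι → (S →ₗ[ℂ] V)) (hT : ∀ i, T i ∈ HomN ρ N S hS) (hli : LinearIndependent ℂ T)
    (s : Finset ι) : ∀ v : ι → S, ∑ j ∈ s, T j (v j) = 0 → ∀ j ∈ s, v j = 0 := by
  classical
  induction s using Finset.induction_on with
  | empty => intro v _ j hj; simp at hj
  | insert k s hk ih =>
    let U : Submodule ℂ S :=
      { carrier := {u | ∃ w : ι → S, T k u + ∑ j ∈ s, T j (w j) = 0}
        zero_mem' := ⟨0, by simp⟩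
        add_mem' := by
          rintro u u' ⟨w, hw⟩ ⟨w', hw'⟩
          refine ⟨w + w', ?_⟩
          simp only [Pi.add_apply, map_add, Finset.sum_add_distrib]
          rw [add_add_add_comm, hw, hw', add_zero]
        smul_mem' := by
          rintro c u ⟨w, hw⟩
          refine ⟨c • w, ?_⟩
          simp only [Pi.smul_apply, map_smul]
          rw [← Finset.smul_sum, ← smul_add, hw, smul_zero] }
    have hUinv : ∀ n ∈ (⊤ : Subgroup N), ∀ u ∈ U, restr ρ S N hS n u ∈ U := by
      rintro n - u ⟨w, hw⟩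
      refine ⟨fun j => restr ρ S N hS n (w j), ?_⟩
      rw [hT k n u, Finset.sum_congr rfl fun j _ => hT j n (w j), ← map_sum, ← map_add, hw,
        map_zero]
    intro v hv
    rw [Finset.sum_insert hk] at hv
    rcases hirr U hUinv with hU | hU
    · have h1 : v k ∈ U := ⟨v, hv⟩
      rw [hU, Submodule.mem_bot] at h1
      rw [h1, map_zero, zero_add] at hv
      intro j hj
      rcases Finset.mem_insert.1 hj with rfl | hj
      · exact h1
      · exact ih v hv j hj
    · exfalso
      have h1 : ∀ u : S, ∃ w : ι → S, T k u + ∑ j ∈ s, T j (w j) = 0 := fun u => by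
        have : u ∈ U := by rw [hU]; trivial
        exact this
      choose w hw using h1
      -- uniqueness
      have huniq : ∀ (u : S) (w' : ι → S), T k u + ∑ j ∈ s, T j (w' j) = 0 →
          ∀ j ∈ s, w u j = w' j := by
        intro u w' hw' j hj
        have h2 := ih (fun j => w u j - w' j) (by
          simp only [map_sub, Finset.sum_sub_distrib]
          rw [sub_eq_zero]
          exact add_left_cancel ((hw u).trans hw'.symm)) j hj
        exact sub_eq_zero.1 h2
      have hc : ∀ j, ∃ c : ℂ, j ∈ s → ∀ u, w u j = c • u := by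
        intro j
        by_cases hj : j ∈ s
        · let A : End ℂ S :=
            { toFun := fun u => w u j
              map_add' := fun u u' => huniq (u + u') (w u + w u') (by
                simp only [Pi.add_apply, map_add, Finset.sum_add_distrib]
                rw [add_add_add_comm, hw, hw, add_zero]) j hj
              map_smul' := fun c u => huniq (c • u) (c • w u) (by
                simp only [Pi.smul_apply, map_smul]
                rw [← Finset.smul_sum, ← smul_add, hw, smul_zero]) j hj }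
          obtain ⟨c, hc⟩ := schur hirr A fun n _ => LinearMap.ext fun u =>
            huniq (restr ρ S N hS n u) (fun j => restr ρ S N hS n (w u j)) (by
              rw [hT k n u, Finset.sum_congr rfl fun j _ => hT j n (w u j), ← map_sum, ← map_add,
                hw, map_zero]) j hj
          exact ⟨c, fun _ u => LinearMap.congr_fun hc u⟩
        · exact ⟨0, fun h => absurd h hj⟩
      choose c hc using hc
      have h3 : ∑ j ∈ insert k s, (if j = k then (1 : ℂ) else c j) • T j = 0 := by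
        rw [Finset.sum_insert hk, if_pos rfl, one_smul]
        refine LinearMap.ext fun u => ?_
        rw [LinearMap.add_apply, LinearMap.sum_apply, LinearMap.zero_apply]
        have h4 := hw u
        rw [Finset.sum_congr rfl fun j hj => by rw [hc j hj u, map_smul]] at h4
        rw [← h4]
        congr 1
        refine Finset.sum_congr rfl fun j hj => ?_
        rw [if_neg (fun h : j = k => hk (h ▸ hj)), LinearMap.smul_apply]
      have h5 := linearIndependent_iff'.1 hli (insert k s) _ h3 k (Finset.mem_insert_self _ _)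
      rw [if_pos rfl] at h5
      exact one_ne_zero h5

/-- the isotypic decomposition -/
theorem exists_equiv (hS : Mini (Inv ρ N) S) (hFI : ∀ U, FI ρ N U → U = ⊥ ∨ U = ⊤) :
    ∃ (m : ℕ) (e : (Fin m → S) ≃ₗ[ℂ] V),
      ∀ (n : N) (v : Fin m → S), e (fun j => restr ρ S N hS.1.2 n (v j)) = ρ n.1 (e v) := by
  let b := Module.finBasis ℂ (HomN ρ N S hS.1.2)
  let Φ : (Fin (finrank ℂ (HomN ρ N S hS.1.2)) → S) →ₗ[ℂ] V :=
    ∑ j, (b j).1 ∘ₗ LinearMap.proj j
  have hΦ : ∀ v, Φ v = ∑ j, (b j).1 (v j) := fun v => by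
    simp [Φ, LinearMap.sum_apply]
  have hli : LinearIndependent ℂ fun j => (b j).1 :=
    b.linearIndependent.map' (Submodule.subtype _) (Submodule.ker_subtype _)
  have hinj : Function.Injective Φ := by
    rw [injective_iff_map_eq_zero]
    intro v hv
    rw [hΦ] at hv
    funext j
    exact homN_indep hS.1.2 (irrOn_restr hS) (fun j => (b j).1) (fun j => (b j).2) hli
      Finset.univ v hv j (Finset.mem_univ _)
  have hequi : ∀ (n : N) v, Φ (fun j => restr ρ S N hS.1.2 n (v j)) = ρ n.1 (Φ v) := by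
    intro n v
    rw [hΦ, hΦ, map_sum]
    exact Finset.sum_congr rfl fun j _ => (b j).2 n (v j)
  have hmem : ∀ T ∈ HomN ρ N S hS.1.2, ∀ s, T s ∈ LinearMap.range Φ := by
    intro T hT s
    refine ⟨fun j => b.repr ⟨T, hT⟩ j • s, ?_⟩
    rw [hΦ]
    have h1 := congrArg (fun T : HomN ρ N S hS.1.2 => T.1 s) (b.sum_repr ⟨T, hT⟩)
    simp only at h1
    rw [← h1, Submodule.coe_sum, LinearMap.sum_apply]
    refine Finset.sum_congr rfl fun j _ => ?_
    rw [map_smul]
    rfl
  have hrange : LinearMap.range Φ = ⊤ := by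
    refine (hFI (LinearMap.range Φ) ⟨?_, ?_⟩).resolve_left fun h => ?_
    · rintro n hn _ ⟨v, rfl⟩
      exact ⟨_, hequi ⟨n, hn⟩ v⟩
    · rintro T hT _ ⟨v, rfl⟩
      rw [hΦ, map_sum]
      refine Submodule.sum_mem _ fun j _ => ?_
      refine hmem (T ∘ₗ (b j).1) (fun n s => ?_) (v j)
      rw [LinearMap.comp_apply, (b j).2 n s]
      exact LinearMap.congr_fun (hT n.1 n.2) _
    · refine hS.1.1 (eq_bot_iff.2 fun s hs => ?_)
      have h1 := hmem S.subtype (fun n s => rfl) ⟨s, hs⟩
      rwa [h] at h1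
  exact ⟨_, LinearEquiv.ofBijective Φ ⟨hinj, LinearMap.range_eq_top.1 hrange⟩, hequi⟩

/-- the operators of `G` are pure tensors -/
theorem exists_pure (hS : Mini (Inv ρ N) S) [hN : N.Normal] {m : ℕ} [Nontrivial V]
    (e : (Fin m → S) ≃ₗ[ℂ] V)
    (he : ∀ (n : N) (v : Fin m → S), e (fun j => restr ρ S N hS.1.2 n (v j)) = ρ n.1 (e v))
    (g : G) : ∃ (a : S →ₗ[ℂ] S) (b : Matrix (Fin m) (Fin m) ℂ),
      ∀ v, ρ g (e v) = e fun i => ∑ j, b i j • a (v j) := by
  classical
  let R : End ℂ (Fin m → S) := e.symm.toLinearMap ∘ₗ (ρ g) ∘ₗ e.toLinearMap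
  have hR : ∀ v, e (R v) = ρ g (e v) := fun v => e.apply_symm_apply _
  let r : Fin m → Fin m → S →ₗ[ℂ] S := fun i j =>
    LinearMap.proj i ∘ₗ R ∘ₗ LinearMap.single ℂ (fun _ => S) j
  have hRr : ∀ v i, R v i = ∑ j, r i j (v j) := by
    intro v i
    have h1 : v = ∑ j, LinearMap.single ℂ (fun _ => (S : Type _)) j (v j) := by
      simp only [LinearMap.coe_single]
      exact (Finset.univ_sum_single v).symm
    conv_lhs => rw [h1]
    rw [map_sum, Finset.sum_apply]
    rfl
  have hconj : ∀ n : N, ∃ n' : N, ∀ v, ρ g (ρ n.1 v) = ρ n'.1 (ρ g v) := by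
    intro n
    refine ⟨⟨g * n.1 * g⁻¹, hN.conj_mem _ n.2 g⟩, fun v => ?_⟩
    rw [← Module.End.mul_apply, ← Module.End.mul_apply, ← map_mul, ← map_mul]
    congr 2
    group
  have hconj' : ∀ n : N, ∃ n' : N, ∀ i j s, r i j (restr ρ S N hS.1.2 n s) =
      restr ρ S N hS.1.2 n' (r i j s) := by
    intro n
    obtain ⟨n', hn'⟩ := hconj n
    refine ⟨n', fun i j s => ?_⟩
    have h1 : (LinearMap.single ℂ (fun _ => (S : Type _)) j (restr ρ S N hS.1.2 n s)) =
        fun k => restr ρ S N hS.1.2 n (LinearMap.single ℂ (fun _ => (S : Type _)) j s k) := by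
      funext k
      simp only [LinearMap.coe_single]
      by_cases hk : k = j
      · subst hk
        simp
      · rw [Pi.single_eq_of_ne hk, Pi.single_eq_of_ne hk, map_zero]
    have h2 : R (LinearMap.single ℂ (fun _ => (S : Type _)) j (restr ρ S N hS.1.2 n s)) =
        fun k => restr ρ S N hS.1.2 n' (R (LinearMap.single ℂ (fun _ => (S : Type _)) j s) k) := by
      apply e.injective
      rw [hR, h1, he, hn', he, hR]
    exact congrFun h2 i
  obtain ⟨i₀, j₀, h0⟩ : ∃ i j, r i j ≠ 0 := by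
    by_contra hcon
    push Not at hcon
    obtain ⟨v, hv⟩ := exists_ne (0 : V)
    have h1 : R (e.symm v) = 0 := by
      funext i
      rw [hRr]
      exact Finset.sum_eq_zero fun j _ => by rw [hcon i j]; rfl
    have h2 := hR (e.symm v)
    rw [h1, map_zero, e.apply_symm_apply] at h2
    exact hv (injective ρ g (h2.symm.trans (map_zero (ρ g)).symm))
  have hirr := irrOn_restr hS
  have hker : LinearMap.ker (r i₀ j₀) = ⊥ := by
    refine (hirr (LinearMap.ker (r i₀ j₀)) fun n _ s hs => ?_).resolve_right fun h =>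
      h0 (LinearMap.ker_eq_top.1 h)
    obtain ⟨n', hn'⟩ := hconj' n
    rw [LinearMap.mem_ker] at hs ⊢
    rw [hn', hs, map_zero]
  let a : S ≃ₗ[ℂ] S := LinearEquiv.ofInjectiveEndo (r i₀ j₀) (LinearMap.ker_eq_bot.1 hker)
  have ha : ∀ s, a s = r i₀ j₀ s := fun s => rfl
  have hb : ∀ i j, ∃ c : ℂ, a.symm.toLinearMap ∘ₗ r i j = c • 1 := by
    intro i j
    refine schur (ρ := restr ρ S N hS.1.2) hirr _ fun n _ => LinearMap.ext fun s => ?_
    obtain ⟨n', hn'⟩ := hconj' n
    show a.symm (r i j (restr ρ S N hS.1.2 n s)) = restr ρ S N hS.1.2 n (a.symm (r i j s))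
    rw [LinearEquiv.symm_apply_eq, ha, hn', hn', ← ha, LinearEquiv.apply_symm_apply]
  choose b hb using hb
  refine ⟨a.toLinearMap, fun i j => b i j, fun v => ?_⟩
  rw [← hR]
  congr 1
  funext i
  rw [hRr]
  refine Finset.sum_congr rfl fun j _ => ?_
  have h1 := LinearMap.congr_fun (hb i j) (v j)
  have h2 : a.symm (r i j (v j)) = b i j • v j := h1
  rw [LinearEquiv.symm_apply_eq, map_smul] at h2
  exact h2

/-- the dimensions of the tensor factors -/
theorem finrank_eq {m : ℕ} (e : (Fin m → S) ≃ₗ[ℂ] V) : finrank ℂ V = m * finrank ℂ S := by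
  rw [← e.finrank_eq, Module.finrank_pi_fintype]
  simp

/-- the operators of `G` are tensor products of matrices -/
theorem exists_kron (hS : Mini (Inv ρ N) S) [hN : N.Normal] {m : ℕ} [Nontrivial V]
    (e : (Fin m → S) ≃ₗ[ℂ] V)
    (he : ∀ (n : N) (v : Fin m → S), e (fun j => restr ρ S N hS.1.2 n (v j)) = ρ n.1 (e v)) :
    ∃ (e' : (Fin (finrank ℂ S) × Fin m → ℂ) ≃ₗ[ℂ] V), ∀ g : G,
      ∃ (A : (Matrix (Fin (finrank ℂ S)) (Fin (finrank ℂ S)) ℂ)ˣ)
        (B : (Matrix (Fin m) (Fin m) ℂ)ˣ), ∀ v, ρ g (e' v) = e' ((A.1 ⊗ₖ B.1) *ᵥ v) := by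
  classical
  have hV : 0 < finrank ℂ V := finrank_pos
  have hnm := finrank_eq e
  have hm : 0 < m := Nat.pos_of_ne_zero fun h => by
    rw [h, zero_mul] at hnm
    omega
  have hn : 0 < finrank ℂ S := Nat.pos_of_ne_zero fun h => by
    rw [h, mul_zero] at hnm
    omega
  let c := Module.finBasis ℂ S
  let e1 : (Fin (finrank ℂ S) × Fin m → ℂ) ≃ₗ[ℂ] (Fin m → S) :=
    { toFun := fun x i => ∑ k, x (k, i) • c k
      map_add' := fun x y => by
        funext i
        simp only [Pi.add_apply, add_smul, Finset.sum_add_distrib]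
      map_smul' := fun t x => by
        funext i
        simp only [Pi.smul_apply, smul_eq_mul, mul_smul, Finset.smul_sum, RingHom.id_apply]
      invFun := fun s p => c.repr (s p.2) p.1
      left_inv := fun x => by
        funext p
        simp only
        rw [c.repr_sum_self]
      right_inv := fun s => by
        funext i
        simp only
        rw [c.sum_repr] }
  have he1 : ∀ x i, e1 x i = ∑ k, x (k, i) • c k := fun x i => rfl
  refine ⟨e1.trans e, fun g => ?_⟩
  obtain ⟨a, b, hab⟩ := exists_pure hS e he g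
  let A : Matrix (Fin (finrank ℂ S)) (Fin (finrank ℂ S)) ℂ := LinearMap.toMatrix c c a
  have hA : ∀ l, a (c l) = ∑ k, A k l • c k := fun l => by
    rw [← c.sum_repr (a (c l))]
    refine Finset.sum_congr rfl fun k _ => ?_
    have h1 : A k l = c.repr (a (c l)) k := LinearMap.toMatrix_apply c c a k l
    rw [h1]
  have hk : ∀ v, ρ g (e (e1 v)) = e (e1 ((A ⊗ₖ b) *ᵥ v)) := by
    intro v
    rw [hab]
    congr 1
    funext i
    rw [he1]
    simp only [he1, map_sum, map_smul, hA, Matrix.mulVec, dotProduct, Fintype.sum_prod_type,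
      kroneckerMap_apply, Finset.smul_sum, Finset.sum_smul, smul_smul]
    rw [Finset.sum_comm]
    refine ((Finset.sum_congr rfl fun l _ => Finset.sum_comm).trans Finset.sum_comm).trans ?_
    refine Finset.sum_congr rfl fun k _ => Finset.sum_congr rfl fun l _ =>
      Finset.sum_congr rfl fun j _ => ?_
    congr 1
    ring
  have hinj : Function.Injective ((A ⊗ₖ b).mulVec) := by
    intro v w hvw
    have h1 : ρ g (e (e1 v)) = ρ g (e (e1 w)) := by rw [hk, hk, hvw]
    exact e1.injective (e.injective (injective ρ g h1))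
  have hu : IsUnit (A ⊗ₖ b) := Matrix.mulVec_injective_iff_isUnit.1 hinj
  rw [Matrix.isUnit_iff_isUnit_det, Matrix.det_kronecker] at hu
  have hu2 := isUnit_iff_ne_zero.1 hu
  have hA0 : A.det ≠ 0 := fun h => hu2 (by
    rw [h, Fintype.card_fin, zero_pow hm.ne', zero_mul])
  have hb0 : b.det ≠ 0 := fun h => hu2 (by
    rw [h, Fintype.card_fin, Fintype.card_fin, zero_pow hn.ne', mul_zero])
  obtain ⟨A', hA'⟩ := (Matrix.isUnit_iff_isUnit_det A).2 (isUnit_iff_ne_zero.2 hA0)
  obtain ⟨B', hB'⟩ := (Matrix.isUnit_iff_isUnit_det b).2 (isUnit_iff_ne_zero.2 hb0)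
  refine ⟨A', B', fun v => ?_⟩
  rw [hA', hB']
  exact hk v

/-- **the tensor decomposition** for a free group -/
theorem tens [IsFreeGroup G] [Nontrivial V] [N.Normal]
    (hFI : ∀ U, FI ρ N U → U = ⊥ ∨ U = ⊤) :
    N ≤ scal ρ ∨ IrrOn ρ N ∨
    ∃ (a b : ℕ) (e : (Fin a × Fin b → ℂ) ≃ₗ[ℂ] V) (α : G →* (Matrix (Fin a) (Fin a) ℂ)ˣ)
      (β : G →* (Matrix (Fin b) (Fin b) ℂ)ˣ), 2 ≤ a ∧ 2 ≤ b ∧
      ∀ g v, ρ g (e v) = e (((α g).1 ⊗ₖ (β g).1) *ᵥ v) := by
  classical
  obtain ⟨S, hS, -⟩ := exists_mini (P := Inv ρ N) (U := ⊤) top_ne_bot fun _ _ _ _ => trivial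
  obtain ⟨m, e, he⟩ := exists_equiv hS hFI
  have hV : 0 < finrank ℂ V := finrank_pos
  have hnm := finrank_eq e
  by_cases hn1 : finrank ℂ S = 1
  · left
    intro n hn
    obtain ⟨s, hs0, hs⟩ := finrank_eq_one_iff'.1 hn1
    obtain ⟨c, hc⟩ := hs (restr ρ S N hS.1.2 ⟨n, hn⟩ s)
    refine ⟨c, fun v _ => ?_⟩
    obtain ⟨w, rfl⟩ := e.surjective v
    have h1 := he ⟨n, hn⟩ w
    rw [← h1, ← map_smul]
    congr 1
    funext j
    obtain ⟨d, hd⟩ := hs (w j)
    rw [Pi.smul_apply, ← hd, map_smul, ← hc, smul_comm]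
  by_cases hm1 : m = 1
  · right; left
    rw [hm1, one_mul] at hnm
    have hStop : S = ⊤ := Submodule.eq_top_of_finrank_eq hnm.symm
    intro W hW
    by_cases hW0 : W = ⊥
    · exact Or.inl hW0
    right
    rw [← hStop]
    exact hS.2 W hW0 hW (by rw [hStop]; exact le_top)
  right; right
  obtain ⟨e', he'⟩ := exists_kron hS e he
  choose A B hAB using he'
  refine ⟨finrank ℂ S, m, e', IsFreeGroup.lift fun i => A (IsFreeGroup.of i),
    IsFreeGroup.lift fun i => B (IsFreeGroup.of i), ?_, ?_, ?_⟩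
  · rcases Nat.eq_zero_or_pos (finrank ℂ S) with h | h
    · rw [h, mul_zero] at hnm
      omega
    · omega
  · rcases Nat.eq_zero_or_pos m with h | h
    · rw [h, zero_mul] at hnm
      omega
    · omega
  · -- both sides are homomorphisms which agree on the generators
    let f₁ : G →* (End ℂ (Fin (finrank ℂ S) × Fin m → ℂ)) :=
      { toFun := fun g => e'.symm.toLinearMap ∘ₗ ρ g ∘ₗ e'.toLinearMap
        map_one' := LinearMap.ext fun v => by simp
        map_mul' := fun x y => LinearMap.ext fun v => by simp }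
    let f₂ : G →* (End ℂ (Fin (finrank ℂ S) × Fin m → ℂ)) :=
      { toFun := fun g => Matrix.toLin'
          (((IsFreeGroup.lift fun i => A (IsFreeGroup.of i)) g).1 ⊗ₖ
            ((IsFreeGroup.lift fun i => B (IsFreeGroup.of i)) g).1)
        map_one' := by
          rw [map_one, map_one, Units.val_one, Units.val_one, Matrix.one_kronecker_one,
            Matrix.toLin'_one]
          rfl
        map_mul' := fun x y => by
          rw [map_mul, map_mul, Units.val_mul, Units.val_mul, Matrix.mul_kronecker_mul,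
            Matrix.toLin'_mul]
          rfl }
    have hf : f₁.toHomUnits = f₂.toHomUnits := IsFreeGroup.ext_hom fun i => Units.ext (by
      rw [MonoidHom.coe_toHomUnits, MonoidHom.coe_toHomUnits]
      refine LinearMap.ext fun v => ?_
      show e'.symm (ρ (IsFreeGroup.of i) (e' v)) = _
      rw [hAB, LinearEquiv.symm_apply_apply]
      show _ = Matrix.toLin' _ v
      rw [IsFreeGroup.lift_of, IsFreeGroup.lift_of, Matrix.toLin'_apply])
    intro g v
    have h1 : f₁ g = f₂ g := congrArg Units.val (DFunLike.congr_fun hf g)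
    have h2 := LinearMap.congr_fun h1 v
    have h3 : e'.symm (ρ g (e' v)) = Matrix.toLin' _ v := h2
    rw [LinearEquiv.symm_apply_eq, Matrix.toLin'_apply] at h3
    exact h3

end

end Vale.Agent.P002.H627
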