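import Vale.Agent.P002.H627.U1
import Vale.Agent.P002.H627.T7

/-!
# P002, Theorem T3: the structure theorem relative to a normal subgroup
-/

namespace Vale.Agent.P002.H627

open Module Matrix Kronecker Vale.Agent.P002.H2 Vale.Agent.P002.H377

variable {F : Type} [Group F] {I : Type} [MulAction F I] {V : Type} [AddCommGroup V] [Module ℂ V]

theorem scal_of_kron_scal {m k : Type} [Fintype m] [DecidableEq m] [Fintype k] [DecidableEq k]
    [Nonempty m] {A A' : Matrix m m ℂ} {B B' : Matrix k k ℂ} (hA : IsUnit A) {c : ℂ}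
    (hB' : B' = c • (1 : Matrix k k ℂ)) (h : A ⊗ₖ B = A' ⊗ₖ B') :
    ∃ c : ℂ, B = c • (1 : Matrix k k ℂ) := by
  refine scal_of_kron_one' (A := A) (A' := c • A') hA ?_
  rw [h, hB', Matrix.kronecker_smul, Matrix.smul_kronecker]

/-- **The structure theorem relative to `C.Z`**, which need not act by scalars. -/
theorem structT3 [IsFreeGroup F] [Finite I] [FiniteDimensional ℂ V] {C : Ctx F I}
    {L : IntermediateField ℚ ℂ} {N₀ B : ℕ} (hN₀ : 0 < N₀) (hvs : BaseVS C L N₀ B)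
    (hcu : BaseCurve C L N₀ B) (hμ : ∀ k ≤ 2 * B, 0 < k → ∀ z : ℂ, z ^ k = 1 → z ∈ L)
    {H : Subgroup F} {ρ : F → Module.End ℂ V} (hρ : MulOn H ρ) (hirr : Irr H ρ) (hZ : C.Z ≤ H)
    (hH : H.index ≠ 0)
    (heig : ∀ y ∈ C.Rel, y ∈ H → ∀ a b, (ρ y).HasEigenvalue a → (ρ y).HasEigenvalue b →
      a ^ N₀ = b ^ N₀)
    (hrel : ∃ B' ≤ C.K ⊓ H, B'.relIndex (C.K ⊓ H) ≠ 0 ∧ ∃ k, ∀ x ∈ dser B' k, ∃ z ∈ C.Z,
      ρ x = ρ z)
    (hB : H.index * Module.finrank ℂ V ≤ B) :
    ∃ (H' H'' : Subgroup F) (a n : ℕ) (e : (Fin a × Fin n → ℂ) →ₗ[ℂ] V) (χ : F → ℂˣ)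
      (α : F → SpecialLinearGroup (Fin a) ℂ) (σ : F → SpecialLinearGroup (Fin n) ℂ),
      H'' ≤ H' ∧ H' ≤ H ∧ C.Z ≤ H'' ∧ H''.relIndex H' ≠ 0 ∧ H'.relIndex H ≠ 0 ∧
      Function.Injective e ∧ MulOn H' α ∧ Irr C.Z (lin α) ∧ MulOn H'' χ ∧ MulOn H'' σ ∧
      D C L H'' σ ∧
      (∀ x ∈ H'', ∀ v, ρ x (e v) = (χ x : ℂ) • e (((α x).1 ⊗ₖ (σ x).1) *ᵥ v)) ∧
      (⨆ x ∈ H, (LinearMap.range e).map (ρ x)) = ⊤ ∧
      Module.finrank ℂ V = H''.relIndex H * (a * n) := by
  have hVn := hirr.1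
  obtain ⟨H', a, b, e, α, β, h1, h2, h3, h4, h5, h6, h7, h8, h9, h10, h11, h12⟩ :=
    S1 H C.Z hZ (fun x _ y hy => C.hZ x y hy) ρ hρ hirr
  have hV0 : 0 < finrank ℂ V := finrank_pos
  have ha : 0 < a := Nat.pos_of_ne_zero fun h => by
    rw [h, zero_mul, mul_zero] at h12
    omega
  have hb : 0 < b := Nat.pos_of_ne_zero fun h => by
    rw [h, mul_zero, mul_zero] at h12
    omega
  have hna : Nonempty (Fin a) := ⟨⟨0, ha⟩⟩
  have hnb : Nonempty (Fin b) := ⟨⟨0, hb⟩⟩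
  -- admissibility of the second factor
  have hA : Adm C N₀ H' (lu β) :=
    { mul := lu_mulOn h6
      irr := h9
      zle := h2
      fi := by
        rw [← Subgroup.relIndex_mul_index h1]
        exact mul_ne_zero h3 hH
      zscal := h8
      eig := by
        intro y hy hyH c c' hc hc'
        obtain ⟨d, hd, hd1⟩ := lu_eigen (fun x => slU (α x)) y
        obtain ⟨u, hu⟩ := hd1.exists_hasEigenvector
        have key : ∀ c, (lu β y).HasEigenvalue c → (ρ y).HasEigenvalue (d * c) := by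
          intro c hc
          obtain ⟨w, hw⟩ := hc.exists_hasEigenvector
          have hu1 : (α y).1 *ᵥ u = d • u := hu.apply_eq_smul
          have hw1 : (β y).1 *ᵥ w = c • w := hw.apply_eq_smul
          refine Module.End.hasEigenvalue_of_hasEigenvector (x := e (tp u w))
            ⟨Module.End.mem_eigenspace_iff.2 ?_, fun h0 => tp_ne_zero hu.2 hw.2
              (h4 (h0.trans (map_zero e).symm))⟩
          rw [h10 y hyH, kron_mulVec, hu1, hw1, ← map_smul]
          congr 1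
          funext p
          simp only [tp, Pi.smul_apply, smul_eq_mul]
          ring
        have h13 := heig y hy (h1 hyH) _ _ (key c hc) (key c' hc')
        rw [mul_pow, mul_pow] at h13
        exact mul_left_cancel₀ (pow_ne_zero _ hd) h13
      vs := by
        obtain ⟨B', hB', hBi, k, hk⟩ := hrel
        have h13 : (C.K ⊓ H') ≤ C.K ⊓ H := inf_le_inf_left _ h1
        refine ⟨B' ⊓ (C.K ⊓ H'), inf_le_right, relIndex_of_le h13 hBi, k + 1, ?_⟩
        have hle : dser (B' ⊓ (C.K ⊓ H')) k ≤ C.K ⊓ H' :=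
          (H2.dser_le _ k).trans inf_le_right
        refine comm_eq_one (MulOn.mono (lu_mulOn h6) inf_le_right) hle hle fun x hx y _ => ?_
        refine scal_comm ?_
        have hxH : x ∈ H' := (hle hx).2
        obtain ⟨z, hz, hxz⟩ := hk x (dser_mono inf_le_left k hx)
        obtain ⟨c, hc⟩ := h8 z hz
        have hc' : (β z).1 = c • (1 : Matrix (Fin b) (Fin b) ℂ) := by
          apply Matrix.toLin'.injective
          rw [map_smul, Matrix.toLin'_one]
          exact hc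
        have h14 : (α x).1 ⊗ₖ (β x).1 = (α z).1 ⊗ₖ (β z).1 := by
          apply Matrix.toLin'.injective
          refine LinearMap.ext fun v => h4 ?_
          rw [Matrix.toLin'_apply, Matrix.toLin'_apply, ← h10 x hxH, ← h10 z (h2 hz), hxz]
        obtain ⟨c', hc''⟩ := scal_of_kron_scal (slU (α x)).isUnit hc' h14
        refine ⟨c', ?_⟩
        rw [lu, hc'', map_smul, Matrix.toLin'_one]
        rfl }
  have hbound : H'.index * finrank ℂ (Fin b → ℂ) ≤ B := by
    rw [Module.finrank_fin_fun]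
    refine le_trans ?_ hB
    rw [h12, ← Subgroup.relIndex_mul_index h1]
    calc H'.relIndex H * H.index * b = H.index * (H'.relIndex H * (1 * b)) := by ring
      _ ≤ H.index * (H'.relIndex H * (a * b)) := by gcongr; exact ha
  obtain ⟨H'', n, e₂, χ, σ, g1, g2, g3, g4, g5, g6, g7, g8, -, g10⟩ :=
    PA5 C L N₀ B hN₀ hvs hcu hμ H' (lu β) hA hbound
  rw [Module.finrank_fin_fun] at g10
  have hn : 0 < n := Nat.pos_of_ne_zero fun h => by
    rw [h, mul_zero] at g10
    omega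
  let f : (Fin a × Fin n → ℂ) →ₗ[ℂ] V :=
    e ∘ₗ Matrix.toLin' ((1 : Matrix (Fin a) (Fin a) ℂ) ⊗ₖ LinearMap.toMatrix' e₂)
  have hf : ∀ v, f v = e (((1 : Matrix (Fin a) (Fin a) ℂ) ⊗ₖ LinearMap.toMatrix' e₂) *ᵥ v) :=
    fun v => rfl
  have hinj : Function.Injective f := by
    obtain ⟨g₂, hg₂⟩ := LinearMap.exists_leftInverse_of_injective e₂ (LinearMap.ker_eq_bot.2 g4)
    have k2 : LinearMap.toMatrix' g₂ * LinearMap.toMatrix' e₂ = 1 := by
      rw [← LinearMap.toMatrix'_comp, hg₂, LinearMap.toMatrix'_id]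
    intro v w hvw
    rw [hf, hf] at hvw
    have k3 := congrArg (fun u => ((1 : Matrix (Fin a) (Fin a) ℂ) ⊗ₖ LinearMap.toMatrix' g₂) *ᵥ u)
      (h4 hvw)
    simpa only [Matrix.mulVec_mulVec, ← Matrix.mul_kronecker_mul, k2, mul_one,
      Matrix.one_kronecker_one, Matrix.one_mulVec] using k3
  refine ⟨H', H'', a, n, f, χ, α, σ, g1, h1, g2, g3, h3, hinj, h5, h7, g5, g6, g7,
    fun x hx v => ?_, sup_eq_top hρ hirr fun h0 => ?_, ?_⟩
  · rw [hf, h10 x (g1 hx), Matrix.mulVec_mulVec, ← Matrix.mul_kronecker_mul, mul_one,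
      toMatrix'_rel (fun v => g8 x hx v), Matrix.kronecker_smul]
    have k1 : (α x).1 = (1 : Matrix (Fin a) (Fin a) ℂ) * (α x).1 := (one_mul _).symm
    conv_lhs => rw [k1]
    rw [Matrix.mul_kronecker_mul, Matrix.smul_mulVec, ← Matrix.mulVec_mulVec, map_smul, hf]
  · rw [LinearMap.range_eq_bot] at h0
    have : Nonempty (Fin n) := ⟨⟨0, hn⟩⟩
    obtain ⟨w, hw⟩ := exists_ne (0 : Fin a × Fin n → ℂ)
    exact hw (hinj (by rw [h0]; rfl))
  · rw [h12, g10, ← Subgroup.relIndex_mul_relIndex _ _ _ g1 h1]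
    ring

end Vale.Agent.P002.H627
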